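import Vale.Agent.P004.H628.KerEq

/-!
# P004: the twisted second moment (`StTw2`) from the bilinear bound
-/

open Real MeasureTheory Set
open scoped ENNReal

namespace P004.H628

open P004.H3

/-- the norm of the cut-off -/
lemma int_cut {f : ℝ → ℝ} {U L : ℝ} (hL : 1 ≤ L) (hU : Real.exp (-L) ≤ U) (hf1 : ∀ u, |f u| ≤ 1)
    (hf0 : ∀ u, u < U → f u = 0) :
    ∫⁻ u : ℝ, ENNReal.ofReal |f u| ^ 2 * ENNReal.ofReal (u ^ (-1 - 2 * (1 / (8 * L)))) ≤
      ENNReal.ofReal (4 * Real.exp 1 * L) := by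
  have hU0 : 0 < U := (Real.exp_pos _).trans_le hU
  have hL0 : 0 < L := by linarith
  have e0 : ∀ u : ℝ, ENNReal.ofReal |f u| ^ 2 * ENNReal.ofReal (u ^ (-1 - 2 * (1 / (8 * L)))) ≤
      (Ici U).indicator (fun u => ENNReal.ofReal (u ^ (-1 - 1 / (4 * L)))) u := by
    intro u
    by_cases hu : u < U
    · rw [hf0 u hu]; simp
    · rw [indicator_of_mem (by exact not_lt.mp hu)]
      have h1 : ENNReal.ofReal |f u| ^ 2 ≤ 1 := by
        refine pow_le_one₀ zero_le ?_
        rw [← ENNReal.ofReal_one]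
        exact ENNReal.ofReal_le_ofReal (hf1 u)
      have h2 : (-1 - 2 * (1 / (8 * L)) : ℝ) = -1 - 1 / (4 * L) := by
        field_simp; ring
      rw [h2]
      calc ENNReal.ofReal |f u| ^ 2 * ENNReal.ofReal (u ^ (-1 - 1 / (4 * L)))
          ≤ 1 * ENNReal.ofReal (u ^ (-1 - 1 / (4 * L))) := by gcongr
        _ = _ := one_mul _
  refine (lintegral_mono e0).trans ?_
  rw [lintegral_indicator measurableSet_Ici, ← setLIntegral_congr Ioi_ae_eq_Ici]
  have ha : -1 - 1 / (4 * L) < -1 := by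
    have : 0 < 1 / (4 * L) := by positivity
    linarith
  rw [← ofReal_integral_eq_lintegral_ofReal (integrableOn_Ioi_rpow_of_lt ha hU0)
    ((ae_restrict_mem measurableSet_Ioi).mono fun u hu => by
      have : 0 < u := hU0.trans hu
      positivity), integral_Ioi_rpow_of_lt ha hU0]
  refine ENNReal.ofReal_le_ofReal ?_
  have e1 : -1 - 1 / (4 * L) + 1 = -(1 / (4 * L)) := by ring
  rw [e1]
  have h3 : U ^ (-(1 / (4 * L))) ≤ Real.exp 1 := by
    calc U ^ (-(1 / (4 * L))) ≤ (Real.exp (-L)) ^ (-(1 / (4 * L))) :=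
          Real.rpow_le_rpow_of_nonpos (Real.exp_pos _) hU (by
            have : 0 < 1 / (4 * L) := by positivity
            linarith)
      _ = Real.exp (1 / 4) := by
          rw [← Real.exp_mul]
          congr 1
          field_simp
      _ ≤ Real.exp 1 := Real.exp_le_exp.mpr (by norm_num)
  have e2 : -U ^ (-(1 / (4 * L))) / -(1 / (4 * L)) = 4 * L * U ^ (-(1 / (4 * L))) := by
    rw [neg_div_neg_eq]
    field_simp
  rw [e2]
  nlinarith

theorem tw2_aux (hC : StCoef) (hT : Tw.StTwL) : StTw2 := by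
  obtain ⟨C, hC1, A, hB⟩ := hT
  have he := Real.exp_pos (1 : ℝ)
  refine ⟨max 1 (4 * Real.exp 1 * C), le_max_left _ _, A + 1, ?_⟩
  intro L H U ν f hL hH hHL hUL hU1 hν hνL hfm hf1 hf0
  have hU0 : 0 < U := (Real.exp_pos _).trans_le hUL
  have hH0 : 0 < H := by linarith
  have hL0 : 0 < L := by linarith
  rw [diff_eq hC hU0 hH0 hfm hf1 hf0 hν.1]
  have hd := diff_le hC hU0 hH0 hfm hf1 hf0 ν
  have e1 : ∫⁻ z : ℝ × ℝ, ENNReal.ofReal |f z.1| * ENNReal.ofReal |f z.2| *
        ENNReal.ofReal |Ker H ν z.1 z.2| =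
      ∫⁻ z : ℝ × ℝ, ENNReal.ofReal |f z.1| * ENNReal.ofReal |f z.2| *
        ‖Tw.Toff H ν z.1 z.2‖ₑ := by
    refine lintegral_congr fun z => ?_
    by_cases h1 : z.1 < U
    · rw [hf0 _ h1]; simp
    by_cases h2 : z.2 < U
    · rw [hf0 _ h2]; simp
    rw [ker_eq hC hH0 hν.1 (hU0.trans_le (not_lt.mp h1)) (hU0.trans_le (not_lt.mp h2)),
      ← ofReal_norm, Real.norm_eq_abs]
  have hN1 : 1 ≤ 1 / U := by rw [le_div_iff₀ hU0]; linarith
  have hNL : Real.log (1 / U) ≤ L := by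
    rw [one_div, Real.log_inv]
    have := Real.log_le_log (Real.exp_pos _) hUL
    rw [Real.log_exp] at this
    linarith
  have hcut : ∀ u : ℝ, u < 1 / (3 * (1 / U)) → ENNReal.ofReal |f u| = 0 := by
    intro u hu
    have : 1 / (3 * (1 / U)) ≤ U := by
      rw [show 1 / (3 * (1 / U)) = U / 3 by field_simp]
      linarith
    rw [hf0 u (hu.trans_le this)]
    simp
  have hm : Measurable fun u : ℝ => ENNReal.ofReal |f u| :=
    (hfm.norm).ennreal_ofReal
  have h3 := hB L H (1 / U) ν hL hH hHL hN1 hNL hν hνL (fun u => ENNReal.ofReal |f u|)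
    (fun u => ENNReal.ofReal |f u|) hm hm hcut hcut
  have h4 : Tw.Nh (1 / (8 * L)) (fun u => ENNReal.ofReal |f u|) *
      Tw.Nh (1 / (8 * L)) (fun u => ENNReal.ofReal |f u|) ≤ ENNReal.ofReal (4 * Real.exp 1 * L) := by
    unfold Tw.Nh
    rw [← ENNReal.rpow_add_of_nonneg _ _ (by norm_num) (by norm_num)]
    norm_num
    have := int_cut hL hUL hf1 hf0
    simpa using this
  have h5 : ENNReal.ofReal |∑' p : ℕ × ℕ, bet f p.1 * bet f p.2 * Eh H (ν * p.1 * p.2)| ≤
      ENNReal.ofReal ((C * L ^ A * √(ν : ℝ) * dv ν ^ A * (1 / U)) * (4 * Real.exp 1 * L)) := by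
    refine (hd.trans (e1.le.trans h3)).trans ?_
    have hnn : 0 ≤ C * L ^ A * √(ν : ℝ) * dv ν ^ A * (1 / U) := by
      have := dv_nonneg ν
      positivity
    rw [ENNReal.ofReal_mul hnn]
    exact mul_le_mul_right h4 _
  have hdv := one_le_dv hν.1
  have h6 : |∑' p : ℕ × ℕ, bet f p.1 * bet f p.2 * Eh H (ν * p.1 * p.2)| ≤
      (C * L ^ A * √(ν : ℝ) * dv ν ^ A * (1 / U)) * (4 * Real.exp 1 * L) := by
    rwa [ENNReal.ofReal_le_ofReal_iff (by positivity)] at h5
  refine h6.trans ?_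
  calc (C * L ^ A * √(ν : ℝ) * dv ν ^ A * (1 / U)) * (4 * Real.exp 1 * L)
      = (4 * Real.exp 1 * C) * L ^ (A + 1) * (√(ν : ℝ) * dv ν ^ A) / U := by
        field_simp
        ring
    _ ≤ max 1 (4 * Real.exp 1 * C) * L ^ (A + 1) * (√(ν : ℝ) * dv ν ^ (A + 1)) / U := by
        gcongr
        · exact le_max_right _ _
        · omega

end P004.H628

namespace P004

/-- Module T2 : the twisted second moment, from the bilinear bound. -/
theorem pfTw2 (hC : StCoef) (hT : Tw.StTwL) : StTw2 := H628.tw2_aux hC hT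

end P004
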