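import Vale.Agent.P004.H503.Iface3
import Vale.Agent.P004.A1

/-!
# P004: the product of mollifier blocks as a Dirichlet polynomial (`StPoly`)
-/

open Real Set

namespace P004.H628

lemma yk_pos (L : ℝ) (k : ℕ) : 0 < yk L k := exp_pos _

lemma yk_anti {L : ℝ} (hL : 0 ≤ L) {k l : ℕ} (h : k ≤ l) : yk L l ≤ yk L k := by
  unfold yk
  apply exp_le_exp.mpr
  have h1 : Real.exp (-(l : ℝ)) ≤ Real.exp (-(k : ℝ)) := by
    apply exp_le_exp.mpr
    have : (k : ℝ) ≤ l := by exact_mod_cast h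
    linarith
  have h2 : 0 ≤ L / 8000 := by positivity
  exact mul_le_mul_of_nonneg_left h1 h2

lemma mem_Ik {L : ℝ} {k p : ℕ} : p ∈ Ik L k ↔ (p : ℝ) ≤ yk L k ∧ p.Prime ∧ p ≠ 2 ∧
    yk L (k + 1) < p := by
  unfold Ik
  rw [Finset.mem_filter, Finset.mem_range, Nat.lt_succ_iff, Nat.le_floor_iff (yk_pos L k).le]

lemma Ik_disj {L : ℝ} (hL : 0 ≤ L) {k l p : ℕ} (hk : p ∈ Ik L k) (hl : p ∈ Ik L l) : k = l := by
  rw [mem_Ik] at hk hl
  rcases lt_trichotomy k l with h | h | h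
  · exact absurd (hk.2.2.2.trans_le (hl.1.trans (yk_anti hL h))) (lt_irrefl _)
  · exact h
  · exact absurd (hl.2.2.2.trans_le (hk.1.trans (yk_anti hL h))) (lt_irrefl _)

lemma prod_ne {L : ℝ} {k : ℕ} : (∏ p ∈ Ik L k, p ^ 2) ≠ 0 := by
  rw [Finset.prod_ne_zero_iff]
  intro p hp
  exact pow_ne_zero _ (mem_Ik.mp hp).2.1.ne_zero

lemma Ak_mem {L : ℝ} {k a : ℕ} (ha : a ∈ Ak L k) : a ≠ 0 ∧ a ∣ ∏ p ∈ Ik L k, p ^ 2 ∧
    ArithmeticFunction.cardFactors a ≤ lk k := by
  unfold Ak at ha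
  rw [Finset.mem_filter, Nat.mem_divisors] at ha
  exact ⟨fun h => ha.1.2 (by simpa [h] using ha.1.1), ha.1.1, ha.2⟩

lemma Ak_prime {L : ℝ} {k a p : ℕ} (ha : a ∈ Ak L k) (hp : p.Prime) (hpa : p ∣ a) :
    p ∈ Ik L k := by
  have h1 : p ∣ ∏ q ∈ Ik L k, q ^ 2 := hpa.trans (Ak_mem ha).2.1
  rw [hp.prime.dvd_finsetProd_iff] at h1
  obtain ⟨q, hq, hpq⟩ := h1
  have h2 : p ∣ q := hp.dvd_of_dvd_pow hpq
  rw [(Nat.prime_dvd_prime_iff_eq hp (mem_Ik.mp hq).2.1).mp h2]
  exact hq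

lemma Ak_log {L : ℝ} (hL : 0 ≤ L) {k a : ℕ} (ha : a ∈ Ak L k) :
    Real.log a ≤ lk k * (L / 8000 * Real.exp (-(k : ℝ))) := by
  obtain ⟨h0, h1, h2⟩ := Ak_mem ha
  have h3 : (a : ℝ) ≤ (yk L k) ^ (a.primeFactorsList.length) := by
    have h4 : ∀ l : List ℕ, (∀ p ∈ l, (p : ℝ) ≤ yk L k) →
        ((l.prod : ℕ) : ℝ) ≤ (yk L k) ^ l.length := by
      intro l
      induction l with
      | nil => intro _; simp
      | cons p l ih =>
        intro h
        rw [List.prod_cons, List.length_cons, pow_succ, Nat.cast_mul, mul_comm]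
        have h5 := ih (fun q hq => h q (List.mem_cons_of_mem _ hq))
        have h6 := h p List.mem_cons_self
        have h7 := (yk_pos L k).le
        exact mul_le_mul h5 h6 (Nat.cast_nonneg _) (pow_nonneg h7 _)
    have h5 := h4 a.primeFactorsList (fun p hp => by
      have hp1 := Nat.prime_of_mem_primeFactorsList hp
      have hp2 := Nat.dvd_of_mem_primeFactorsList hp
      exact (mem_Ik.mp (Ak_prime ha hp1 hp2)).1)
    rwa [Nat.prod_primeFactorsList h0] at h5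
  have h6 : (0 : ℝ) < a := by exact_mod_cast Nat.pos_of_ne_zero h0
  have h7 := Real.log_le_log h6 h3
  rw [Real.log_pow] at h7
  have h8 : Real.log (yk L k) = L / 8000 * Real.exp (-(k : ℝ)) := by
    unfold yk; rw [Real.log_exp]
  rw [h8] at h7
  have h9 : (a.primeFactorsList.length : ℝ) ≤ lk k := by
    exact_mod_cast h2
  refine h7.trans (mul_le_mul_of_nonneg_right h9 ?_)
  have : 0 ≤ L / 8000 := by positivity
  positivity

lemma muc_mul {a b : ℕ} (ha : a ≠ 0) (hb : b ≠ 0) (h : a.Coprime b) :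
    muc (a * b) = muc a * muc b := by
  unfold muc
  rw [h.primeFactors_mul, Finset.prod_union h.disjoint_primeFactors]
  have hf : ∀ p, (a * b).factorization p = a.factorization p + b.factorization p := by
    intro p; rw [Nat.factorization_mul ha hb]; rfl
  congr 1
  · refine Finset.prod_congr rfl fun p hp => ?_
    have h1 : b.factorization p = 0 := by
      apply Nat.factorization_eq_zero_of_not_dvd
      intro hpb
      have hp1 := Nat.prime_of_mem_primeFactors hp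
      have hp2 := Nat.dvd_of_mem_primeFactors hp
      exact hp1.one_lt.ne' (Nat.dvd_one.mp (h ▸ Nat.dvd_gcd hp2 hpb))
    rw [hf, h1, add_zero]
  · refine Finset.prod_congr rfl fun p hp => ?_
    have h1 : a.factorization p = 0 := by
      apply Nat.factorization_eq_zero_of_not_dvd
      intro hpa
      have hp1 := Nat.prime_of_mem_primeFactors hp
      have hp2 := Nat.dvd_of_mem_primeFactors hp
      exact hp1.one_lt.ne' (Nat.dvd_one.mp (h ▸ Nat.dvd_gcd hpa hp2))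
    rw [hf, h1, zero_add]

lemma ca_le {p : ℕ} (hp : p.Prime) : |(ca p : ℝ)| ≤ p := by
  by_cases h4 : p % 4 = 1
  · have h5 : 5 ≤ p := by
      have := hp.two_le
      by_contra hc
      interval_cases p <;> simp_all
    have h1 := pfStCoef.bound p
    have h2 : dv p = 2 := by
      unfold dv
      rw [hp.divisors, Finset.card_pair hp.one_lt.ne]
      norm_num
    rw [h2] at h1
    have h3 : (0 : ℝ) ≤ p := Nat.cast_nonneg _
    have h6 : (5 : ℝ) ≤ p := by exact_mod_cast h5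
    have h7 : 2 * √(p : ℝ) ≤ p := by
      have h8 := Real.sq_sqrt h3
      have h9 : (2 : ℝ) ≤ √(p : ℝ) := by
        rw [Real.le_sqrt (by norm_num) h3]; linarith
      nlinarith
    linarith
  · rw [pfStCoef.mod_four p h4]
    simp

lemma muc_le {a : ℕ} (ha : a ≠ 0) : |muc a| ≤ a := by
  have h1 : (a : ℝ) = ∏ p ∈ a.primeFactors, (p : ℝ) ^ a.factorization p := by
    conv_lhs => rw [← Nat.prod_factorization_pow_eq_self ha]
    rw [Finsupp.prod, Nat.support_factorization]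
    push_cast
    rfl
  unfold muc
  rw [Finset.abs_prod]
  conv_rhs => rw [h1]
  refine Finset.prod_le_prod (fun _ _ => abs_nonneg _) fun p hp => ?_
  have hp1 := Nat.prime_of_mem_primeFactors hp
  have hp3 : (1 : ℝ) ≤ p := by exact_mod_cast hp1.one_lt.le
  split_ifs with h2 h3
  · rw [h2, pow_one, abs_neg]; exact ca_le hp1
  · rw [h3, abs_of_nonneg (by linarith)]; nlinarith
  · rw [abs_zero]; positivity

lemma muc_good {a : ℕ} (ha : a ≠ 0) (h : muc a ≠ 0) (p : ℕ) (hp : p.Prime) (h3 : p % 4 = 3) :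
    Even (a.factorization p) := by
  by_cases hpa : p ∣ a
  · unfold muc at h
    rw [Finset.prod_ne_zero_iff] at h
    have h4 := h p (Nat.mem_primeFactors.mpr ⟨hp, hpa, ha⟩)
    split_ifs at h4 with h5 h6
    · exfalso
      apply h4
      rw [pfStCoef.three_mod_four p hp h3]
      simp
    · rw [h6]; exact even_two
    · exact absurd rfl h4
  · rw [Nat.factorization_eq_zero_of_not_dvd hpa]
    exact Even.zero

/-- the coefficient of the mollifier -/
noncomputable def cm (L K : ℝ) (a : ℕ) : ℝ := muc a * (a : ℝ) ^ (-1 - K / L)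

lemma cm_mul (L K : ℝ) {a b : ℕ} (ha : a ≠ 0) (hb : b ≠ 0) (h : a.Coprime b) :
    cm L K (a * b) = cm L K a * cm L K b := by
  unfold cm
  rw [muc_mul ha hb h, Nat.cast_mul, Real.mul_rpow (Nat.cast_nonneg _) (Nat.cast_nonneg _)]
  ring

lemma prod_blocks {L : ℝ} (hL : 0 ≤ L) (K : ℝ) (T : Finset ℕ) :
    ∃ S : Finset ℕ, (∀ X : ℕ → ℝ, CM X → ∏ k ∈ T, Mk L K k X = ∑ a ∈ S, cm L K a * X a) ∧
      ∀ a ∈ S, a ≠ 0 ∧ (∀ p : ℕ, p.Prime → p ∣ a → ∃ k ∈ T, p ∈ Ik L k) ∧
        Real.log a ≤ ∑ k ∈ T, lk k * (L / 8000 * Real.exp (-(k : ℝ))) := by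
  induction T using Finset.induction_on with
  | empty =>
    refine ⟨{1}, ?_, ?_⟩
    · intro X hX
      simp [cm, muc, hX.1]
    · intro a ha
      rw [Finset.mem_singleton] at ha
      subst ha
      refine ⟨one_ne_zero, ?_, by simp⟩
      intro p hp hp1
      exact absurd (Nat.dvd_one.mp hp1) hp.one_lt.ne'
  | insert k T hk ih =>
    obtain ⟨S, hS1, hS2⟩ := ih
    have hcop : ∀ b ∈ Ak L k, ∀ a ∈ S, Nat.Coprime b a := by
      intro b hb a ha
      rw [Nat.coprime_iff_gcd_eq_one]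
      by_contra hne
      obtain ⟨p, hp, hpd⟩ := Nat.exists_prime_and_dvd hne
      have h1 := Ak_prime hb hp (hpd.trans (Nat.gcd_dvd_left _ _))
      obtain ⟨l, hl, h2⟩ := (hS2 a ha).2.1 p hp (hpd.trans (Nat.gcd_dvd_right _ _))
      exact hk ((Ik_disj hL h1 h2) ▸ hl)
    have hinj : Set.InjOn (fun q : ℕ × ℕ => q.1 * q.2) (↑(Ak L k ×ˢ S) : Set (ℕ × ℕ)) := by
      rintro ⟨b, a⟩ h1 ⟨b', a'⟩ h2 h3
      rw [Finset.mem_coe, Finset.mem_product] at h1 h2
      simp only at h1 h2 h3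
      have e1 : b = b' := by
        apply Nat.dvd_antisymm
        · exact (hcop b h1.1 a' h2.2).dvd_of_dvd_mul_right (h3 ▸ Dvd.intro _ rfl)
        · exact (hcop b' h2.1 a h1.2).dvd_of_dvd_mul_right (h3 ▸ Dvd.intro _ rfl)
      subst e1
      have e2 : a = a' := Nat.eq_of_mul_eq_mul_left (Nat.pos_of_ne_zero (Ak_mem h1.1).1) h3
      rw [e2]
    refine ⟨(Ak L k ×ˢ S).image (fun q : ℕ × ℕ => q.1 * q.2), ?_, ?_⟩
    · intro X hX
      rw [Finset.prod_insert hk, hS1 X hX, Finset.sum_image hinj, Finset.sum_product]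
      unfold Mk
      rw [Finset.sum_mul_sum]
      refine Finset.sum_congr rfl fun b hb => Finset.sum_congr rfl fun a ha => ?_
      rw [cm_mul L K (Ak_mem hb).1 (hS2 a ha).1 (hcop b hb a ha),
        hX.2 b a (Ak_mem hb).1 (hS2 a ha).1]
      unfold cm
      ring
    · intro c hc
      rw [Finset.mem_image] at hc
      obtain ⟨⟨b, a⟩, h1, rfl⟩ := hc
      rw [Finset.mem_product] at h1
      simp only at h1 ⊢
      obtain ⟨hb, ha⟩ := h1
      have hb0 := (Ak_mem hb).1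
      obtain ⟨ha0, ha1, ha2⟩ := hS2 a ha
      refine ⟨mul_ne_zero hb0 ha0, ?_, ?_⟩
      · intro p hp hpd
        rcases hp.dvd_mul.mp hpd with h | h
        · exact ⟨k, Finset.mem_insert_self _ _, Ak_prime hb hp h⟩
        · obtain ⟨l, hl, h2⟩ := ha1 p hp h
          exact ⟨l, Finset.mem_insert_of_mem hl, h2⟩
      · rw [Nat.cast_mul, Real.log_mul (by exact_mod_cast hb0) (by exact_mod_cast ha0),
          Finset.sum_insert hk]
        exact add_le_add (Ak_log hL hb) ha2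

lemma lk_le (k : ℕ) : (lk k : ℝ) * Real.exp (-(k : ℝ)) ≤
    5 * (Real.exp (-(k : ℝ) / 2) - Real.exp (-((k + 1 : ℕ) : ℝ) / 2)) := by
  have hx : Real.exp (-1 / 2) ≤ 2 / 3 := by
    have h1 : (3 / 2 : ℝ) ≤ Real.exp (1 / 2) := by
      have := Real.add_one_le_exp (1 / 2 : ℝ); linarith
    have h2 : Real.exp (-1 / 2) * Real.exp (1 / 2) = 1 := by
      rw [← Real.exp_add]; norm_num
    have h3 := Real.exp_pos (-1 / 2)
    nlinarith
  have h1 : Real.exp (-((k + 1 : ℕ) : ℝ) / 2) = Real.exp (-(k : ℝ) / 2) * Real.exp (-1 / 2) := by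
    rw [← Real.exp_add]; congr 1; push_cast; ring
  have h2 : (lk k : ℝ) ≤ (1 + Real.exp (-1 / 2)) * Real.exp ((k : ℝ) / 2) := by
    unfold lk
    rcases Nat.eq_zero_or_pos k with h | h
    · subst h
      simp only [Nat.cast_zero, zero_div, Real.exp_zero, Nat.ceil_one, Nat.cast_one, mul_one]
      have := Real.exp_pos (-1 / 2)
      linarith
    · have h3 := (Nat.ceil_lt_add_one (Real.exp_pos ((k : ℝ) / 2)).le).le
      have h4 : 1 ≤ Real.exp (-1 / 2) * Real.exp ((k : ℝ) / 2) := by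
        rw [← Real.exp_add]
        apply Real.one_le_exp
        have : (1 : ℝ) ≤ k := by exact_mod_cast h
        linarith
      nlinarith
  have h5 : Real.exp ((k : ℝ) / 2) * Real.exp (-(k : ℝ)) = Real.exp (-(k : ℝ) / 2) := by
    rw [← Real.exp_add]; congr 1; ring
  have h6 := Real.exp_pos (-(k : ℝ) / 2)
  rw [h1]
  calc (lk k : ℝ) * Real.exp (-(k : ℝ))
      ≤ (1 + Real.exp (-1 / 2)) * Real.exp ((k : ℝ) / 2) * Real.exp (-(k : ℝ)) :=
        mul_le_mul_of_nonneg_right h2 (Real.exp_pos _).le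
    _ = (1 + Real.exp (-1 / 2)) * Real.exp (-(k : ℝ) / 2) := by rw [mul_assoc, h5]
    _ ≤ _ := by nlinarith

lemma sum_lk (k₁ n : ℕ) : ∑ k ∈ Finset.Ico k₁ (k₁ + n), (lk k : ℝ) * Real.exp (-(k : ℝ)) ≤
    5 * (Real.exp (-(k₁ : ℝ) / 2) - Real.exp (-((k₁ + n : ℕ) : ℝ) / 2)) := by
  induction n with
  | zero => simp
  | succ n ih =>
    rw [← add_assoc, Finset.sum_Ico_succ_top (Nat.le_add_right _ _)]
    have := lk_le (k₁ + n)
    linarith

lemma sum_lk' (k₁ k₂ : ℕ) : ∑ k ∈ Finset.Ico k₁ k₂, (lk k : ℝ) * Real.exp (-(k : ℝ)) ≤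
    5 * Real.exp (-(k₁ : ℝ) / 2) := by
  rcases le_total k₁ k₂ with h | h
  · obtain ⟨n, rfl⟩ := Nat.exists_eq_add_of_le h
    have h1 := sum_lk k₁ n
    have h2 := Real.exp_pos (-((k₁ + n : ℕ) : ℝ) / 2)
    linarith
  · rw [Finset.Ico_eq_empty_of_le h, Finset.sum_empty]
    positivity

theorem poly_aux : StPoly := by
  intro L K k₁ k₂ hL hK
  have hL0 : 0 ≤ L := by linarith
  obtain ⟨S, hS1, hS2⟩ := prod_blocks hL0 K (Finset.Ico k₁ k₂)
  classical
  refine ⟨S.filter (fun a => muc a ≠ 0), cm L K, ?_, ?_⟩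
  · intro X hX
    unfold Mf
    rw [hS1 X hX, Finset.sum_filter_of_ne]
    intro a _ h1 h2
    apply h1
    unfold cm
    rw [h2]
    ring
  · intro a ha
    rw [Finset.mem_filter] at ha
    obtain ⟨ha, hmu⟩ := ha
    obtain ⟨h0, h1, h2⟩ := hS2 a ha
    have ha1 : (1 : ℝ) ≤ a := by exact_mod_cast Nat.pos_of_ne_zero h0
    have ha0 : (0 : ℝ) < a := by linarith
    refine ⟨?_, ⟨h0, ?_⟩, ?_, ?_⟩
    · unfold cm
      rw [abs_mul, abs_of_pos (Real.rpow_pos_of_pos ha0 _)]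
      have h3 : (a : ℝ) ^ (-1 - K / L) ≤ (a : ℝ) ^ (-1 : ℝ) := by
        apply Real.rpow_le_rpow_of_exponent_le ha1
        have : 0 ≤ K / L := by positivity
        linarith
      calc |muc a| * (a : ℝ) ^ (-1 - K / L) ≤ a * (a : ℝ) ^ (-1 : ℝ) :=
            mul_le_mul (muc_le h0) h3 (Real.rpow_pos_of_pos ha0 _).le ha0.le
        _ = 1 := by rw [Real.rpow_neg_one, mul_inv_cancel₀ ha0.ne']
    · intro p hp hpa
      obtain ⟨k, _, hk⟩ := h1 p hp hpa
      exact ⟨(mem_Ik.mp hk).2.2.1, muc_good h0 hmu p hp⟩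
    · have h4 : ∑ k ∈ Finset.Ico k₁ k₂, (lk k : ℝ) * (L / 8000 * Real.exp (-(k : ℝ))) ≤
          L / 1600 * Real.exp (-(k₁ : ℝ) / 2) := by
        have h5 := sum_lk' k₁ k₂
        calc ∑ k ∈ Finset.Ico k₁ k₂, (lk k : ℝ) * (L / 8000 * Real.exp (-(k : ℝ)))
            = L / 8000 * ∑ k ∈ Finset.Ico k₁ k₂, (lk k : ℝ) * Real.exp (-(k : ℝ)) := by
              rw [Finset.mul_sum]
              exact Finset.sum_congr rfl fun k _ => by ring
          _ ≤ L / 8000 * (5 * Real.exp (-(k₁ : ℝ) / 2)) :=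
              mul_le_mul_of_nonneg_left h5 (by positivity)
          _ = _ := by ring
      rw [← Real.log_le_iff_le_exp ha0]
      exact h2.trans h4
    · intro p hp hpa
      obtain ⟨k, hk1, hk⟩ := h1 p hp hpa
      exact (mem_Ik.mp hk).1.trans (yk_anti hL0 (Finset.mem_Ico.mp hk1).1)

end P004.H628

namespace P004

/-- Module M0 : the product of blocks as a Dirichlet polynomial. -/
theorem pfPoly : StPoly := H628.poly_aux

end P004
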