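import Vale.Agent.P004.H503.Iface3
import Vale.Agent.P004.H293.Rand

/-!
# P004: the two descriptions of the random model agree
-/

open Real

namespace P004.H628

open P004.H293

/-- the random character as a function of its values at the primes -/
noncomputable def ffx (ω : ℕ → ℝ) (n : ℕ) : ℝ := ∏ p ∈ n.primeFactors, ω p ^ n.factorization p

/-- extension by zero -/
noncomputable def ext {N : ℕ} (ω : Fin N → SignType) (p : ℕ) : ℝ :=
  if h : p < N then ((ω ⟨p, h⟩ : SignType) : ℝ) else 0

lemma Xf_ext {N : ℕ} (ω : Fin N → SignType) : Xf ω = ffx (ext ω) := rfl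

lemma ext_snoc {N : ℕ} (ω : Fin N → SignType) (s : SignType) :
    ext (Fin.snoc (α := fun _ => SignType) ω s : Fin (N + 1) → SignType) =
      Function.update (ext ω) N (s : ℝ) := by
  funext p
  unfold ext
  rcases lt_trichotomy p N with h | h | h
  · rw [dif_pos (Nat.lt_succ_of_lt h), Function.update_of_ne h.ne, dif_pos h]
    congr 1
    simp [Fin.snoc, h]
  · subst h
    rw [dif_pos (Nat.lt_succ_self p), Function.update_self]
    simp [Fin.snoc]
  · rw [dif_neg (by omega), Function.update_of_ne h.ne', dif_neg (by omega)]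

lemma sum_sign (f : SignType → ℝ) : ∑ s : SignType, f s = f 0 + (f 1 + f (-1)) := by
  have : (Finset.univ : Finset SignType) = {0, 1, -1} := by decide
  rw [this, Finset.sum_insert (by decide), Finset.sum_insert (by decide), Finset.sum_singleton]

theorem bridge (N : ℕ) : ∀ Φ : (ℕ → ℝ) → ℝ,
    ∑ ω : Fin N → SignType, (∏ i : Fin N, wp i (ω i)) * Φ (ext ω) =
      EE (Finset.range N) Φ := by
  induction N with
  | zero =>
    intro Φ
    rw [Finset.range_zero, EE_empty, Fintype.sum_unique]
    simp only [Finset.univ_eq_empty, Finset.prod_empty, one_mul]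
    congr 1
  | succ N ih =>
    intro Φ
    rw [Finset.range_add_one, EE_insert Finset.notMem_range_self,
      ← (Fin.snocEquiv (fun _ : Fin (N + 1) => SignType)).sum_comp, Fintype.sum_prod_type,
      sum_sign]
    have h1 : ∀ s : SignType, ∑ ω : Fin N → SignType,
        (∏ i : Fin (N + 1), wp i ((Fin.snocEquiv (fun _ : Fin (N + 1) => SignType)) (s, ω) i)) *
          Φ (ext ((Fin.snocEquiv (fun _ : Fin (N + 1) => SignType)) (s, ω))) =
        wp N s * EE (Finset.range N) (fun ω => Φ (Function.update ω N (s : ℝ))) := by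
      intro s
      rw [← ih, Finset.mul_sum]
      refine Finset.sum_congr rfl fun ω _ => ?_
      have e1 : (Fin.snocEquiv (fun _ : Fin (N + 1) => SignType)) (s, ω) =
          Fin.snoc (α := fun _ => SignType) ω s := rfl
      rw [e1, ext_snoc, Fin.prod_univ_castSucc]
      simp only [Fin.snoc_castSucc, Fin.snoc_last, Fin.val_castSucc, Fin.val_last]
      ring
    rw [h1, h1, h1]
    unfold E1 wp
    simp only [if_true, SignType.coe_zero, SignType.coe_one, SignType.coe_neg_one]
    rw [if_neg (by decide), if_neg (by decide)]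
    ring

/-- the expectation of `Iface3` in terms of the expectation calculus -/
theorem EN_eq (N : ℕ) (G : (ℕ → ℝ) → ℝ) :
    EN N G = EE (Finset.range N) (fun ω => G (ffx ω)) := by
  unfold EN
  simp_rw [Xf_ext]
  exact bridge N (fun ω => G (ffx ω))

lemma ffx_prime (ω : ℕ → ℝ) {p : ℕ} (hp : p.Prime) : ffx ω p = ω p := by
  unfold ffx
  rw [hp.primeFactors, Finset.prod_singleton, hp.factorization_self, pow_one]

lemma ffx_one (ω : ℕ → ℝ) : ffx ω 1 = 1 := by simp [ffx]

lemma ffx_mul (ω : ℕ → ℝ) {a b : ℕ} (ha : a ≠ 0) (hb : b ≠ 0) :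
    ffx ω (a * b) = ffx ω a * ffx ω b := by
  have h : ∀ (n : ℕ) (T : Finset ℕ), n.primeFactors ⊆ T →
      ffx ω n = ∏ p ∈ T, ω p ^ n.factorization p := by
    intro n T hT
    unfold ffx
    refine Finset.prod_subset hT fun p _ hp => ?_
    rw [← Nat.support_factorization, Finsupp.notMem_support_iff] at hp
    rw [hp, pow_zero]
  rw [h (a * b) (a * b).primeFactors subset_rfl,
    h a (a * b).primeFactors (Nat.primeFactors_mono (Dvd.intro _ rfl) (mul_ne_zero ha hb)),
    h b (a * b).primeFactors (Nat.primeFactors_mono (Dvd.intro_left _ rfl) (mul_ne_zero ha hb)),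
    ← Finset.prod_mul_distrib]
  refine Finset.prod_congr rfl fun p _ => ?_
  rw [Nat.factorization_mul ha hb, Finsupp.add_apply, pow_add]

lemma ffx_cm (ω : ℕ → ℝ) : CM (ffx ω) := ⟨ffx_one ω, fun _ _ ha hb => ffx_mul ω ha hb⟩

lemma ffx_pow (ω : ℕ → ℝ) {p : ℕ} (hp : p.Prime) (k : ℕ) : ffx ω (p ^ k) = ω p ^ k := by
  induction k with
  | zero => simp [ffx_one]
  | succ k ih => rw [pow_succ, ffx_mul ω (pow_ne_zero _ hp.ne_zero) hp.ne_zero, ih, ffx_prime ω hp,
      pow_succ]

/-- for an admissible sample point (with respect to `range N`) the values are in `{0, 1, -1}` -/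
lemma ffx_abs_le {S : Finset ℕ} {ω : ℕ → ℝ} (h : Adm S ω) (n : ℕ) : |ffx ω n| ≤ 1 := by
  unfold ffx
  rw [Finset.abs_prod]
  refine Finset.prod_le_one (fun _ _ => abs_nonneg _) fun p _ => ?_
  rw [abs_pow]
  refine pow_le_one₀ (abs_nonneg _) ?_
  rcases h.1 p with h | h | h <;> simp [h]

end P004.H628
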