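import Vale.Agent.P004.H503.Iface3

/-!
# P004: bounded moments and equidistribution of the parity make the density form and the mean
form equivalent
-/

open Real MeasureTheory Set Filter
open scoped ENNReal Topology

namespace P004.H628

open scoped Classical in
/-- the proportion of the `D ∈ Fam X` with `P D` -/
noncomputable def frac (P : ℤ → Prop) (X : ℕ) : ℝ :=
  (((Fam X).filter P).card : ℝ) / ((Fam X).card : ℝ)

open scoped Classical in
/-- the normalised sum of `f` over the `D ∈ Fam X` with `P D` -/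
noncomputable def avg (f : ℤ → ℝ) (P : ℤ → Prop) (X : ℕ) : ℝ :=
  (∑ D ∈ (Fam X).filter P, f D) / ((Fam X).card : ℝ)

lemma frac_eq_avg (P : ℤ → Prop) (X : ℕ) : frac P X = avg (fun _ => 1) P X := by
  unfold frac avg; simp

lemma avg_or {f : ℤ → ℝ} {P Q R : ℤ → Prop} (h : ∀ D, R D ↔ P D ∨ Q D) (hd : ∀ D, P D → ¬ Q D)
    (X : ℕ) : avg f R X = avg f P X + avg f Q X := by
  classical
  unfold avg
  rw [← add_div]
  congr 1
  rw [Finset.sum_filter, Finset.sum_filter, Finset.sum_filter, ← Finset.sum_add_distrib]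
  refine Finset.sum_congr rfl fun D _ => ?_
  by_cases hp : P D
  · have := hd D hp
    rw [if_pos hp, if_neg this, if_pos ((h D).2 (Or.inl hp)), add_zero]
  · by_cases hq : Q D
    · rw [if_neg hp, if_pos hq, if_pos ((h D).2 (Or.inr hq)), zero_add]
    · rw [if_neg hp, if_neg hq, if_neg (fun hr => ((h D).1 hr).elim hp hq), add_zero]

lemma avg_congr {f g : ℤ → ℝ} {P : ℤ → Prop} (h : ∀ D, P D → f D = g D) (X : ℕ) :
    avg f P X = avg g P X := by
  classical
  unfold avg
  congr 1
  exact Finset.sum_congr rfl fun D hD => h D (Finset.mem_filter.1 hD).2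

lemma avg_zero {f : ℤ → ℝ} {P : ℤ → Prop} (h : ∀ D, P D → f D = 0) (X : ℕ) :
    avg f P X = 0 := by
  rw [avg_congr h]
  unfold avg
  simp

lemma avg_sub {f g : ℤ → ℝ} {P : ℤ → Prop} (X : ℕ) :
    avg (fun D => f D - g D) P X = avg f P X - avg g P X := by
  unfold avg
  rw [Finset.sum_sub_distrib, sub_div]

lemma avg_mono {f g : ℤ → ℝ} {P : ℤ → Prop} (h : ∀ D, P D → f D ≤ g D) (X : ℕ) :
    avg f P X ≤ avg g P X := by
  classical
  unfold avg
  exact div_le_div_of_nonneg_right
    (Finset.sum_le_sum fun D hD => h D (Finset.mem_filter.1 hD).2) (Nat.cast_nonneg _)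

/-- Cauchy-Schwarz -/
lemma avg_cs {a : ℤ → ℕ} {P : ℤ → Prop} {k : ℕ} {C : ℝ} {X : ℕ} (hN : 0 < (Fam X).card)
    (hM : ∑ D ∈ Fam X, (a D : ℝ) ^ (2 * k) ≤ C * ((Fam X).card : ℝ)) :
    avg (fun D => (a D : ℝ) ^ k) P X ≤ √(C * frac P X) := by
  classical
  have hN0 : (0 : ℝ) < ((Fam X).card : ℝ) := by exact_mod_cast hN
  have hC : 0 ≤ C := by
    have h0 : 0 ≤ C * ((Fam X).card : ℝ) :=
      (Finset.sum_nonneg fun D _ => by positivity).trans hM
    exact nonneg_of_mul_nonneg_left h0 hN0
  apply Real.le_sqrt_of_sq_le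
  unfold avg frac
  have e1 := Finset.sum_mul_sq_le_sq_mul_sq ((Fam X).filter P) (fun _ => (1 : ℝ))
    (fun D => (a D : ℝ) ^ k)
  simp only [one_mul, one_pow, Finset.sum_const, nsmul_eq_mul, mul_one] at e1
  have e2 : ∑ D ∈ (Fam X).filter P, ((a D : ℝ) ^ k) ^ 2 ≤ C * ((Fam X).card : ℝ) := by
    refine le_trans ?_ hM
    refine (Finset.sum_le_sum_of_subset_of_nonneg (Finset.filter_subset _ _)
      fun _ _ _ => by positivity).trans (le_of_eq ?_)
    refine Finset.sum_congr rfl fun D _ => ?_
    rw [← pow_mul, mul_comm]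
  rw [div_pow, div_le_iff₀ (by positivity)]
  calc (∑ D ∈ (Fam X).filter P, (a D : ℝ) ^ k) ^ 2
      ≤ (((Fam X).filter P).card : ℝ) * ∑ D ∈ (Fam X).filter P, ((a D : ℝ) ^ k) ^ 2 := e1
    _ ≤ (((Fam X).filter P).card : ℝ) * (C * ((Fam X).card : ℝ)) := by gcongr
    _ = C * ((((Fam X).filter P).card : ℝ) / ((Fam X).card : ℝ)) * ((Fam X).card : ℝ) ^ 2 := by
        field_simp

/-- the sandwich for a set of `D` with `a D ≥ 2` -/
lemma sandwich {a : ℤ → ℕ} {P : ℤ → Prop} (hP : ∀ D, P D → 2 ≤ a D) {k : ℕ} (hk : 1 ≤ k)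
    {C : ℝ} {X : ℕ} (hN : 0 < (Fam X).card)
    (hM : ∑ D ∈ Fam X, (a D : ℝ) ^ (2 * k) ≤ C * ((Fam X).card : ℝ)) :
    frac P X ≤ avg (fun D => (a D : ℝ) ^ k - 1) P X ∧
    avg (fun D => (a D : ℝ) ^ k - 1) P X ≤ avg (fun D => (a D : ℝ) ^ k) P X ∧
    avg (fun D => (a D : ℝ) ^ k) P X ≤ √(C * frac P X) := by
  refine ⟨?_, ?_, avg_cs hN hM⟩
  · rw [frac_eq_avg]
    refine avg_mono (fun D hD => ?_) X
    have h2 : (2 : ℝ) ≤ a D := by exact_mod_cast hP D hD
    have h3 : (a D : ℝ) ≤ (a D : ℝ) ^ k := le_self_pow₀ (by linarith) (by omega)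
    linarith
  · exact avg_mono (fun D _ => by linarith) X

section

variable {a : ℤ → ℕ}

/-- the abstract equivalences -/
theorem equivs
    (hM : ∀ k : ℕ, ∃ C : ℝ, 0 < C ∧ ∀ X : ℕ, 3 ≤ X →
      ∑ D ∈ Fam X, (a D : ℝ) ^ k ≤ C * ((Fam X).card : ℝ))
    (hN : ∀ X : ℕ, 3 ≤ X → 0 < (Fam X).card)
    (hodd : Tendsto (frac (fun D => Odd (a D))) atTop (𝓝 (1 / 2))) {k : ℕ} (hk : 1 ≤ k) :
    (Tendsto (frac (fun D => a D = 0)) atTop (𝓝 (1 / 2)) ↔
      Tendsto (avg (fun D => (a D : ℝ) ^ k) (fun D => Even (a D))) atTop (𝓝 0)) ∧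
    (Tendsto (frac (fun D => a D = 1)) atTop (𝓝 (1 / 2)) ↔
      Tendsto (avg (fun D => (a D : ℝ) ^ k) (fun D => Odd (a D))) atTop (𝓝 (1 / 2))) ∧
    ((Tendsto (frac (fun D => a D = 0)) atTop (𝓝 (1 / 2)) ∧
      Tendsto (frac (fun D => a D = 1)) atTop (𝓝 (1 / 2))) ↔
      Tendsto (fun X : ℕ => (∑ D ∈ Fam X, (a D : ℝ) ^ k) / (Fam X).card) atTop (𝓝 (1 / 2))) := by
  obtain ⟨C, hC, hMC⟩ := hM (2 * k)
  set P0 : ℤ → Prop := fun D => Even (a D) ∧ 2 ≤ a D with hP0
  set P1 : ℤ → Prop := fun D => Odd (a D) ∧ 2 ≤ a D with hP1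
  set O : ℕ → ℝ := frac (fun D => Odd (a D)) with hO
  have hs0 : ∀ X, 3 ≤ X → _ := fun X hX =>
    sandwich (a := a) (P := P0) (fun D hD => hD.2) hk (hN X hX) (hMC X hX)
  have hs1 : ∀ X, 3 ≤ X → _ := fun X hX =>
    sandwich (a := a) (P := P1) (fun D hD => hD.2) hk (hN X hX) (hMC X hX)
  have hq0 : ∀ X, 0 ≤ frac P0 X := fun X => by unfold frac; positivity
  have hq1 : ∀ X, 0 ≤ frac P1 X := fun X => by unfold frac; positivity
  -- the decompositions
  have d1 : ∀ X, 3 ≤ X → (1 : ℝ) = O X + (frac (fun D => a D = 0) X + frac P0 X) := by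
    intro X hX
    have hN0 : (0 : ℝ) < ((Fam X).card : ℝ) := by exact_mod_cast hN X hX
    have e1 : frac (fun _ => True) X = 1 := by
      unfold frac
      simp [hN0.ne']
    rw [← e1, hO, frac_eq_avg, frac_eq_avg, frac_eq_avg, frac_eq_avg,
      avg_or (P := fun D => Odd (a D)) (Q := fun D => Even (a D)) (R := fun _ => True)
        (fun D => by simp [Nat.even_or_odd, or_comm]) (fun D h => by simpa using h),
      avg_or (P := fun D => a D = 0) (Q := P0) (R := fun D => Even (a D))]
    · intro D
      constructor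
      · intro h
        rcases Nat.lt_or_ge (a D) 2 with h2 | h2
        · left
          rcases (by omega : a D = 0 ∨ a D = 1) with h3 | h3
          · exact h3
          · rw [h3] at h; exact absurd h (by decide)
        · right; exact ⟨h, h2⟩
      · rintro (h | h)
        · rw [h]; exact Even.zero
        · exact h.1
    · intro D h h'
      have := h'.2
      omega
  have d2 : ∀ X, O X = frac (fun D => a D = 1) X + frac P1 X := by
    intro X
    rw [hO, frac_eq_avg, frac_eq_avg, frac_eq_avg,
      avg_or (P := fun D => a D = 1) (Q := P1) (R := fun D => Odd (a D))]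
    · intro D
      constructor
      · intro h
        rcases Nat.lt_or_ge (a D) 2 with h2 | h2
        · left
          rcases (by omega : a D = 0 ∨ a D = 1) with h3 | h3
          · rw [h3] at h; exact absurd h (by decide)
          · exact h3
        · right; exact ⟨h, h2⟩
      · rintro (h | h)
        · rw [h]; exact odd_one
        · exact h.1
    · intro D h h'
      have := h'.2
      omega
  have hk0 : k ≠ 0 := by omega
  have d3 : ∀ X, avg (fun D => (a D : ℝ) ^ k) (fun D => Even (a D)) X =
      avg (fun D => (a D : ℝ) ^ k) P0 X := by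
    intro X
    rw [avg_or (P := fun D => a D = 0) (Q := P0) (R := fun D => Even (a D))]
    · have : avg (fun D => (a D : ℝ) ^ k) (fun D => a D = 0) X = 0 :=
        avg_zero (fun D hD => by rw [hD]; simp [hk0]) X
      rw [this, zero_add]
    · intro D
      constructor
      · intro h
        rcases Nat.lt_or_ge (a D) 2 with h2 | h2
        · left
          rcases (by omega : a D = 0 ∨ a D = 1) with h3 | h3
          · exact h3
          · rw [h3] at h; exact absurd h (by decide)
        · right; exact ⟨h, h2⟩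
      · rintro (h | h)
        · rw [h]; exact Even.zero
        · exact h.1
    · intro D h h'
      have := h'.2
      omega
  have d4 : ∀ X, avg (fun D => (a D : ℝ) ^ k) (fun D => Odd (a D)) X =
      O X + avg (fun D => (a D : ℝ) ^ k - 1) P1 X := by
    intro X
    have e1 : avg (fun D => (a D : ℝ) ^ k) (fun D => Odd (a D)) X - O X =
        avg (fun D => (a D : ℝ) ^ k - 1) (fun D => Odd (a D)) X := by
      rw [hO, frac_eq_avg, ← avg_sub]
    have e2 : avg (fun D => (a D : ℝ) ^ k - 1) (fun D => Odd (a D)) X =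
        avg (fun D => (a D : ℝ) ^ k - 1) P1 X := by
      rw [avg_or (P := fun D => a D = 1) (Q := P1) (R := fun D => Odd (a D))]
      · have : avg (fun D => (a D : ℝ) ^ k - 1) (fun D => a D = 1) X = 0 :=
          avg_zero (fun D hD => by rw [hD]; simp) X
        rw [this, zero_add]
      · intro D
        constructor
        · intro h
          rcases Nat.lt_or_ge (a D) 2 with h2 | h2
          · left
            rcases (by omega : a D = 0 ∨ a D = 1) with h3 | h3
            · rw [h3] at h; exact absurd h (by decide)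
            · exact h3
          · right; exact ⟨h, h2⟩
        · rintro (h | h)
          · rw [h]; exact odd_one
          · exact h.1
      · intro D h h'
        have := h'.2
        omega
    linarith
  have d5 : ∀ X, (∑ D ∈ Fam X, (a D : ℝ) ^ k) / (Fam X).card =
      avg (fun D => (a D : ℝ) ^ k) (fun D => Odd (a D)) X +
        avg (fun D => (a D : ℝ) ^ k) (fun D => Even (a D)) X := by
    intro X
    rw [← avg_or (R := fun _ => True) (fun D => by simp [Nat.even_or_odd, or_comm])
      (fun D h => by simpa using h)]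
    unfold avg
    simp
  -- limits
  have ev : ∀ᶠ X : ℕ in atTop, 3 ≤ X := eventually_ge_atTop 3
  have L0 : Tendsto (frac (fun D => a D = 0)) atTop (𝓝 (1 / 2)) ↔
      Tendsto (frac P0) atTop (𝓝 0) := by
    constructor
    · intro h
      have h1 := (tendsto_const_nhds (x := (1 : ℝ)) (f := atTop)).sub (hodd.add h)
      have e : (1 : ℝ) - (1 / 2 + 1 / 2) = 0 := by norm_num
      rw [e] at h1
      refine h1.congr' ?_
      filter_upwards [ev] with X hX
      have := d1 X hX
      linarith
    · intro h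
      have h1 := (tendsto_const_nhds (x := (1 : ℝ)) (f := atTop)).sub (hodd.add h)
      have e : (1 : ℝ) - (1 / 2 + 0) = 1 / 2 := by norm_num
      rw [e] at h1
      refine h1.congr' ?_
      filter_upwards [ev] with X hX
      have := d1 X hX
      linarith
  have L1 : Tendsto (frac (fun D => a D = 1)) atTop (𝓝 (1 / 2)) ↔
      Tendsto (frac P1) atTop (𝓝 0) := by
    constructor
    · intro h
      have h1 := hodd.sub h
      rw [sub_self] at h1
      refine h1.congr fun X => ?_
      have := d2 X
      linarith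
    · intro h
      have h1 := hodd.sub h
      rw [sub_zero] at h1
      refine h1.congr fun X => ?_
      have := d2 X
      linarith
  have sq : ∀ {P : ℤ → Prop}, Tendsto (frac P) atTop (𝓝 0) →
      Tendsto (fun X => √(C * frac P X)) atTop (𝓝 0) := by
    intro P h
    have := (h.const_mul C).sqrt
    simpa using this
  have A0 : Tendsto (frac P0) atTop (𝓝 0) ↔
      Tendsto (avg (fun D => (a D : ℝ) ^ k) P0) atTop (𝓝 0) := by
    constructor
    · intro h
      refine tendsto_of_tendsto_of_tendsto_of_le_of_le' tendsto_const_nhds (sq h) ?_ ?_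
      · filter_upwards [ev] with X hX
        exact (hq0 X).trans ((hs0 X hX).1.trans (hs0 X hX).2.1)
      · filter_upwards [ev] with X hX
        exact (hs0 X hX).2.2
    · intro h
      refine tendsto_of_tendsto_of_tendsto_of_le_of_le' tendsto_const_nhds h ?_ ?_
      · filter_upwards with X using hq0 X
      · filter_upwards [ev] with X hX
        exact (hs0 X hX).1.trans (hs0 X hX).2.1
  have A1 : Tendsto (frac P1) atTop (𝓝 0) ↔
      Tendsto (avg (fun D => (a D : ℝ) ^ k - 1) P1) atTop (𝓝 0) := by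
    constructor
    · intro h
      refine tendsto_of_tendsto_of_tendsto_of_le_of_le' tendsto_const_nhds (sq h) ?_ ?_
      · filter_upwards [ev] with X hX
        exact (hq1 X).trans (hs1 X hX).1
      · filter_upwards [ev] with X hX
        exact (hs1 X hX).2.1.trans (hs1 X hX).2.2
    · intro h
      refine tendsto_of_tendsto_of_tendsto_of_le_of_le' tendsto_const_nhds h ?_ ?_
      · filter_upwards with X using hq1 X
      · filter_upwards [ev] with X hX
        exact (hs1 X hX).1
  have B0 : Tendsto (avg (fun D => (a D : ℝ) ^ k) (fun D => Even (a D))) atTop (𝓝 0) ↔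
      Tendsto (avg (fun D => (a D : ℝ) ^ k) P0) atTop (𝓝 0) := by
    have : avg (fun D => (a D : ℝ) ^ k) (fun D => Even (a D)) =
        avg (fun D => (a D : ℝ) ^ k) P0 := funext d3
    rw [this]
  have B1 : Tendsto (avg (fun D => (a D : ℝ) ^ k) (fun D => Odd (a D))) atTop (𝓝 (1 / 2)) ↔
      Tendsto (avg (fun D => (a D : ℝ) ^ k - 1) P1) atTop (𝓝 0) := by
    constructor
    · intro h
      have h1 := h.sub hodd
      rw [sub_self] at h1
      refine h1.congr fun X => ?_
      have := d4 X
      linarith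
    · intro h
      have h1 := hodd.add h
      rw [add_zero] at h1
      refine h1.congr fun X => ?_
      exact (d4 X).symm
  have R0 := L0.trans (A0.trans B0.symm)
  have R1 := L1.trans (A1.trans B1.symm)
  refine ⟨R0, R1, ?_⟩
  constructor
  · rintro ⟨h0, h1⟩
    have h2 := (R1.1 h1).add (R0.1 h0)
    rw [add_zero] at h2
    refine h2.congr fun X => ?_
    exact (d5 X).symm
  · intro h
    -- `q0 + q1 ≤ mean - O`
    have h1 := h.sub hodd
    rw [sub_self] at h1
    have hle : ∀ X, 3 ≤ X → frac P0 X + frac P1 X ≤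
        (∑ D ∈ Fam X, (a D : ℝ) ^ k) / (Fam X).card - frac (fun D => Odd (a D)) X := by
      intro X hX
      have e1 := (hs0 X hX).1.trans (hs0 X hX).2.1
      have e2 := (hs1 X hX).1
      have e3 := d3 X
      have e4 := d4 X
      have e5 := d5 X
      rw [hO] at e4
      linarith
    have hq0' : Tendsto (frac P0) atTop (𝓝 0) := by
      refine tendsto_of_tendsto_of_tendsto_of_le_of_le' tendsto_const_nhds h1 ?_ ?_
      · filter_upwards with X using hq0 X
      · filter_upwards [ev] with X hX
        have := hle X hX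
        have := hq1 X
        linarith
    have hq1' : Tendsto (frac P1) atTop (𝓝 0) := by
      refine tendsto_of_tendsto_of_tendsto_of_le_of_le' tendsto_const_nhds h1 ?_ ?_
      · filter_upwards with X using hq1 X
      · filter_upwards [ev] with X hX
        have := hle X hX
        have := hq0 X
        linarith
    exact ⟨L0.2 hq0', L1.2 hq1'⟩

end

end P004.H628
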