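import Vale.Agent.P004.H628.Sign
import Vale.Agent.P004.H628.Equiv

/-!
# P004: half of the fundamental discriminants have odd analytic rank
-/

open Real MeasureTheory Set Filter
open scoped ENNReal Topology ArithmeticFunction.Moebius

namespace P004.H628

/-! ### squarefree numbers in residue classes modulo 8 -/

lemma sq_dvd_iff {g q d : ℕ} (hg : g ≠ 0) (hq : Squarefree q) : d ^ 2 ∣ g ^ 2 * q ↔ d ∣ g := by
  constructor
  · intro h
    have hq0 := hq.ne_zero
    have hn : g ^ 2 * q ≠ 0 := mul_ne_zero (pow_ne_zero _ hg) hq0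
    have hd0 : d ≠ 0 := by
      rintro rfl
      rw [zero_pow two_ne_zero, zero_dvd_iff] at h
      exact hn h
    rw [← Nat.factorization_le_iff_dvd hd0 hg]
    intro p
    have h1 := (Nat.factorization_le_iff_dvd (pow_ne_zero 2 hd0) hn).2 h p
    rw [Nat.factorization_mul (pow_ne_zero _ hg) hq0, Nat.factorization_pow,
      Nat.factorization_pow] at h1
    simp only [Finsupp.add_apply, Finsupp.smul_apply, smul_eq_mul] at h1
    have h2 := (Nat.squarefree_iff_factorization_le_one hq0).1 hq p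
    omega
  · intro h
    exact (pow_dvd_pow_of_dvd h 2).trans (Dvd.intro _ rfl)

lemma sum_mu_sq {m Y : ℕ} (hm : 1 ≤ m) (hmY : m ≤ Y) :
    ∑ d ∈ Finset.Icc 1 (Nat.sqrt Y), (if d ^ 2 ∣ m then (μ d : ℤ) else 0) =
      if Squarefree m then 1 else 0 := by
  obtain ⟨q, g, hq0, hg0, hgq, hq⟩ := Nat.sq_mul_squarefree_of_pos hm
  have hg : g ≠ 0 := hg0.ne'
  have h1 : ∑ d ∈ Finset.Icc 1 (Nat.sqrt Y), (if d ^ 2 ∣ m then (μ d : ℤ) else 0) =
      ∑ d ∈ g.divisors, (μ d : ℤ) := by
    rw [← Finset.sum_filter]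
    refine Finset.sum_congr ?_ fun _ _ => rfl
    ext d
    rw [Finset.mem_filter, Finset.mem_Icc, Nat.mem_divisors, ← hgq, sq_dvd_iff hg hq]
    constructor
    · rintro ⟨_, h⟩; exact ⟨h, hg⟩
    · rintro ⟨h, _⟩
      refine ⟨⟨Nat.pos_of_dvd_of_pos h hg0, ?_⟩, h⟩
      rw [Nat.le_sqrt, ← sq]
      have h2 : d ^ 2 ∣ g ^ 2 * q := (sq_dvd_iff hg hq).2 h
      exact (Nat.le_of_dvd (by rw [hgq]; exact hm) h2).trans (by rw [hgq]; exact hmY)
  rw [h1]
  have h3 : ∑ d ∈ g.divisors, (μ d : ℤ) = if g = 1 then 1 else 0 := by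
    have := ArithmeticFunction.coe_zeta_mul_moebius
    have h4 := congrArg (fun f : ArithmeticFunction ℤ => f g) this
    simp only [ArithmeticFunction.coe_zeta_mul_apply, ArithmeticFunction.one_apply] at h4
    exact h4
  rw [h3]
  congr 1
  apply propext
  constructor
  · rintro rfl
    rw [← hgq, one_pow, one_mul]; exact hq
  · intro h
    rw [← hgq] at h
    have h5 := h g ⟨q, by ring⟩
    exact Nat.isUnit_iff.1 h5

/-- the number of squarefree `m ≤ Y`, `m ≡ a mod 8` -/
noncomputable def Sq (a Y : ℕ) : ℤ :=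
  ∑ m ∈ Finset.Icc 1 Y, if Squarefree m ∧ m % 8 = a then 1 else 0

/-- the number of `m ≤ Y`, `m ≡ a mod 8`, `d² ∣ m` -/
def Md (d a Y : ℕ) : ℤ := ∑ m ∈ Finset.Icc 1 Y, if m % 8 = a ∧ d ^ 2 ∣ m then 1 else 0

lemma Sq_eq (a Y : ℕ) : Sq a Y = ∑ d ∈ Finset.Icc 1 (Nat.sqrt Y), (μ d : ℤ) * Md d a Y := by
  have h1 : Sq a Y = ∑ m ∈ Finset.Icc 1 Y, ∑ d ∈ Finset.Icc 1 (Nat.sqrt Y),
      (if m % 8 = a ∧ d ^ 2 ∣ m then (μ d : ℤ) else 0) := by
    refine Finset.sum_congr rfl fun m hm => ?_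
    rw [Finset.mem_Icc] at hm
    by_cases h8 : m % 8 = a
    · simp only [h8, true_and, and_true]
      exact (sum_mu_sq hm.1 hm.2).symm
    · simp [h8]
  rw [h1, Finset.sum_comm]
  refine Finset.sum_congr rfl fun d _ => ?_
  unfold Md
  rw [Finset.mul_sum]
  refine Finset.sum_congr rfl fun m _ => ?_
  split_ifs <;> simp

lemma Md_eq {d a : ℕ} (hd : 1 ≤ d) (ha : a % 4 ≠ 0) (Y : ℕ) :
    Md d a Y = if d % 2 = 1 then
      (((Finset.range (Y / d ^ 2 + 1)).filter (fun k => k % 8 = a)).card : ℤ) else 0 := by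
  split_ifs with hodd
  · unfold Md
    rw [← Finset.sum_filter, Finset.sum_const, nsmul_eq_mul, mul_one]
    congr 1
    have hd2 : 0 < d ^ 2 := by positivity
    have hd8 : d ^ 2 % 8 = 1 := by
      have h1 : d % 8 = 1 ∨ d % 8 = 3 ∨ d % 8 = 5 ∨ d % 8 = 7 := by omega
      rcases h1 with h | h | h | h <;> simp [Nat.pow_mod, h]
    refine (Finset.card_bij (fun k _ => d ^ 2 * k) ?_ ?_ ?_).symm
    · intro k hk
      rw [Finset.mem_filter, Finset.mem_range] at hk
      rw [Finset.mem_filter, Finset.mem_Icc]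
      have hk1 : k ≤ Y / d ^ 2 := by omega
      have hk0 : k ≠ 0 := by
        rintro rfl
        have := hk.2
        omega
      refine ⟨⟨Nat.mul_pos hd2 (Nat.pos_of_ne_zero hk0), ?_⟩, ?_, Dvd.intro _ rfl⟩
      · rw [mul_comm]
        exact (Nat.le_div_iff_mul_le hd2).1 hk1
      · rw [Nat.mul_mod, hd8, one_mul, Nat.mod_mod]
        exact hk.2
    · intro k _ k' _ h
      exact Nat.eq_of_mul_eq_mul_left hd2 h
    · intro m hm
      rw [Finset.mem_filter, Finset.mem_Icc] at hm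
      obtain ⟨⟨hm1, hmY⟩, hma, k, rfl⟩ := hm
      refine ⟨k, ?_, rfl⟩
      rw [Finset.mem_filter, Finset.mem_range]
      refine ⟨?_, ?_⟩
      · have : k ≤ Y / d ^ 2 := (Nat.le_div_iff_mul_le hd2).2 (by rw [mul_comm]; exact hmY)
        omega
      · rw [Nat.mul_mod, hd8, one_mul, Nat.mod_mod] at hma
        exact hma
  · unfold Md
    refine Finset.sum_eq_zero fun m _ => ?_
    rw [if_neg]
    rintro ⟨h1, h2⟩
    have h3 : 2 ∣ d := by omega
    have h4 : 4 ∣ m := by
      have : 2 ^ 2 ∣ d ^ 2 := pow_dvd_pow_of_dvd h3 2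
      exact (show (4 : ℕ) = 2 ^ 2 by norm_num) ▸ this.trans h2
    omega

lemma card_mod (a Z : ℕ) (ha : a < 8) :
    ((Finset.range Z).filter (fun k => k % 8 = a)).card = Z / 8 + if a < Z % 8 then 1 else 0 := by
  have h1 := Nat.count_modEq_card Z (r := 8) (by norm_num) a
  rw [Nat.count_eq_card_filter_range] at h1
  rw [Nat.mod_eq_of_lt ha] at h1
  rw [← h1]
  congr 1
  ext k
  rw [Finset.mem_filter, Finset.mem_filter]
  have h2 : k % 8 = a ↔ k ≡ a [MOD 8] := by
    unfold Nat.ModEq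
    rw [Nat.mod_eq_of_lt ha]
  rw [h2]

lemma Md_diff {d a b : ℕ} (hd : 1 ≤ d) (ha : a % 4 ≠ 0) (hb : b % 4 ≠ 0) (ha8 : a < 8)
    (hb8 : b < 8) (Y : ℕ) : |Md d a Y - Md d b Y| ≤ 1 := by
  rw [Md_eq hd ha, Md_eq hd hb]
  split_ifs
  · rw [card_mod a _ ha8, card_mod b _ hb8]
    push_cast
    split_ifs <;> simp
  · simp

lemma Sq_diff {a b : ℕ} (ha : a % 4 ≠ 0) (hb : b % 4 ≠ 0) (ha8 : a < 8) (hb8 : b < 8) (Y : ℕ) :
    |Sq a Y - Sq b Y| ≤ Nat.sqrt Y := by
  rw [Sq_eq, Sq_eq, ← Finset.sum_sub_distrib]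
  refine (Finset.abs_sum_le_sum_abs _ _).trans ?_
  calc ∑ d ∈ Finset.Icc 1 (Nat.sqrt Y), |(μ d : ℤ) * Md d a Y - (μ d : ℤ) * Md d b Y|
      ≤ ∑ d ∈ Finset.Icc 1 (Nat.sqrt Y), (1 : ℤ) := by
        refine Finset.sum_le_sum fun d hd => ?_
        rw [Finset.mem_Icc] at hd
        rw [← mul_sub, abs_mul]
        have h1 : |(μ d : ℤ)| ≤ 1 := ArithmeticFunction.abs_moebius_le_one
        have h2 := Md_diff hd.1 ha hb ha8 hb8 Y
        calc |(μ d : ℤ)| * |Md d a Y - Md d b Y| ≤ 1 * 1 :=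
              mul_le_mul h1 h2 (abs_nonneg _) (by norm_num)
          _ = 1 := by norm_num
    _ = Nat.sqrt Y := by simp

/-! ### the sum of the signs -/

/-- the squarefree number attached to `D` -/
def mm (D : ℤ) : ℕ := if D % 4 = 0 then D.natAbs / 4 else D.natAbs

/-- the integer sign -/
def sgi (m : ℕ) : ℤ := if m % 8 = 1 ∨ m % 8 = 2 ∨ m % 8 = 3 then 1 else -1

lemma sg_eq (m : ℕ) : sg m = (sgi m : ℝ) := by
  unfold sg sgi; split_ifs <;> simp

open scoped Classical in
/-- the contribution of `D` -/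
noncomputable def Fc (D : ℤ) : ℤ := if IsFund D then sgi (mm D) else 0

/-- the two sums -/
noncomputable def cOd (m : ℕ) : ℤ := if m % 2 = 1 ∧ Squarefree m ∧ m ≠ 1 then sgi m else 0

noncomputable def cQu (n : ℕ) : ℤ :=
  if Squarefree n then (if n % 2 = 1 then sgi n else 2 * sgi n) else 0

noncomputable def cFo (m : ℕ) : ℤ := if 4 ∣ m then cQu (m / 4) else 0

lemma isFund_odd {D : ℤ} (hD : D % 2 = 1) : IsFund D ↔ D ≠ 1 ∧ D % 4 = 1 ∧ Squarefree D := by
  unfold IsFund
  constructor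
  · rintro ⟨h1, h | ⟨d, hd, _⟩⟩
    · exact ⟨h1, h⟩
    · omega
  · rintro ⟨h1, h2⟩
    exact ⟨h1, Or.inl h2⟩

lemma isFund_even {D : ℤ} (hD : D % 2 = 0) :
    IsFund D ↔ ∃ d : ℤ, D = 4 * d ∧ (d % 4 = 2 ∨ d % 4 = 3) ∧ Squarefree d := by
  unfold IsFund
  constructor
  · rintro ⟨h1, h | h⟩
    · omega
    · exact h
  · intro h
    exact ⟨by rintro rfl; norm_num at hD, Or.inr h⟩

lemma natCast_squarefree {n : ℕ} : Squarefree (n : ℤ) ↔ Squarefree n := Int.squarefree_natCast

lemma neg_squarefree {n : ℤ} : Squarefree (-n) ↔ Squarefree n := by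
  rw [← Int.squarefree_natAbs, ← Int.squarefree_natAbs, Int.natAbs_neg]

lemma Fc_pair (m : ℕ) (hm : 1 ≤ m) : Fc (m : ℤ) + Fc (-(m : ℤ)) = cOd m + cFo m := by
  classical
  rcases Nat.even_or_odd m with hev | hodd
  · -- even
    have hm2 : m % 2 = 0 := Nat.even_iff.1 hev
    have hcOd : cOd m = 0 := by unfold cOd; rw [if_neg]; rintro ⟨h, _⟩; omega
    rw [hcOd, zero_add]
    have i1 : (m : ℤ) % 2 = 0 := by omega
    have i2 : (-(m : ℤ)) % 2 = 0 := by omega
    unfold Fc
    by_cases h4 : 4 ∣ m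
    · obtain ⟨n, rfl⟩ := h4
      have hn : 1 ≤ n := by omega
      have e1 : IsFund ((4 * n : ℕ) : ℤ) ↔ (n % 4 = 2 ∨ n % 4 = 3) ∧ Squarefree n := by
        rw [isFund_even i1]
        constructor
        · rintro ⟨d, hd, h5, h6⟩
          have : d = n := by push_cast at hd; omega
          subst this
          exact ⟨by omega, natCast_squarefree.1 h6⟩
        · rintro ⟨h5, h6⟩
          exact ⟨n, by push_cast; ring, by omega, natCast_squarefree.2 h6⟩
      have e2 : IsFund (-((4 * n : ℕ) : ℤ)) ↔ (n % 4 = 2 ∨ n % 4 = 1) ∧ Squarefree n := by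
        rw [isFund_even i2]
        constructor
        · rintro ⟨d, hd, h5, h6⟩
          have : d = -(n : ℤ) := by push_cast at hd; omega
          subst this
          exact ⟨by omega, natCast_squarefree.1 (neg_squarefree.1 h6)⟩
        · rintro ⟨h5, h6⟩
          exact ⟨-(n : ℤ), by push_cast; ring, by omega,
            neg_squarefree.2 (natCast_squarefree.2 h6)⟩
      have m1 : mm ((4 * n : ℕ) : ℤ) = n := by
        unfold mm
        rw [if_pos (by push_cast; omega), Int.natAbs_natCast]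
        omega
      have m2 : mm (-((4 * n : ℕ) : ℤ)) = n := by
        unfold mm
        rw [if_pos (by push_cast; omega), Int.natAbs_neg, Int.natAbs_natCast]
        omega
      have hcFo : cFo (4 * n) = cQu n := by
        unfold cFo
        rw [if_pos (Dvd.intro _ rfl), Nat.mul_div_cancel_left _ (by norm_num)]
      rw [m1, m2, hcFo, if_congr e1 rfl rfl, if_congr e2 rfl rfl]
      unfold cQu
      by_cases hsq : Squarefree n
      · have h40 : n % 4 ≠ 0 := by
          intro h0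
          have h7 := hsq 2 (by
            have : 4 ∣ n := Nat.dvd_of_mod_eq_zero h0
            exact (show (2 * 2 : ℕ) = 4 by norm_num) ▸ this)
          rw [Nat.isUnit_iff] at h7
          omega
        rcases (by omega : n % 4 = 1 ∨ n % 4 = 2 ∨ n % 4 = 3) with h | h | h
        · rw [if_neg (by rintro ⟨h8, _⟩; omega), if_pos ⟨by omega, hsq⟩, if_pos hsq,
            if_pos (by omega)]
          ring
        · rw [if_pos ⟨by omega, hsq⟩, if_pos ⟨by omega, hsq⟩, if_pos hsq, if_neg (by omega)]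
          ring
        · rw [if_pos ⟨by omega, hsq⟩, if_neg (by rintro ⟨h8, _⟩; omega), if_pos hsq,
            if_pos (by omega)]
          ring
      · rw [if_neg (fun h => hsq h.2), if_neg (fun h => hsq h.2), if_neg hsq]
        ring
    · have n1 : ¬ IsFund (m : ℤ) := by
        rw [isFund_even i1]
        rintro ⟨d, hd, _⟩
        apply h4
        have : (4 : ℤ) ∣ (m : ℤ) := ⟨d, hd⟩
        exact_mod_cast this
      have n2 : ¬ IsFund (-(m : ℤ)) := by
        rw [isFund_even i2]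
        rintro ⟨d, hd, _⟩
        apply h4
        have : (4 : ℤ) ∣ (m : ℤ) := ⟨-d, by linarith⟩
        exact_mod_cast this
      rw [if_neg n1, if_neg n2]
      unfold cFo
      rw [if_neg h4]
      ring
  · -- odd
    have hm2 : m % 2 = 1 := Nat.odd_iff.1 hodd
    have hcFo : cFo m = 0 := by unfold cFo; rw [if_neg]; omega
    rw [hcFo, add_zero]
    have i1 : (m : ℤ) % 2 = 1 := by omega
    have i2 : (-(m : ℤ)) % 2 = 1 := by omega
    have m1 : mm (m : ℤ) = m := by
      unfold mm; rw [if_neg (by omega), Int.natAbs_natCast]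
    have m2 : mm (-(m : ℤ)) = m := by
      unfold mm; rw [if_neg (by omega), Int.natAbs_neg, Int.natAbs_natCast]
    unfold Fc
    rw [m1, m2, if_congr (isFund_odd i1) rfl rfl, if_congr (isFund_odd i2) rfl rfl]
    unfold cOd
    rw [neg_squarefree, natCast_squarefree]
    by_cases hsq : Squarefree m
    · rcases (by omega : m % 4 = 1 ∨ m % 4 = 3) with h | h
      · by_cases h1 : m = 1
        · subst h1
          norm_num
        · rw [if_pos ⟨by exact_mod_cast h1, by omega, hsq⟩,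
            if_neg (by rintro ⟨_, h8, _⟩; omega), if_pos ⟨hm2, hsq, h1⟩]
          ring
      · have h1 : m ≠ 1 := by omega
        rw [if_neg (by rintro ⟨_, h8, _⟩; omega), if_pos ⟨by omega, by omega, hsq⟩,
          if_pos ⟨hm2, hsq, h1⟩]
        ring
    · rw [if_neg (fun h => hsq h.2.2), if_neg (fun h => hsq h.2.2), if_neg (fun h => hsq h.2.1)]
      ring

lemma sum_Icc_int (F : ℤ → ℤ) (h0 : F 0 = 0) (X : ℕ) :
    ∑ D ∈ Finset.Icc (-(X : ℤ)) X, F D = ∑ m ∈ Finset.Icc 1 X, (F (m : ℤ) + F (-(m : ℤ))) := by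
  induction X with
  | zero => simp [h0]
  | succ X ih =>
    rw [Finset.sum_Icc_succ_top (by omega), ← ih]
    have h1 : Finset.Icc (-((X + 1 : ℕ) : ℤ)) ((X + 1 : ℕ) : ℤ) =
        insert (-((X + 1 : ℕ) : ℤ)) (insert (((X + 1 : ℕ) : ℤ)) (Finset.Icc (-(X : ℤ)) X)) := by
      ext z
      simp only [Finset.mem_Icc, Finset.mem_insert]
      omega
    rw [h1, Finset.sum_insert, Finset.sum_insert]
    · ring
    · simp
    · simp only [Finset.mem_insert, Finset.mem_Icc, not_or]
      omega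

lemma sum_Fam (X : ℕ) : ∑ D ∈ Fam X, sgi (mm D) =
    ∑ m ∈ Finset.Icc 1 X, cOd m + ∑ n ∈ Finset.Icc 1 (X / 4), cQu n := by
  classical
  have h0 : Fc 0 = 0 := by
    unfold Fc
    rw [if_neg]
    rw [isFund_even (by norm_num)]
    rintro ⟨d, hd, h, _⟩
    omega
  have h1 : ∑ D ∈ Fam X, sgi (mm D) = ∑ D ∈ Finset.Icc (-(X : ℤ)) X, Fc D := by
    unfold Fam Fc
    rw [Finset.sum_filter]
  have h2 : ∑ m ∈ Finset.Icc 1 X, cFo m = ∑ n ∈ Finset.Icc 1 (X / 4), cQu n := by
    unfold cFo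
    rw [← Finset.sum_filter]
    symm
    refine Finset.sum_bij (fun n _ => 4 * n) ?_ ?_ ?_ ?_
    · intro n hn
      rw [Finset.mem_Icc] at hn
      rw [Finset.mem_filter, Finset.mem_Icc]
      exact ⟨⟨by omega, by omega⟩, Dvd.intro _ rfl⟩
    · intro n _ n' _ h
      omega
    · intro m hm
      rw [Finset.mem_filter, Finset.mem_Icc] at hm
      obtain ⟨⟨h3, h4⟩, n, rfl⟩ := hm
      exact ⟨n, by rw [Finset.mem_Icc]; omega, rfl⟩
    · intro n _
      rw [Nat.mul_div_cancel_left _ (by norm_num)]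
  rw [h1, sum_Icc_int Fc h0, ← h2, ← Finset.sum_add_distrib]
  exact Finset.sum_congr rfl fun m hm => Fc_pair m (Finset.mem_Icc.1 hm).1

lemma cOd_sum (Y : ℕ) : |∑ m ∈ Finset.Icc 1 Y, cOd m| ≤ 2 * (Nat.sqrt Y : ℤ) + 1 := by
  have h1 : ∀ m : ℕ, cOd m = (((if Squarefree m ∧ m % 8 = 1 then 1 else 0) -
      (if Squarefree m ∧ m % 8 = 5 then 1 else 0)) +
      ((if Squarefree m ∧ m % 8 = 3 then 1 else 0) -
      (if Squarefree m ∧ m % 8 = 7 then 1 else 0)) : ℤ) - (if m = 1 then 1 else 0) := by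
    intro m
    unfold cOd sgi
    by_cases hm1 : m = 1
    · subst hm1
      norm_num
    · by_cases hsq : Squarefree m
      · simp only [hsq, true_and, hm1, ne_eq, not_false_eq_true, and_true, if_false, sub_zero]
        have h8 : m % 8 < 8 := Nat.mod_lt _ (by norm_num)
        have h2 : m % 2 = m % 8 % 2 := by omega
        rw [h2]
        generalize m % 8 = r at h8
        interval_cases r <;> norm_num
      · simp [hsq, hm1]
  simp_rw [h1]
  rw [Finset.sum_sub_distrib, Finset.sum_add_distrib, Finset.sum_sub_distrib,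
    Finset.sum_sub_distrib]
  have e1 := Sq_diff (a := 1) (b := 5) (by norm_num) (by norm_num) (by norm_num) (by norm_num) Y
  have e2 := Sq_diff (a := 3) (b := 7) (by norm_num) (by norm_num) (by norm_num) (by norm_num) Y
  have e3 : |∑ m ∈ Finset.Icc 1 Y, (if m = 1 then (1 : ℤ) else 0)| ≤ 1 := by
    rw [Finset.sum_ite_eq']
    split_ifs <;> simp
  unfold Sq at e1 e2
  rw [abs_le] at e1 e2 e3 ⊢
  constructor <;> linarith [e1.1, e1.2, e2.1, e2.2, e3.1, e3.2]

lemma cQu_sum (Y : ℕ) : |∑ m ∈ Finset.Icc 1 Y, cQu m| ≤ 4 * (Nat.sqrt Y : ℤ) := by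
  have h1 : ∀ m : ℕ, cQu m = (((if Squarefree m ∧ m % 8 = 1 then 1 else 0) -
      (if Squarefree m ∧ m % 8 = 5 then 1 else 0)) +
      ((if Squarefree m ∧ m % 8 = 3 then 1 else 0) -
      (if Squarefree m ∧ m % 8 = 7 then 1 else 0)) +
      2 * ((if Squarefree m ∧ m % 8 = 2 then 1 else 0) -
      (if Squarefree m ∧ m % 8 = 6 then 1 else 0)) : ℤ) := by
    intro m
    unfold cQu sgi
    by_cases hsq : Squarefree m
    · have h40 : m % 4 ≠ 0 := by
        intro h0
        have h7 := hsq 2 (by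
          have : 4 ∣ m := Nat.dvd_of_mod_eq_zero h0
          exact (show (2 * 2 : ℕ) = 4 by norm_num) ▸ this)
        rw [Nat.isUnit_iff] at h7
        omega
      simp only [hsq, true_and, if_true]
      have h8 : m % 8 < 8 := Nat.mod_lt _ (by norm_num)
      have h2 : m % 2 = m % 8 % 2 := by omega
      have h4 : m % 4 = m % 8 % 4 := by omega
      rw [h4] at h40
      rw [h2]
      generalize m % 8 = r at h8 h40
      interval_cases r
      · norm_num at h40
      · norm_num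
      · norm_num
      · norm_num
      · norm_num at h40
      · norm_num
      · norm_num
      · norm_num
    · simp [hsq]
  simp_rw [h1]
  rw [Finset.sum_add_distrib, Finset.sum_add_distrib, Finset.sum_sub_distrib,
    Finset.sum_sub_distrib, ← Finset.mul_sum, Finset.sum_sub_distrib]
  have e1 := Sq_diff (a := 1) (b := 5) (by norm_num) (by norm_num) (by norm_num) (by norm_num) Y
  have e2 := Sq_diff (a := 3) (b := 7) (by norm_num) (by norm_num) (by norm_num) (by norm_num) Y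
  have e3 := Sq_diff (a := 2) (b := 6) (by norm_num) (by norm_num) (by norm_num) (by norm_num) Y
  unfold Sq at e1 e2 e3
  rw [abs_le] at e1 e2 e3 ⊢
  constructor <;> linarith [e1.1, e1.2, e2.1, e2.2, e3.1, e3.2]

lemma sum_sgi (X : ℕ) : |∑ D ∈ Fam X, sgi (mm D)| ≤ 6 * (Nat.sqrt X : ℤ) + 1 := by
  rw [sum_Fam]
  have h1 := cOd_sum X
  have h2 := cQu_sum (X / 4)
  have h3 : (Nat.sqrt (X / 4) : ℤ) ≤ Nat.sqrt X := by
    exact_mod_cast Nat.sqrt_le_sqrt (Nat.div_le_self X 4)
  refine (abs_add_le _ _).trans ?_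
  linarith

/-- the parity of the analytic rank in terms of the sign -/
lemma parity_sgi (hP : StParity) {D : ℤ} (hD : IsFund D) : ((-1 : ℤ)) ^ (aRank D) = sgi (mm D) := by
  obtain ⟨m, hm, hsq, hnat, hs⟩ := hP D hD
  have hmm : mm D = m := by
    unfold mm
    by_cases h4 : D % 4 = 0
    · rw [if_pos h4]
      rcases hnat with h | h
      · exfalso
        have h5 : 2 * 2 ∣ m := by
          rw [← h]
          have : (4 : ℤ) ∣ D := Int.dvd_of_emod_eq_zero h4
          have := Int.natAbs_dvd_natAbs.2 this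
          simpa using this
        have := hsq 2 h5
        rw [Nat.isUnit_iff] at this
        omega
      · rw [h]; omega
    · rw [if_neg h4]
      rcases hnat with h | h
      · exact h
      · exfalso
        apply h4
        have : (4 : ℤ) ∣ D := by
          rw [← Int.natAbs_dvd_natAbs, h]
          exact Dvd.intro _ rfl
        exact Int.emod_eq_zero_of_dvd this
  rw [hmm]
  rw [sg_eq] at hs
  exact_mod_cast hs.symm

/-- Half of the fundamental discriminants have odd analytic rank. -/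
theorem odd_half (hP : StParity) (hCt : StCount) :
    Tendsto (frac (fun D => Odd (aRank D))) atTop (𝓝 (1 / 2)) := by
  classical
  obtain ⟨c, hc, hcount⟩ := hCt
  have hkey : ∀ X : ℕ, 3 ≤ X → |frac (fun D => Odd (aRank D)) X - 1 / 2| ≤
      4 / c * (X : ℝ) ^ (-(1 / 2) : ℝ) := by
    intro X hX
    have hX3 : (3 : ℝ) ≤ X := by exact_mod_cast hX
    have hcnt := hcount X hX
    set N : ℝ := ((Fam X).card : ℝ) with hN
    have hN0 : 0 < N := lt_of_lt_of_le (by positivity) hcnt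
    have e1 : ((∑ D ∈ Fam X, sgi (mm D) : ℤ) : ℝ) = N - 2 * (((Fam X).filter
        (fun D => Odd (aRank D))).card : ℝ) := by
      have e2 : ∀ D ∈ Fam X, ((sgi (mm D) : ℤ) : ℝ) =
          1 - 2 * (if Odd (aRank D) then 1 else 0) := by
        intro D hD
        have hf : IsFund D := by
          unfold Fam at hD
          exact (Finset.mem_filter.1 hD).2
        rw [← parity_sgi hP hf]
        rcases Nat.even_or_odd (aRank D) with h | h
        · rw [h.neg_one_pow, if_neg (Nat.not_odd_iff_even.2 h)]; norm_num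
        · rw [h.neg_one_pow, if_pos h]; norm_num
      push_cast
      rw [Finset.sum_congr rfl e2, Finset.sum_sub_distrib, ← Finset.mul_sum,
        Finset.sum_boole, Finset.sum_const, nsmul_eq_mul, mul_one]
    have e3 := sum_sgi X
    have e4 : |((∑ D ∈ Fam X, sgi (mm D) : ℤ) : ℝ)| ≤ 6 * (Nat.sqrt X : ℝ) + 1 := by
      exact_mod_cast e3
    have e5 : (Nat.sqrt X : ℝ) ≤ √(X : ℝ) := Real.nat_sqrt_le_real_sqrt
    have e6 : (1 : ℝ) ≤ √(X : ℝ) := by rw [Real.one_le_sqrt]; linarith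
    have e7 : frac (fun D => Odd (aRank D)) X - 1 / 2 =
        -((∑ D ∈ Fam X, sgi (mm D) : ℤ) : ℝ) / (2 * N) := by
      have e8 : frac (fun D => Odd (aRank D)) X =
          (((Fam X).filter (fun D => Odd (aRank D))).card : ℝ) / N := by
        unfold frac
        congr!
      rw [e8, e1]
      field_simp
      ring
    rw [e7, abs_div, abs_neg, abs_of_pos (by positivity : 0 < 2 * N), div_le_iff₀ (by positivity)]
    have e9 : √(X : ℝ) = X * (X : ℝ) ^ (-(1 / 2) : ℝ) := by
      rw [Real.sqrt_eq_rpow]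
      nth_rewrite 2 [← Real.rpow_one (X : ℝ)]
      rw [← Real.rpow_add (by linarith)]
      norm_num
    have e10 : 0 < (X : ℝ) ^ (-(1 / 2) : ℝ) := Real.rpow_pos_of_pos (by linarith) _
    calc |((∑ D ∈ Fam X, sgi (mm D) : ℤ) : ℝ)| ≤ 6 * (Nat.sqrt X : ℝ) + 1 := e4
      _ ≤ 8 * √(X : ℝ) := by linarith
      _ = 8 / c * (X : ℝ) ^ (-(1 / 2) : ℝ) * (c * X) := by rw [e9]; field_simp
      _ ≤ 8 / c * (X : ℝ) ^ (-(1 / 2) : ℝ) * N := by gcongr
      _ = 4 / c * (X : ℝ) ^ (-(1 / 2) : ℝ) * (2 * N) := by ring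
  have hlim : Tendsto (fun X : ℕ => 4 / c * (X : ℝ) ^ (-(1 / 2) : ℝ)) atTop (𝓝 0) := by
    have h1 := (tendsto_rpow_neg_atTop (y := 1 / 2) (by norm_num)).comp
      (tendsto_natCast_atTop_atTop (R := ℝ))
    have h2 := h1.const_mul (4 / c)
    rw [mul_zero] at h2
    exact h2
  rw [tendsto_iff_norm_sub_tendsto_zero]
  refine tendsto_of_tendsto_of_tendsto_of_le_of_le' tendsto_const_nhds hlim ?_ ?_
  · filter_upwards with X using norm_nonneg _
  · filter_upwards [eventually_ge_atTop 3] with X hX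
    rw [Real.norm_eq_abs]
    exact hkey X hX

end P004.H628
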