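import Vale.Agent.P004.All2
import Vale.Agent.P004.H628.OddHalf

/-!
# P004: the final statement (bounded moments, parity, equivalence of the two forms of Q1)
-/

open Real MeasureTheory Set Filter
open scoped ENNReal Topology

namespace P004

open scoped Classical in
/-- The final statement of the upgrade: bounded moments of the analytic rank, equidistribution of
its parity, and equivalence of the density form and the mean form of Goldfeld's conjecture, for
the quadratic twists of `y² = x³ - x`. -/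
def StFin4 : Prop :=
  (∀ D : ℤ, IsFund D → IsLFunction D (LTwist D) ∧ (∀ L, IsLFunction D L → L = LTwist D) ∧
    analyticOrderAt (LTwist D) 1 = (aRank D : ℕ∞)) ∧
  (∃ c : ℝ, 0 < c ∧ ∀ B : ℕ, ∃ C : ℝ, 0 < C ∧ ∀ X : ℕ, 3 ≤ X → ∀ z : ℝ, 0 ≤ z →
    (((Fam X).filter (fun D => z ≤ (aRank D : ℝ))).card : ℝ) ≤
      C * ((Fam X).card : ℝ) * (Real.exp (-c * √z) + Real.log X ^ (-(B : ℝ)))) ∧
  (∀ k : ℕ, ∃ C : ℝ, 0 < C ∧ ∀ X : ℕ, 3 ≤ X →
    ∑ D ∈ Fam X, (aRank D : ℝ) ^ k ≤ C * ((Fam X).card : ℝ)) ∧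
  Tendsto (fun X : ℕ => (((Fam X).filter (fun D => Odd (aRank D))).card : ℝ) / (Fam X).card)
    atTop (𝓝 (1 / 2)) ∧
  (∀ k : ℕ, 1 ≤ k →
    (Tendsto (fun X : ℕ => (((Fam X).filter (fun D => aRank D = 0)).card : ℝ) / (Fam X).card)
        atTop (𝓝 (1 / 2)) ↔
      Tendsto (fun X : ℕ => (∑ D ∈ (Fam X).filter (fun D => Even (aRank D)),
        (aRank D : ℝ) ^ k) / (Fam X).card) atTop (𝓝 0)) ∧
    (Tendsto (fun X : ℕ => (((Fam X).filter (fun D => aRank D = 1)).card : ℝ) / (Fam X).card)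
        atTop (𝓝 (1 / 2)) ↔
      Tendsto (fun X : ℕ => (∑ D ∈ (Fam X).filter (fun D => Odd (aRank D)),
        (aRank D : ℝ) ^ k) / (Fam X).card) atTop (𝓝 (1 / 2))) ∧
    ((∀ j : ℕ, j ≤ 1 → Tendsto (fun X : ℕ =>
        (((Fam X).filter (fun D => aRank D = j)).card : ℝ) / (Fam X).card) atTop (𝓝 (1 / 2))) ↔
      Tendsto (fun X : ℕ => (∑ D ∈ Fam X, (aRank D : ℝ) ^ k) / (Fam X).card)
        atTop (𝓝 (1 / 2))))

theorem final4_of_final3 (h3 : StFin3) : StFin4 := by
  classical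
  obtain ⟨hL, hT, hM, -⟩ := h3
  have hC : StCoef := pfStCoef
  have hEu : StEuler := pfStEuler hC pfStPt
  have hodd := H628.odd_half (H628.pfParity hC pfDiv hEu) pfCount
  have hN : ∀ X : ℕ, 3 ≤ X → 0 < (Fam X).card := by
    intro X hX
    obtain ⟨c, hc, h⟩ := pfCount
    have h1 := h X hX
    have h2 : (3 : ℝ) ≤ X := by exact_mod_cast hX
    have h3 : (0 : ℝ) < ((Fam X).card : ℝ) := lt_of_lt_of_le (by positivity) h1
    exact_mod_cast h3
  have e1 : ∀ P : ℤ → Prop, H628.frac P =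
      fun X : ℕ => (((Fam X).filter P).card : ℝ) / (Fam X).card := by
    intro P
    funext X
    unfold H628.frac
    congr!
  have e2 : ∀ (f : ℤ → ℝ) (P : ℤ → Prop), H628.avg f P =
      fun X : ℕ => (∑ D ∈ (Fam X).filter P, f D) / (Fam X).card := by
    intro f P
    funext X
    unfold H628.avg
    congr!
  refine ⟨hL, ?_, hM, ?_, fun k hk => ?_⟩
  · obtain ⟨c, hc, h⟩ := hT
    refine ⟨c, hc, fun B => ?_⟩
    obtain ⟨C, hC, h⟩ := h B
    refine ⟨C, hC, fun X hX z hz => ?_⟩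
    convert h X hX z hz
  · have := hodd
    rw [e1] at this
    convert this
  · obtain ⟨h0, h1, h2⟩ := H628.equivs hM hN hodd hk
    rw [e1, e2] at h0
    rw [e1, e2] at h1
    rw [e1, e1] at h2
    refine ⟨?_, ?_, ?_⟩
    · convert h0
    · convert h1
    · rw [← h2]
      constructor
      · intro h
        exact ⟨by convert h 0 (by norm_num), by convert h 1 le_rfl⟩
      · rintro ⟨ha, hb⟩ j hj
        rcases (by omega : j = 0 ∨ j = 1) with rfl | rfl
        · convert ha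
        · convert hb

end P004
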