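import Vale.Agent.P004.H628.QW5

/-!
# P004: Hasse's bound and the functional equations for the twists of `y² = x³ - A x`
-/

open Real Filter
open scoped Topology

namespace P004
namespace QN

open Finset
open P004G (Modl FEt LD FEq TH cop RQ)
open P004G.ML

lemma fund1_ne {D : ℤ} (h : Fund1 D) : D ≠ 0 := by
  rintro rfl
  rcases h with h | ⟨-, ⟨h, -⟩ | ⟨d, h1, h2, -⟩⟩
  · norm_num at h
  · norm_num at h
  · omega

/-- `D` divides `4 m` with `m` squarefree -/
lemma fund1_sq {D : ℤ} (h : Fund1 D) : ∃ m : ℤ, Squarefree m ∧ D ∣ 4 * m ∧ m ∣ D := by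
  rcases h with h | ⟨-, ⟨h, h'⟩ | ⟨d, h1, h2, h3⟩⟩
  · exact ⟨1, squarefree_one, by rw [h]; exact one_dvd _, one_dvd _⟩
  · exact ⟨D, h', Dvd.intro_left _ rfl, dvd_rfl⟩
  · exact ⟨d, h3, by rw [h1], by rw [h1]; exact Dvd.intro_left _ rfl⟩

lemma RQ_le {A D : ℤ} (hA : A ≠ 0) (hD : D ≠ 0) : (RQ (A * D ^ 2) : ℝ) ≤ |(A : ℝ)| * |(D : ℝ)| := by
  have h1 : RQ (A * D ^ 2) ∣ (A * D).natAbs := by
    rw [RQ_eq]
    apply Finset.prod_primes_dvd
    · intro q hq
      exact (mem_SQ hq).1.prime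
    · intro q hq
      unfold SQ at hq
      rw [mem_filter, Nat.mem_primeFactors] at hq
      have hp := hq.1.1
      have h2 := hq.1.2.1
      rw [Int.natAbs_mul, Int.natAbs_pow] at h2
      rw [Int.natAbs_mul]
      rcases (Nat.Prime.dvd_mul hp).1 h2 with h3 | h3
      · exact Dvd.dvd.mul_right h3 _
      · exact Dvd.dvd.mul_left (hp.dvd_of_dvd_pow h3) _
  have h2 : RQ (A * D ^ 2) ≤ (A * D).natAbs :=
    Nat.le_of_dvd (Nat.pos_of_ne_zero (Int.natAbs_ne_zero.2 (mul_ne_zero hA hD))) h1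
  rw [← abs_mul]
  have h3 : |(A : ℝ) * (D : ℝ)| = ((A * D).natAbs : ℝ) := by
    rw [← Int.cast_mul, ← Int.cast_abs, Nat.cast_natAbs]
  rw [h3]
  exact_mod_cast h2

lemma le_RQ {A D : ℤ} (hA : A ≠ 0) (hD : Fund1 D) :
    |(D : ℝ)| ≤ 8 * |(A : ℝ)| * (RQ (A * D ^ 2) : ℝ) := by
  obtain ⟨m, hm, hDm, hmD⟩ := fund1_sq hD
  have hD0 := fund1_ne hD
  have hm0 : m ≠ 0 := hm.ne_zero
  have hR0 := RQ_ne_zero (A * D ^ 2)
  have hB : A * D ^ 2 ≠ 0 := mul_ne_zero hA (pow_ne_zero 2 hD0)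
  have hmn := Int.squarefree_natAbs.2 hm
  have h1 : m.natAbs ∣ 2 * A.natAbs * RQ (A * D ^ 2) := by
    rw [← Nat.prod_primeFactors_of_squarefree hmn]
    apply Finset.prod_primes_dvd
    · intro q hq
      exact (Nat.prime_of_mem_primeFactors hq).prime
    · intro q hq
      have hp := Nat.prime_of_mem_primeFactors hq
      have hqm := Nat.dvd_of_mem_primeFactors hq
      have : Fact q.Prime := ⟨hp⟩
      by_cases h2 : q = 2
      · rw [h2, mul_assoc]; exact Dvd.intro _ rfl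
      by_cases h3 : q ∣ A.natAbs
      · exact Dvd.dvd.mul_right (Dvd.dvd.mul_left h3 _) _
      · apply Dvd.dvd.mul_left
        rw [RQ_eq]
        apply dvd_prod_of_mem (fun q : ℕ => q)
        have hqD : (q : ℤ) ∣ D := (Int.natCast_dvd.2 hqm).trans hmD
        unfold SQ
        rw [mem_filter, Nat.mem_primeFactors]
        refine ⟨⟨hp, ?_, Int.natAbs_ne_zero.2 hB⟩, h2, ?_⟩
        · rw [← Int.natCast_dvd]
          exact Dvd.dvd.mul_left (dvd_pow hqD two_ne_zero) _
        · have hv1 : padicValInt q A = 0 :=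
            padicValInt.eq_zero_of_not_dvd (fun h => h3 (Int.natCast_dvd.1 h))
          have hvm : padicValInt q D = 1 := by
            have h5 : padicValInt q m = 1 := by
              have h6 : padicValInt q m = m.natAbs.factorization q := by
                rw [Nat.factorization_def _ hp]; rfl
              have h7 := (Nat.squarefree_iff_factorization_le_one
                (Int.natAbs_ne_zero.2 hm0)).1 hmn q
              have h8 : 0 < m.natAbs.factorization q :=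
                hp.factorization_pos_of_dvd (Int.natAbs_ne_zero.2 hm0) hqm
              omega
            obtain ⟨r, hr⟩ := hmD
            obtain ⟨s, hs⟩ := hDm
            have hr0 : r ≠ 0 := by rintro rfl; rw [mul_zero] at hr; exact hD0 hr
            have h9 : r * s = 4 := by
              have : m * (r * s) = m * 4 := by rw [← mul_assoc, ← hr, ← hs]; ring
              exact mul_left_cancel₀ hm0 this
            have hqr : ¬ (q : ℤ) ∣ r := by
              intro h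
              have h10 : (q : ℤ) ∣ 4 := h9 ▸ Dvd.dvd.mul_right h s
              have h11 : q ∣ 2 ^ 2 := by
                have := Int.natCast_dvd.1 h10
                simpa using this
              exact h2 ((Nat.prime_dvd_prime_iff_eq hp Nat.prime_two).1 (hp.dvd_of_dvd_pow h11))
            rw [hr, padicValInt.mul hm0 hr0, h5, padicValInt.eq_zero_of_not_dvd hqr]
          rw [padicValInt.mul hA (pow_ne_zero 2 hD0), pow_two, padicValInt.mul hD0 hD0, hv1, hvm]
          norm_num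
  have h2 : D.natAbs ∣ 4 * m.natAbs := by
    have := Int.natAbs_dvd_natAbs.2 hDm
    rwa [Int.natAbs_mul] at this
  have h3 : D.natAbs ≤ 4 * (2 * A.natAbs * RQ (A * D ^ 2)) := by
    have h4 : 4 * m.natAbs ∣ 4 * (2 * A.natAbs * RQ (A * D ^ 2)) := mul_dvd_mul_left 4 h1
    apply Nat.le_of_dvd _ (h2.trans h4)
    have := Nat.pos_of_ne_zero (Int.natAbs_ne_zero.2 hA)
    have := Nat.pos_of_ne_zero hR0
    positivity
  have e1 : |(D : ℝ)| = (D.natAbs : ℝ) := by
    rw [← Int.cast_abs, Nat.cast_natAbs]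
  have e2 : |(A : ℝ)| = (A.natAbs : ℝ) := by
    rw [← Int.cast_abs, Nat.cast_natAbs]
  rw [e1, e2]
  have h5 : (D.natAbs : ℝ) ≤ ((4 * (2 * A.natAbs * RQ (A * D ^ 2)) : ℕ) : ℝ) := by
    exact_mod_cast h3
  refine h5.trans (le_of_eq ?_)
  push_cast
  ring

/-- from `FEq` to the functional equation in the classical form -/
lemma fet_of {a b : ℤ} {A : ℕ → ℤ} {q κ : ℝ} (hA : ∀ n, A n = LA a b n) (h : FEq A q κ) :
    FEt a b (4 * q) κ := by
  obtain ⟨hq, -, hfe⟩ := h
  have hA' : A = LA a b := funext hA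
  subst hA'
  intro y hy
  have h1 := hfe (2 / (4 * q * y)) (by positivity)
  have e1 : 1 / (q * (2 / (4 * q * y))) = 2 * y := by field_simp; ring
  rw [e1] at h1
  unfold TH at h1
  have e2 : ∀ n : ℕ, (LA a b n : ℝ) * Real.exp (-π * n * (2 / (4 * q * y))) =
      (LA a b n : ℝ) * Real.exp (-2 * π * n * (1 / (4 * q * y))) := by
    intro n; congr 2; ring
  have e3 : ∀ n : ℕ, (LA a b n : ℝ) * Real.exp (-π * n * (2 * y)) =
      (LA a b n : ℝ) * Real.exp (-2 * π * n * y) := by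
    intro n; congr 2; ring
  simp only [e2, e3] at h1
  have h4 : (4 : ℝ) * ∑' n : ℕ, (LA a b n : ℝ) * Real.exp (-2 * π * n * (1 / (4 * q * y))) =
      4 * (κ * (4 * q) * y ^ 2 * ∑' n : ℕ, (LA a b n : ℝ) * Real.exp (-2 * π * n * y)) := by
    rw [h1]
    field_simp
    ring
  linarith

/-- **Hasse's bound and the functional equations for the twists of `y² = x³ - A x`** -/
theorem modlQ (hMLQ : StMLQ) {A : ℤ} (hA : A ≠ 0) : Modl (-A) 0 := by
  have hid : ∀ D : ℤ, Fund1 D → ∀ n, AQ (A * D ^ 2) n = LA (-A * D ^ 2) (0 * D ^ 3) n := by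
    intro D hD n
    have hB : A * D ^ 2 ≠ 0 := mul_ne_zero hA (pow_ne_zero 2 (fund1_ne hD))
    rw [hMLQ _ hB _ (coefQ hB) n, neg_mul, zero_mul]
  refine ⟨?_, 256 * (A : ℝ) ^ 2, ?_, ?_⟩
  · intro D hD p hp
    have hB : A * D ^ 2 ≠ 0 := mul_ne_zero hA (pow_ne_zero 2 (fund1_ne hD))
    rw [← hid D hD p]
    rcases (coefQ hB).ld.loc p hp with ⟨-, h⟩ | ⟨-, h⟩
    · exact h
    · have h1 : (AQ (A * D ^ 2) p) ^ 2 ≤ 1 := by
        rw [← sq_abs]
        have := abs_nonneg (AQ (A * D ^ 2) p)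
        nlinarith
      have h2 : (1 : ℤ) ≤ p := by exact_mod_cast hp.one_lt.le
      linarith
  · have h1 : (1 : ℝ) ≤ |(A : ℝ)| := by
      have : 1 ≤ |A| := Int.one_le_abs hA
      exact_mod_cast this
    have h2 : (1 : ℝ) ≤ (A : ℝ) ^ 2 := by
      rw [← sq_abs]
      exact one_le_pow₀ h1
    linarith
  · intro D hD
    obtain ⟨q, κ, hfe, h1, h2⟩ := feq (A * D ^ 2)
    have hq := hfe.1
    have hD0 := fund1_ne hD
    have hs : √q ^ 2 = q := Real.sq_sqrt hq.le
    have hR0 : (0 : ℝ) ≤ (RQ (A * D ^ 2) : ℝ) := Nat.cast_nonneg _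
    have hA1 : 0 < |(A : ℝ)| := by
      rw [abs_pos]; exact_mod_cast hA
    have hDa : 0 ≤ |(D : ℝ)| := abs_nonneg _
    refine ⟨4 * q, κ, by positivity, hfe.2.1, ?_, ?_, fet_of (hid D hD) hfe⟩
    · rw [div_le_iff₀ (by positivity)]
      have h3 := le_RQ hA hD
      have h4 : |(D : ℝ)| ≤ 8 * |(A : ℝ)| * √q :=
        h3.trans (mul_le_mul_of_nonneg_left h1 (by positivity))
      have h5 : |(D : ℝ)| ^ 2 ≤ (8 * |(A : ℝ)| * √q) ^ 2 := pow_le_pow_left₀ hDa h4 2
      rw [sq_abs, mul_pow, mul_pow, sq_abs, hs] at h5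
      have h6 : 0 ≤ (A : ℝ) ^ 2 * q := by positivity
      nlinarith
    · have h3 := RQ_le hA hD0
      have h4 : √q ≤ 8 * (|(A : ℝ)| * |(D : ℝ)|) :=
        h2.trans (mul_le_mul_of_nonneg_left h3 (by norm_num))
      have h5 : √q ^ 2 ≤ (8 * (|(A : ℝ)| * |(D : ℝ)|)) ^ 2 :=
        pow_le_pow_left₀ (Real.sqrt_nonneg _) h4 2
      rw [hs, mul_pow, mul_pow, sq_abs, sq_abs] at h5
      nlinarith

end QN
end P004
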