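import Mathlib
import Vale.Agent.P004.A1

/-!
# P004, quartic characters of finite fields and the Jacobi sums attached to them
-/

namespace P004
namespace QN

open Finset

/-- the imaginary unit -/
def ii : GaussianInt := ⟨0, 1⟩

lemma ii_sq : ii * ii = -1 := by decide

/-- zero or a unit -/
def Is4 (z : GaussianInt) : Prop := z = 0 ∨ z = 1 ∨ z = ii ∨ z = -1 ∨ z = -ii

lemma Is4.mul {a b : GaussianInt} (ha : Is4 a) (hb : Is4 b) : Is4 (a * b) := by
  rcases ha with rfl | rfl | rfl | rfl | rfl <;> rcases hb with rfl | rfl | rfl | rfl | rfl <;>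
    simp [Is4, ii_sq]

lemma Is4.star {a : GaussianInt} (ha : Is4 a) : Is4 (star a) := by
  rcases ha with rfl | rfl | rfl | rfl | rfl <;> unfold Is4 <;> decide

lemma Is4.pow {a : GaussianInt} (ha : Is4 a) (n : ℕ) : Is4 (a ^ n) := by
  induction n with
  | zero => rw [pow_zero]; exact Or.inr (Or.inl rfl)
  | succ n ih => rw [pow_succ]; exact ih.mul ha

lemma is4_zero : Is4 0 := Or.inl rfl
lemma is4_one : Is4 1 := Or.inr (Or.inl rfl)
lemma is4_ii : Is4 ii := Or.inr (Or.inr (Or.inl rfl))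
lemma is4_neg_one : Is4 (-1) := Or.inr (Or.inr (Or.inr (Or.inl rfl)))
lemma is4_neg_ii : Is4 (-ii) := Or.inr (Or.inr (Or.inr (Or.inr rfl)))

lemma Is4.pow_four {a : GaussianInt} (ha : Is4 a) (h0 : a ≠ 0) : a ^ 4 = 1 := by
  rcases ha with rfl | rfl | rfl | rfl | rfl
  · exact absurd rfl h0
  all_goals decide

lemma Is4.mul_star {a : GaussianInt} (ha : Is4 a) (h0 : a ≠ 0) : a * Star.star a = 1 := by
  rcases ha with rfl | rfl | rfl | rfl | rfl
  · exact absurd rfl h0
  all_goals decide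

lemma Is4.star_eq {a : GaussianInt} (ha : Is4 a) : Star.star a = a ^ 3 := by
  rcases ha with rfl | rfl | rfl | rfl | rfl <;> decide

/-- a homomorphism to a domain with `2 ≠ 0` is injective on the set of zero and the units -/
lemma Is4.inj {F : Type*} [CommRing F] [IsDomain F] (φ : GaussianInt →+* F) (h2 : (2 : F) ≠ 0)
    {a b : GaussianInt} (ha : Is4 a) (hb : Is4 b) (h : φ a = φ b) : a = b := by
  have key : ∀ z : GaussianInt, φ z = 0 → (z.norm : ℤ) = 0 ∨ z.norm = 1 ∨ z.norm = 2 ∨ z.norm = 4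
      → z = 0 := by
    intro z hz hn
    have h3 : φ ((z.norm : ℤ) : GaussianInt) = 0 := by
      rw [Zsqrtd.norm_eq_mul_conj, map_mul, hz, zero_mul]
    rw [map_intCast] at h3
    rcases hn with hn | hn | hn | hn
    · rw [A1.norm_eq] at hn
      have h5 : z.re = 0 := by nlinarith [sq_nonneg z.re, sq_nonneg z.im]
      have h6 : z.im = 0 := by nlinarith [sq_nonneg z.re, sq_nonneg z.im]
      exact Zsqrtd.ext h5 h6
    · rw [hn] at h3; simp at h3
    · rw [hn] at h3; exact absurd (by exact_mod_cast h3) h2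
    · rw [hn] at h3
      have h7 : (2 : F) * 2 = 0 := by
        have : ((4 : ℤ) : F) = 2 * 2 := by norm_num
        rw [← this]; exact h3
      rcases mul_eq_zero.1 h7 with h8 | h8 <;> exact absurd h8 h2
  have h1 : φ (a - b) = 0 := by rw [map_sub, h, sub_self]
  apply sub_eq_zero.1
  apply key _ h1
  rcases ha with rfl | rfl | rfl | rfl | rfl <;> rcases hb with rfl | rfl | rfl | rfl | rfl <;> decide

section field

variable {F : Type*} [Field F] [Fintype F]

omit [Fintype F] in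
lemma ringChar_ne_two_of (h2 : (2 : F) ≠ 0) : ringChar F ≠ 2 := by
  intro h
  apply h2
  have := CharP.cast_eq_zero F (ringChar F)
  rw [h] at this
  exact_mod_cast this

lemma phi_ii_sq {F : Type*} [CommRing F] (φ : GaussianInt →+* F) : φ ii * φ ii = -1 := by
  rw [← map_mul, ii_sq, map_neg, map_one]

lemma card_mod_four (φ : GaussianInt →+* F) (h2 : (2 : F) ≠ 0) : Fintype.card F % 4 = 1 := by
  have h1 := FiniteField.odd_card_of_char_ne_two (ringChar_ne_two_of h2)
  have h3 : IsSquare (-1 : F) := ⟨φ ii, (phi_ii_sq φ).symm⟩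
  rw [FiniteField.isSquare_neg_one_iff] at h3
  omega

/-- the exponent `(q - 1) / 4` -/
lemma card_eq (φ : GaussianInt →+* F) (h2 : (2 : F) ≠ 0) :
    Fintype.card F = 4 * ((Fintype.card F - 1) / 4) + 1 := by
  have := card_mod_four φ h2
  omega

lemma exp_pos (φ : GaussianInt →+* F) (h2 : (2 : F) ≠ 0) : 0 < (Fintype.card F - 1) / 4 := by
  have h1 := card_eq φ h2
  have h3 : 1 < Fintype.card F := Fintype.one_lt_card
  omega

lemma pow_exp_cases (φ : GaussianInt →+* F) (h2 : (2 : F) ≠ 0) {x : F} (hx : x ≠ 0) :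
    ∃ v : GaussianInt, Is4 v ∧ v ≠ 0 ∧ φ v = x ^ ((Fintype.card F - 1) / 4) := by
  set n := (Fintype.card F - 1) / 4 with hn
  have h1 : (x ^ n) ^ 4 = 1 := by
    rw [← pow_mul]
    have h3 : n * 4 = Fintype.card F - 1 := by have := card_eq φ h2; omega
    rw [h3]
    exact FiniteField.pow_card_sub_one_eq_one x hx
  have h3 : (x ^ n - 1) * (x ^ n + 1) * ((x ^ n - φ ii) * (x ^ n + φ ii)) = 0 := by
    have h4 := phi_ii_sq φ
    linear_combination h1 - (x ^ n * x ^ n - 1) * h4
  rcases mul_eq_zero.1 h3 with h4 | h4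
  · rcases mul_eq_zero.1 h4 with h5 | h5
    · exact ⟨1, is4_one, by decide, by rw [map_one]; linear_combination -h5⟩
    · exact ⟨-1, is4_neg_one, by decide, by rw [map_neg, map_one]; linear_combination -h5⟩
  · rcases mul_eq_zero.1 h4 with h5 | h5
    · exact ⟨ii, is4_ii, by decide, by linear_combination -h5⟩
    · exact ⟨-ii, is4_neg_ii, by decide, by rw [map_neg]; linear_combination -h5⟩

/-- the quartic character attached to a homomorphism from the Gaussian integers -/
theorem exists_quart (φ : GaussianInt →+* F) (h2 : (2 : F) ≠ 0) :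
    ∃ χ : MulChar F GaussianInt, (∀ x, Is4 (χ x)) ∧
      ∀ x, φ (χ x) = x ^ ((Fintype.card F - 1) / 4) := by
  classical
  have h1 : ∀ x : F, ∃ v : GaussianInt, Is4 v ∧ (x = 0 → v = 0) ∧
      φ v = x ^ ((Fintype.card F - 1) / 4) := by
    intro x
    by_cases hx : x = 0
    · refine ⟨0, is4_zero, fun _ => rfl, ?_⟩
      rw [map_zero, hx, zero_pow (exp_pos φ h2).ne']
    · obtain ⟨v, hv, -, hv2⟩ := pow_exp_cases φ h2 hx
      exact ⟨v, hv, fun h => absurd h hx, hv2⟩
  choose f hf hf0 hf1 using h1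
  refine ⟨⟨⟨⟨f, ?_⟩, ?_⟩, ?_⟩, hf, hf1⟩
  · apply Is4.inj φ h2 (hf 1) is4_one
    rw [hf1, one_pow, map_one]
  · intro x y
    apply Is4.inj φ h2 (hf _) ((hf _).mul (hf _))
    rw [map_mul, hf1, hf1, hf1, mul_pow]
  · intro x hx
    apply hf0
    by_contra h
    exact hx (isUnit_iff_ne_zero.2 h)

/-- the quartic character attached to `φ` -/
noncomputable def quart (φ : GaussianInt →+* F) (h2 : (2 : F) ≠ 0) : MulChar F GaussianInt :=
  (exists_quart φ h2).choose

variable (φ : GaussianInt →+* F) (h2 : (2 : F) ≠ 0)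

lemma quart_is4 (x : F) : Is4 (quart φ h2 x) := (exists_quart φ h2).choose_spec.1 x

lemma phi_quart (x : F) : φ (quart φ h2 x) = x ^ ((Fintype.card F - 1) / 4) :=
  (exists_quart φ h2).choose_spec.2 x

lemma quart_ne_zero {x : F} (hx : x ≠ 0) : quart φ h2 x ≠ 0 := by
  intro h
  have := phi_quart φ h2 x
  rw [h, map_zero] at this
  exact hx (pow_eq_zero_iff (exp_pos φ h2).ne' |>.1 this.symm)

lemma quart_sq [DecidableEq F] (x : F) :
    (quart φ h2 ^ 2) x = ((quadraticChar F x : ℤ) : GaussianInt) := by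
  rw [MulChar.pow_apply' _ two_ne_zero]
  have h4 : Is4 ((quadraticChar F x : ℤ) : GaussianInt) := by
    by_cases hx : x = 0
    · rw [hx, MulChar.map_zero]; exact Or.inl (by simp)
    · rcases quadraticChar_dichotomy hx with h | h <;> rw [h]
      · exact Or.inr (Or.inl (by simp))
      · exact Or.inr (Or.inr (Or.inr (Or.inl (by simp))))
  apply Is4.inj φ h2 ((quart_is4 φ h2 x).pow 2) h4
  rw [map_pow, phi_quart, map_intCast,
    quadraticChar_eq_pow_of_char_ne_two' (ringChar_ne_two_of h2), ← pow_mul]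
  congr 1
  have := card_eq φ h2
  omega

lemma quart_pow_four : quart φ h2 ^ 4 = 1 := by
  apply MulChar.ext
  intro a
  rw [MulChar.one_apply_coe, MulChar.pow_apply_coe]
  exact (quart_is4 φ h2 a).pow_four (quart_ne_zero φ h2 a.ne_zero)

lemma quart_sq_ne_one : quart φ h2 ^ 2 ≠ 1 := by
  classical
  obtain ⟨a, ha⟩ := quadraticChar_exists_neg_one' (ringChar_ne_two_of h2) (F := F)
  intro h
  have h1 := quart_sq φ h2 (a : F)
  rw [h, MulChar.one_apply_coe, ha] at h1
  exact absurd h1 (by decide)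

lemma quart_order : orderOf (quart φ h2) = 4 := by
  have : Fact (Nat.Prime 2) := ⟨Nat.prime_two⟩
  have h := orderOf_eq_prime_pow (p := 2) (n := 1) (x := quart φ h2)
    (by rw [pow_one]; exact quart_sq_ne_one φ h2) (by
      rw [show 2 ^ (1 + 1) = 4 by norm_num]; exact quart_pow_four φ h2)
  rw [h]; norm_num

lemma quart_inv (x : F) : (quart φ h2)⁻¹ x = star (quart φ h2 x) := by
  have h1 : (quart φ h2)⁻¹ = quart φ h2 ^ 3 := by
    rw [inv_eq_iff_mul_eq_one, ← pow_succ']
    exact quart_pow_four φ h2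
  rw [h1, MulChar.pow_apply' _ three_ne_zero, (quart_is4 φ h2 x).star_eq]

/-- `J(χ, χ²) ≡ 0` modulo the kernel of `φ` -/
lemma phi_jac : φ (jacobiSum (quart φ h2) (quart φ h2 ^ 2)) = 0 := by
  set n := (Fintype.card F - 1) / 4 with hn
  have hq := card_eq φ h2
  have hpos := exp_pos φ h2
  rw [← hn] at hq hpos
  unfold jacobiSum
  rw [map_sum]
  have h1 : ∀ x : F, φ (quart φ h2 x * (quart φ h2 ^ 2) (1 - x)) =
      ∑ m ∈ range (2 * n + 1), ((-1) ^ m * ((2 * n).choose m : F)) * x ^ (n + m) := by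
    intro x
    rw [map_mul, MulChar.pow_apply' _ two_ne_zero, map_pow, phi_quart, phi_quart, ← hn,
      ← pow_mul, mul_comm n 2, sub_eq_add_neg, add_comm 1 (-x), add_pow, mul_sum]
    apply sum_congr rfl
    intro m _
    rw [one_pow, mul_one, neg_pow, pow_add]
    ring
  rw [sum_congr rfl (fun x _ => h1 x), sum_comm]
  apply sum_eq_zero
  intro m hm
  rw [← mul_sum, FiniteField.sum_pow_lt_card_sub_one F, mul_zero]
  rw [mem_range] at hm
  omega

/-- `N J(χ, χ²) = q` -/
lemma norm_jac : (jacobiSum (quart φ h2) (quart φ h2 ^ 2)).norm = Fintype.card F := by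
  set χ := quart φ h2 with hχ
  have hinj : Function.Injective GaussianInt.toComplex := by
    rw [injective_iff_map_eq_zero]
    intro a ha
    exact GaussianInt.toComplex_eq_zero.1 ha
  have h1 : χ ≠ 1 := by
    intro h
    exact quart_sq_ne_one φ h2 (by rw [← hχ, h, one_pow])
  have h3 : χ * χ ^ 2 ≠ 1 := by
    intro h
    rw [← pow_succ'] at h
    have h4 : χ ^ 4 = 1 := quart_pow_four φ h2
    apply h1
    calc χ = χ ^ 3 * χ := by rw [h, one_mul]
      _ = χ ^ 4 := by rw [← pow_succ]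
      _ = 1 := h4
  have hc : ringChar ℂ ≠ ringChar F := by
    intro h
    have h5 : ringChar ℂ = 0 := ringChar.eq_zero
    rw [h5] at h
    have h6 := CharP.ringChar_ne_zero_of_finite F
    exact h6 h.symm
  have h4 := jacobiSum_mul_jacobiSum_inv (F := F) (F' := ℂ) hc
    (χ := χ.ringHomComp GaussianInt.toComplex) (φ := (χ ^ 2).ringHomComp GaussianInt.toComplex)
    ((MulChar.ringHomComp_ne_one_iff hinj).2 h1)
    ((MulChar.ringHomComp_ne_one_iff hinj).2 (quart_sq_ne_one φ h2))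
    (by rw [← MulChar.ringHomComp_mul]; exact (MulChar.ringHomComp_ne_one_iff hinj).2 h3)
  rw [MulChar.ringHomComp_inv, MulChar.ringHomComp_inv, jacobiSum_ringHomComp,
    jacobiSum_ringHomComp, ← map_mul] at h4
  have h5 : jacobiSum χ⁻¹ (χ ^ 2)⁻¹ = star (jacobiSum χ (χ ^ 2)) := by
    unfold jacobiSum
    rw [star_sum]
    apply sum_congr rfl
    intro x _
    rw [star_mul', quart_inv]
    congr 1
    rw [← inv_pow, MulChar.pow_apply' _ two_ne_zero, MulChar.pow_apply' _ two_ne_zero, quart_inv,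
      star_pow]
  rw [h5] at h4
  have h6 : jacobiSum χ (χ ^ 2) * star (jacobiSum χ (χ ^ 2)) = ((Fintype.card F : ℤ) : GaussianInt) := by
    apply hinj
    rw [h4]
    simp
  have h7 := Zsqrtd.norm_eq_mul_conj (jacobiSum χ (χ ^ 2))
  rw [h6] at h7
  exact_mod_cast h7

/-- `1 + i` divides `u - 1` for each unit `u` -/
lemma Is4.sub_one {a : GaussianInt} (ha : Is4 a) (h0 : a ≠ 0) : (⟨1, 1⟩ : GaussianInt) ∣ a - 1 := by
  rcases ha with rfl | rfl | rfl | rfl | rfl
  · exact absurd rfl h0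
  · exact ⟨0, by decide⟩
  · exact ⟨⟨0, 1⟩, by decide⟩
  · exact ⟨⟨-1, 1⟩, by decide⟩
  · exact ⟨⟨-1, 0⟩, by decide⟩

lemma jac_add_one : (⟨2, 2⟩ : GaussianInt) ∣ jacobiSum (quart φ h2) (quart φ h2 ^ 2) + 1 := by
  classical
  set χ := quart φ h2 with hχ
  have h1 : χ ≠ 1 := by
    intro h
    exact quart_sq_ne_one φ h2 (by rw [← hχ, h, one_pow])
  have hρ : ∀ x : F, (χ ^ 2) x = ((quadraticChar F x : ℤ) : GaussianInt) := quart_sq φ h2
  have hs1 : ∑ x : F, χ x = 0 := MulChar.sum_eq_zero_of_ne_one h1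
  have hs2 : ∑ x : F, (χ ^ 2) x = 0 := MulChar.sum_eq_zero_of_ne_one (quart_sq_ne_one φ h2)
  have hcard : (Fintype.card F : GaussianInt) = ∑ x : F, 1 := by simp
  have e1 : jacobiSum χ (χ ^ 2) + 1 =
      ∑ x : F, (if x = 0 then 0 else (χ x - 1) * (1 + (χ ^ 2) (1 - x)))
        + ((Fintype.card F : GaussianInt) - 1) := by
    have e2 : ∀ x : F, (if x = 0 then 0 else (χ x - 1) * (1 + (χ ^ 2) (1 - x))) =
        χ x * (χ ^ 2) (1 - x) + χ x - 1 - (χ ^ 2) (1 - x) + (if x = 0 then 2 else 0) := by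
      intro x
      split_ifs with hx
      · rw [hx, MulChar.map_zero, sub_zero, map_one]; ring
      · ring
    rw [sum_congr rfl (fun x _ => e2 x), sum_add_distrib, sum_sub_distrib, sum_sub_distrib,
      sum_add_distrib, hs1, ← hcard, sum_ite_eq' univ (0 : F)]
    have e3 : ∑ x : F, (χ ^ 2) (1 - x) = 0 := by
      rw [← hs2, ← (Equiv.subLeft (1 : F)).sum_comp]
      simp [Equiv.subLeft_apply]
    rw [e3]
    unfold jacobiSum
    simp only [mem_univ, if_true]
    ring
  rw [e1]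
  apply dvd_add
  · apply dvd_sum
    intro x _
    split_ifs with hx
    · exact dvd_zero _
    · have h5 : (⟨1, 1⟩ : GaussianInt) ∣ χ x - 1 :=
        (quart_is4 φ h2 x).sub_one (quart_ne_zero φ h2 hx)
      by_cases hx1 : x = 1
      · rw [hx1, map_one, sub_self, zero_mul]; exact dvd_zero _
      · have h6 : (2 : GaussianInt) ∣ 1 + (χ ^ 2) (1 - x) := by
          rw [hρ]
          have h7 : (1 - x) ≠ 0 := sub_ne_zero.2 (Ne.symm hx1)
          rcases quadraticChar_dichotomy h7 with h | h <;> rw [h]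
          · exact ⟨1, by decide⟩
          · exact ⟨0, by decide⟩
        have h8 : (⟨2, 2⟩ : GaussianInt) = ⟨1, 1⟩ * 2 := by decide
        rw [h8]
        exact mul_dvd_mul h5 h6
  · have h9 := card_eq φ h2
    rw [h9]
    push_cast
    rw [add_sub_cancel_right]
    exact Dvd.dvd.mul_right ⟨⟨1, -1⟩, by decide⟩ _

end field

lemma prim_of_dvd {z : GaussianInt} (h : (⟨2, 2⟩ : GaussianInt) ∣ z - 1) : A1.Prim z := by
  obtain ⟨w, hw⟩ := h
  have h1 := congrArg Zsqrtd.re hw
  have h3 := congrArg Zsqrtd.im hw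
  simp only [Zsqrtd.re_sub, Zsqrtd.im_sub, Zsqrtd.re_mul, Zsqrtd.im_mul, Zsqrtd.re_one,
    Zsqrtd.im_one] at h1 h3
  constructor <;> omega

/-- `J(χ, χ²) = -π` for the primary prime `π` in the kernel -/
theorem jac_eq_neg {p : ℕ} [hp : Fact p.Prime] (φ : GaussianInt →+* ZMod p)
    (h2 : (2 : ZMod p) ≠ 0) {ϖ : GaussianInt} (hN : ϖ.norm = p) (hP : A1.Prim ϖ) (h0 : φ ϖ = 0) :
    jacobiSum (quart φ h2) (quart φ h2 ^ 2) = -ϖ := by
  set J := jacobiSum (quart φ h2) (quart φ h2 ^ 2) with hJ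
  have hprime := A1.prime_of_norm hN
  have hdvd : ϖ ∣ J := by
    by_contra h
    have hc : IsCoprime ϖ J := (Prime.coprime_iff_not_dvd hprime).2 h
    obtain ⟨a, b, hab⟩ := hc
    have h3 := congrArg φ hab
    rw [map_add, map_mul, map_mul, h0, phi_jac, mul_zero, mul_zero, add_zero, map_one] at h3
    exact zero_ne_one h3
  obtain ⟨w, hw⟩ := hdvd
  have hn : w.norm = 1 := by
    have h3 : J.norm = p := by rw [hJ, norm_jac]; simp
    rw [hw, Zsqrtd.norm_mul, hN] at h3
    have hp0 : (p : ℤ) ≠ 0 := by exact_mod_cast hp.out.ne_zero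
    exact mul_left_cancel₀ hp0 (by rw [h3, mul_one])
  have h5 : A1.Prim (-J) := by
    apply prim_of_dvd
    have h6 := jac_add_one φ h2
    rw [← hJ] at h6
    have h7 : -J - 1 = -(J + 1) := by ring
    rw [h7]
    exact (dvd_neg).2 h6
  have h6 : (-w).norm = 1 := by rw [Zsqrtd.norm_neg, hn]
  have h7 : A1.Prim (ϖ * -w) := by rw [mul_neg, ← hw]; exact h5
  have h8 := A1.prim_unit h6 hP h7
  rw [hw, ← neg_neg w, h8]; ring

end QN
end P004
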