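import Vale.Agent.P004.H628.QN9

/-!
# P004, package Q : the functional equation and the local data of every `y² = x³ - B x`
-/

open Real MeasureTheory Set

namespace P004
namespace QN

open P004G (cop RQ TH FEq StQ)

lemma summable_AQ (B : ℤ) {u : ℝ} (hu : 0 < u) :
    Summable (fun n : ℕ => (AQ B n : ℝ) * Real.exp (-π * n * u)) := by
  have h1 := (hasSum_prim B hu).summable
  have h3 := h1.norm
  refine Summable.of_norm ?_
  refine h3.congr ?_
  intro n
  rw [Complex.norm_real]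

/-- the theta series does not vanish identically -/
lemma exists_TH_ne (B : ℤ) : ∃ v : ℝ, 0 < v ∧ TH (AQ B) v ≠ 0 := by
  have hs1 := (summable_AQ B one_pos).norm
  set S : ℝ := ∑' n : ℕ, ‖(AQ B n : ℝ) * Real.exp (-π * n * 1)‖ with hS
  have hS0 : 0 ≤ S := tsum_nonneg fun _ => norm_nonneg _
  set v : ℝ := 1 + S * Real.exp (2 * π) with hv
  have hv1 : 1 ≤ v := by rw [hv]; have := Real.exp_pos (2 * π); nlinarith
  have hv0 : 0 < v := by linarith
  refine ⟨v, hv0, ?_⟩
  have hs := summable_AQ B hv0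
  have h1 := hs.tsum_eq_add_tsum_ite 1
  rw [AQ_one] at h1
  have hb : ∀ n : ℕ, ‖(if n = 1 then 0 else (AQ B n : ℝ) * Real.exp (-π * n * v) : ℝ)‖ ≤
      Real.exp (-2 * π * (v - 1)) * ‖(AQ B n : ℝ) * Real.exp (-π * n * 1)‖ := by
    intro n
    by_cases h0 : n = 0
    · rw [h0, AQ_mod B (n := 0) (by norm_num)]
      simp
    by_cases hn : n = 1
    · rw [if_pos hn, norm_zero]; positivity
    · rw [if_neg hn, norm_mul, norm_mul, Real.norm_eq_abs (Real.exp _),
        Real.norm_eq_abs (Real.exp _), abs_of_pos (Real.exp_pos _), abs_of_pos (Real.exp_pos _)]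
      have hn2 : (2 : ℝ) ≤ n := by
        have : 2 ≤ n := by omega
        exact_mod_cast this
      have e1 : Real.exp (-π * n * v) ≤ Real.exp (-2 * π * (v - 1)) * Real.exp (-π * n * 1) := by
        rw [← Real.exp_add]
        apply Real.exp_le_exp.2
        nlinarith [Real.pi_pos, mul_nonneg (mul_nonneg Real.pi_pos.le (sub_nonneg.2 hn2))
          (sub_nonneg.2 hv1)]
      calc ‖(AQ B n : ℝ)‖ * Real.exp (-π * n * v)
          ≤ ‖(AQ B n : ℝ)‖ * (Real.exp (-2 * π * (v - 1)) * Real.exp (-π * n * 1)) := by gcongr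
        _ = _ := by ring
  have hs2 : Summable (fun n : ℕ => Real.exp (-2 * π * (v - 1)) *
      ‖(AQ B n : ℝ) * Real.exp (-π * n * 1)‖) := hs1.mul_left _
  have h3 : ‖∑' n : ℕ, (if n = 1 then 0 else (AQ B n : ℝ) * Real.exp (-π * n * v) : ℝ)‖ ≤
      Real.exp (-2 * π * (v - 1)) * S := by
    rw [hS, ← tsum_mul_left]
    exact tsum_of_norm_bounded hs2.hasSum hb
  have h5 : Real.exp (-2 * π * (v - 1)) * S < Real.exp (-π * v) := by
    have e1 : S * Real.exp (2 * π) < Real.exp (π * v) := by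
      have e2 : v ≤ π * v := by nlinarith [Real.pi_gt_three]
      have e3 := Real.add_one_le_exp (π * v)
      linarith
    have e4 : Real.exp (-2 * π * (v - 1)) = Real.exp (2 * π) * Real.exp (-2 * π * v) := by
      rw [← Real.exp_add]; ring_nf
    have e5 : Real.exp (-π * v) = Real.exp (π * v) * Real.exp (-2 * π * v) := by
      rw [← Real.exp_add]; ring_nf
    rw [e4, e5]
    have := Real.exp_pos (-2 * π * v)
    nlinarith
  intro h0
  unfold TH at h0
  have h6 : ∑' n : ℕ, (AQ B n : ℝ) * Real.exp (-π * n * v) = 0 := by linarith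
  rw [h6] at h1
  simp only [Nat.cast_one, mul_one, Int.cast_one, one_mul] at h1
  rw [Real.norm_eq_abs] at h3
  have h7 := abs_le.1 h3
  linarith [h7.1]

/-- the functional equation -/
theorem feq (B : ℤ) : ∃ q κ : ℝ, FEq (AQ B) q κ ∧ (RQ B : ℝ) ≤ √q ∧ √q ≤ 8 * (RQ B : ℝ) := by
  obtain ⟨q, c, hq, h1, h2, hfe⟩ := TH_fe B
  obtain ⟨v, hv, hne⟩ := exists_TH_ne B
  have hw : 0 < 1 / (q * v) := by positivity
  have e1 := hfe v hv
  have hv' : (v : ℂ) ≠ 0 := by exact_mod_cast hv.ne'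
  have hTv : ((TH (AQ B) v : ℝ) : ℂ) ≠ 0 := by exact_mod_cast hne
  have hTw : ((TH (AQ B) (1 / (q * v)) : ℝ) : ℂ) ≠ 0 := by
    intro h
    rw [h, mul_zero] at e1
    exact hTv e1
  -- the constant is real
  set r : ℝ := TH (AQ B) v * v ^ 2 / TH (AQ B) (1 / (q * v)) with hr
  have hc : c = (r : ℂ) := by
    rw [hr]
    push_cast
    rw [eq_div_iff hTw, e1]
    field_simp
  have hfr : ∀ u : ℝ, 0 < u → TH (AQ B) u = r / u ^ 2 * TH (AQ B) (1 / (q * u)) := by
    intro u hu
    have := hfe u hu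
    rw [hc] at this
    exact_mod_cast this
  have e2 := hfr v hv
  have e3 := hfr _ hw
  have e4 : 1 / (q * (1 / (q * v))) = v := by field_simp
  rw [e4] at e3
  rw [e3] at e2
  have e5 : r / v ^ 2 * (r / (1 / (q * v)) ^ 2 * TH (AQ B) v) = (r * q) ^ 2 * TH (AQ B) v := by
    field_simp
  rw [e5] at e2
  have e6 : (r * q) ^ 2 = 1 := mul_right_cancel₀ hne (by rw [one_mul]; exact e2.symm)
  have e7 : r * q = 1 ∨ r * q = -1 := by
    have h : (r * q - 1) * (r * q + 1) = 0 := by linear_combination e6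
    rcases mul_eq_zero.1 h with h | h
    · left; linarith
    · right; linarith
  refine ⟨q, r * q, ⟨hq, e7, ?_⟩, h1, h2⟩
  intro u hu
  rw [hfr u hu]
  congr 1
  field_simp

/-- Package Q -/
theorem pfQ : StQ := by
  refine ⟨8, by norm_num, fun B hB => ?_⟩
  obtain ⟨q, κ, h1, h2, h3⟩ := feq B
  refine ⟨AQ B, q, κ, coefQ hB, h1, ?_, h3⟩
  have : (0 : ℝ) ≤ RQ B := Nat.cast_nonneg _
  linarith

end QN
end P004
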