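import Vale.Agent.P004.H628.QN1

/-!
# P004, fourth power of the quartic Gauss sum, Frobenius, point count
-/

namespace P004
namespace QN

open Finset

section field

variable {F : Type*} [Field F] [Fintype F] (φ : GaussianInt →+* F) (h2 : (2 : F) ≠ 0)

lemma sum_sq (f : F → GaussianInt) :
    ∑ y : F, f (y ^ 2) = ∑ z : F, (1 + (quart φ h2 ^ 2) z) * f z := by
  classical
  have h1 : ∑ y : F, f (y ^ 2) = ∑ z : F, ∑ y ∈ univ.filter (fun y : F => y ^ 2 = z), f (y ^ 2) :=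
    (sum_fiberwise _ _ _).symm
  rw [h1]
  apply sum_congr rfl
  intro z _
  have h3 : ∑ y ∈ univ.filter (fun y : F => y ^ 2 = z), f (y ^ 2) =
      ∑ y ∈ univ.filter (fun y : F => y ^ 2 = z), f z := by
    apply sum_congr rfl
    intro y hy
    rw [(mem_filter.1 hy).2]
  rw [h3, sum_const, nsmul_eq_mul, quart_sq]
  congr 1
  have h4 := quadraticChar_card_sqrts (ringChar_ne_two_of h2) z
  have h5 : {x : F | x ^ 2 = z}.toFinset = univ.filter (fun y : F => y ^ 2 = z) := by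
    ext x; simp
  rw [h5] at h4
  have h6 : (((univ.filter (fun y : F => y ^ 2 = z)).card : ℤ) : GaussianInt) =
    ((quadraticChar F z + 1 : ℤ) : GaussianInt) := by rw [h4]
  rw [Int.cast_natCast] at h6
  rw [h6]; push_cast; ring

lemma quart_four : quart φ h2 4 = quart φ h2 (-1) := by
  have h4 := phi_ii_sq φ
  apply Is4.inj φ h2 (quart_is4 φ h2 _) (quart_is4 φ h2 _)
  rw [phi_quart, phi_quart]
  set n := (Fintype.card F - 1) / 4 with hn
  have hq := card_eq φ h2
  rw [← hn] at hq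
  have h1 : (1 + φ ii) ≠ 0 := by
    intro h
    apply h2
    linear_combination (1 - φ ii) * h + h4
  have h3 : (4 : F) = - (1 + φ ii) ^ 4 := by
    linear_combination (1 + φ ii ^ 2 + 4 * φ ii + 4) * h4
  have h5 : ((1 + φ ii) ^ 4) ^ n = 1 := by
    rw [← pow_mul]
    have h6 := FiniteField.pow_card_sub_one_eq_one (1 + φ ii) h1
    rw [hq] at h6
    exact h6
  rw [h3, neg_pow, h5, mul_one]

lemma jac_self : jacobiSum (quart φ h2) (quart φ h2) =
    quart φ h2 (-1) * jacobiSum (quart φ h2) (quart φ h2 ^ 2) := by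
  set χ := quart φ h2 with hχ
  have h1 : χ ≠ 1 := by
    intro h
    exact quart_sq_ne_one φ h2 (by rw [← hχ, h, one_pow])
  have hs : ∑ x : F, χ (1 - x) = 0 := by
    rw [← MulChar.sum_eq_zero_of_ne_one h1, ← (Equiv.subLeft (1 : F)).sum_comp]
    simp [Equiv.subLeft_apply]
  have e1 : χ 4 * jacobiSum χ χ = jacobiSum χ (χ ^ 2) := by
    rw [jacobiSum_comm χ (χ ^ 2)]
    unfold jacobiSum
    have e3 := sum_sq φ h2 (fun z => χ (1 - z))
    rw [← hχ] at e3
    have e4 : ∑ z : F, (1 + (χ ^ 2) z) * χ (1 - z) = ∑ z : F, (χ ^ 2) z * χ (1 - z) := by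
      rw [← add_zero (∑ z : F, (χ ^ 2) z * χ (1 - z)), ← hs, ← sum_add_distrib]
      apply sum_congr rfl
      intro x _
      ring
    let e : F ≃ F := (Equiv.mulLeft₀ (2 : F) h2).trans (Equiv.subLeft (1 : F))
    have e6 : ∑ y : F, χ (1 - y ^ 2) = ∑ x : F, χ (1 - (e x) ^ 2) :=
      (e.sum_comp (fun y => χ (1 - y ^ 2))).symm
    rw [← e4, ← e3, mul_sum, e6]
    apply sum_congr rfl
    intro x _
    have e5 : e x = 1 - 2 * x := rfl
    rw [e5, ← map_mul, ← map_mul]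
    congr 1
    ring
  rw [← e1, ← mul_assoc, quart_four, ← map_mul]
  norm_num

/-- the fourth power of the quartic Gauss sum, in terms of Jacobi sums -/
theorem gauss_pow_four {R : Type*} [CommRing R] [IsDomain R] (f : GaussianInt →+* R)
    (hR : (2 : R) ≠ 0) {ψ : AddChar F R} (hψ : ψ.IsPrimitive) :
    gaussSum ((quart φ h2).ringHomComp f) ψ ^ 4 =
      f (Fintype.card F * jacobiSum (quart φ h2) (quart φ h2 ^ 2) ^ 2) := by
  set χ := quart φ h2 with hχ
  have h1 : orderOf (χ.ringHomComp f) = 4 := by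
    have : Fact (Nat.Prime 2) := ⟨Nat.prime_two⟩
    have h := orderOf_eq_prime_pow (p := 2) (n := 1) (x := χ.ringHomComp f) ?_ ?_
    · rw [h]; norm_num
    · rw [pow_one]
      classical
      obtain ⟨a, ha⟩ := quadraticChar_exists_neg_one' (ringChar_ne_two_of h2) (F := F)
      intro h
      have h3 := congrArg (fun X : MulChar F R => X (a : F)) h
      rw [MulChar.one_apply_coe, MulChar.ringHomComp_pow] at h3
      have h4 : (χ ^ 2).ringHomComp f (a : F) = f ((χ ^ 2) (a : F)) := rfl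
      rw [h4, quart_sq, ha] at h3
      apply hR
      have h5 : f ((-1 : ℤ) : GaussianInt) = -1 := by simp
      rw [h5] at h3
      linear_combination -h3
    · rw [show 2 ^ (1 + 1) = 4 by norm_num, MulChar.ringHomComp_pow]
      have : χ ^ 4 = 1 := quart_pow_four φ h2
      rw [this, MulChar.ringHomComp_one]
  have h3 := gaussSum_pow_eq_prod_jacobiSum (χ := χ.ringHomComp f) (ψ := ψ) (by rw [h1]; norm_num)
    hψ
  rw [h1] at h3
  rw [h3]
  have h4 : Ico 1 (4 - 1) = ({1, 2} : Finset ℕ) := by decide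
  rw [h4, prod_pair (by norm_num), pow_one, MulChar.ringHomComp_pow, jacobiSum_ringHomComp,
    jacobiSum_ringHomComp]
  have h5 : jacobiSum χ χ = χ (-1) * jacobiSum χ (χ ^ 2) := jac_self φ h2
  have h6 : (χ.ringHomComp f) (-1) = f (χ (-1)) := rfl
  have h7 : χ (-1) * χ (-1) = 1 := by rw [← map_mul]; norm_num
  rw [h5, h6, map_mul, map_mul, map_natCast, map_pow]
  have h8 := congrArg f h7
  rw [map_mul, map_one] at h8
  linear_combination ((Fintype.card F : R) * f (jacobiSum χ (χ ^ 2)) ^ 2) * h8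

end field

section recip

variable {p : ℕ} [hp : Fact p.Prime] {q : ℕ} [hq : Fact q.Prime]
  {R : Type*} [Field R] [CharP R q] (f : GaussianInt →+* R)

lemma two_ne (hq2 : q ≠ 2) : (2 : R) ≠ 0 := by
  intro h
  have h1 : ((2 : ℕ) : R) = 0 := by exact_mod_cast h
  rw [CharP.cast_eq_zero_iff R q] at h1
  have h3 := (Nat.prime_dvd_prime_iff_eq hq.out Nat.prime_two).1 h1
  exact hq2 h3

lemma int_pow (x : ℤ) : (x : R) ^ q = x := by
  have h1 : ((x : ZMod q)) ^ q = (x : ZMod q) := ZMod.pow_card _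
  have h3 := congrArg (ZMod.castHom (dvd_refl q) R) h1
  rw [map_pow, map_intCast] at h3
  exact h3

lemma f_eq (z : GaussianInt) : f z = z.re + z.im * f ii := by
  have h1 : z = (z.re : GaussianInt) + (z.im : GaussianInt) * ii := by
    apply Zsqrtd.ext <;> simp [ii]
  conv_lhs => rw [h1]
  rw [map_add, map_mul, map_intCast, map_intCast]

lemma f_star (z : GaussianInt) : f (star z) = z.re - z.im * f ii := by
  rw [f_eq]; simp; ring

lemma frob_one (h4 : q % 4 = 1) (z : GaussianInt) : f z ^ q = f z := by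
  have h1 : f ii ^ q = f ii := by
    have h3 : q = 4 * (q / 4) + 1 := by omega
    have h5 : f ii ^ 4 = 1 := by rw [← map_pow, show ii ^ 4 = 1 by decide, map_one]
    rw [h3, pow_succ, pow_mul, h5, one_pow, one_mul]
  rw [f_eq, add_pow_char, mul_pow, int_pow, int_pow, h1]

lemma frob_three (h4 : q % 4 = 3) (z : GaussianInt) : f z ^ q = f (star z) := by
  have h1 : f ii ^ q = -f ii := by
    have h3 : q = 4 * (q / 4) + 3 := by omega
    have h5 : f ii ^ 4 = 1 := by rw [← map_pow, show ii ^ 4 = 1 by decide, map_one]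
    rw [h3, pow_add, pow_mul, h5, one_pow, one_mul, ← map_pow, show ii ^ 3 = -ii by decide, map_neg]
  rw [f_star, f_eq, add_pow_char, mul_pow, int_pow, int_pow, h1]
  ring

section one

variable (φ : GaussianInt →+* ZMod p) (h2 : (2 : ZMod p) ≠ 0) {ϖ : GaussianInt}
  (hN : ϖ.norm = p) (hP : A1.Prim ϖ) (h0 : φ ϖ = 0) (hpq : p ≠ q) (hq2 : q ≠ 2)
  {ψ : AddChar (ZMod p) R} (hψ : ψ.IsPrimitive)

omit hp in
include hN in
lemma p_eq : (p : GaussianInt) = ϖ * star ϖ := by
  have h1 := Zsqrtd.norm_eq_mul_conj ϖ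
  rw [← h1, hN]; simp

include hN hP h0 hψ hq2 in
lemma gauss_four : gaussSum ((quart φ h2).ringHomComp f) ψ ^ 4 = f ϖ ^ 3 * f (star ϖ) := by
  have h1 := gauss_pow_four φ h2 f (two_ne (q := q) hq2) hψ
  rw [h1, ZMod.card, jac_eq_neg φ h2 hN hP h0, p_eq hN]
  simp only [map_mul, map_pow, map_neg]
  ring

include hN hpq in
lemma f_ne (hf : f ϖ = 0 ∨ f (star ϖ) = 0) : False := by
  have h1 : f (p : GaussianInt) = 0 := by
    rw [p_eq hN, map_mul]
    rcases hf with h | h <;> rw [h]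
    · rw [zero_mul]
    · rw [mul_zero]
  rw [map_natCast, CharP.cast_eq_zero_iff R q] at h1
  exact hpq ((Nat.prime_dvd_prime_iff_eq hq.out hp.out).1 h1).symm

lemma isUnit_q (hpq : p ≠ q) : IsUnit ((q : ℕ) : ZMod p) := by
  rw [ZMod.isUnit_iff_coprime]
  exact (Nat.coprime_primes hq.out hp.out).2 (Ne.symm hpq)

include hN hP h0 hψ hq2 hpq in
/-- rational quartic reciprocity, `q = 1 mod 4` -/
theorem recip_one (h4 : q % 4 = 1) :
    f (quart φ h2 ((q : ℕ) : ZMod p)) =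
      f ϖ ^ ((q - 1) / 4) * f (star ϖ) ^ (3 * ((q - 1) / 4)) := by
  set χ := quart φ h2 with hχ
  set g := gaussSum (χ.ringHomComp f) ψ with hg
  set m := (q - 1) / 4 with hm
  have hqm : q = 4 * m + 1 := by omega
  have hg4 : g ^ 4 = f ϖ ^ 3 * f (star ϖ) := gauss_four f φ h2 hN hP h0 hq2 hψ
  have ha : f ϖ ≠ 0 := fun h => f_ne f hN hpq (Or.inl h)
  have hb : f (star ϖ) ≠ 0 := fun h => f_ne f hN hpq (Or.inr h)
  have hg0 : g ≠ 0 := by
    intro h
    rw [h, zero_pow (by norm_num)] at hg4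
    exact mul_ne_zero (pow_ne_zero 3 ha) hb hg4.symm
  have hfr := gaussSum_frob q (χ.ringHomComp f) ψ
  have hpow : (χ.ringHomComp f) ^ q = χ.ringHomComp f := by
    rw [MulChar.ringHomComp_pow, hqm, pow_succ, pow_mul]
    have : χ ^ 4 = 1 := quart_pow_four φ h2
    rw [this, one_pow, one_mul]
  obtain ⟨u, hu⟩ := isUnit_q (p := p) (q := q) hpq
  rw [hpow, AddChar.pow_mulShift, ← hu, gaussSum_mulShift_eq, ← hg] at hfr
  have h5 : (χ.ringHomComp f)⁻¹ (u : ZMod p) = f (star (χ (u : ZMod p))) := by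
    rw [MulChar.ringHomComp_inv]
    have : (χ⁻¹.ringHomComp f) (u : ZMod p) = f (χ⁻¹ (u : ZMod p)) := rfl
    rw [this, quart_inv]
  rw [h5, hqm, pow_succ] at hfr
  have h6 := mul_right_cancel₀ hg0 hfr
  rw [pow_mul, hg4] at h6
  rw [← hu]
  have h7 : χ (u : ZMod p) ≠ 0 := quart_ne_zero φ h2 u.ne_zero
  have h8 : f (χ (u : ZMod p)) * f (star (χ (u : ZMod p))) = 1 := by
    rw [← map_mul, (quart_is4 φ h2 _).mul_star h7, map_one]
  have h9 : (f ϖ * f (star ϖ)) ^ (4 * m) = 1 := by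
    have h10 : f ϖ * f (star ϖ) = (((p : ℕ) : ℤ) : R) := by
      rw [← map_mul, ← p_eq hN]; simp
    have h11 := int_pow (q := q) (R := R) ((p : ℕ) : ℤ)
    rw [← h10, hqm, pow_succ] at h11
    exact mul_right_cancel₀ (mul_ne_zero ha hb) (by rw [h11, one_mul])
  have h12 : (f ϖ ^ m * f (star ϖ) ^ (3 * m)) * f (star (χ (u : ZMod p))) = 1 := by
    rw [← h6, ← h9, pow_mul, pow_mul]
    ring
  have h13 : f (star (χ (u : ZMod p))) ≠ 0 := right_ne_zero_of_mul_eq_one h8
  exact mul_right_cancel₀ h13 (by rw [h8, h12])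

include hN hP h0 hψ hq2 hpq in
/-- rational quartic reciprocity, `q = 3 mod 4` -/
theorem recip_three (h4 : q % 4 = 3) :
    f (quart φ h2 (-((q : ℕ) : ZMod p))) = f ϖ ^ ((q ^ 2 - 1) / 4) := by
  set χ := quart φ h2 with hχ
  set g := gaussSum (χ.ringHomComp f) ψ with hg
  obtain ⟨m, hqm⟩ : ∃ m, q = 4 * m + 3 := ⟨q / 4, by omega⟩
  have hg4 : g ^ 4 = f ϖ ^ 3 * f (star ϖ) := gauss_four f φ h2 hN hP h0 hq2 hψ
  have ha : f ϖ ≠ 0 := fun h => f_ne f hN hpq (Or.inl h)
  have hfr := gaussSum_frob q (χ.ringHomComp f) ψ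
  have hχ4 : χ ^ 4 = 1 := quart_pow_four φ h2
  have hpow : (χ.ringHomComp f) ^ q = (χ.ringHomComp f)⁻¹ := by
    rw [MulChar.ringHomComp_pow, hqm, pow_add, pow_mul, hχ4, one_pow, one_mul,
      MulChar.ringHomComp_inv]
    congr 1
    symm
    rw [inv_eq_iff_mul_eq_one, ← pow_succ']
    exact hχ4
  obtain ⟨u, hu⟩ := isUnit_q (p := p) (q := q) hpq
  rw [hpow, AddChar.pow_mulShift, ← hu, gaussSum_mulShift_eq, ← hg, inv_inv] at hfr
  have h5 := gaussSum_mul_gaussSum_eq_card (χ := (χ.ringHomComp f)) ?_ hψ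
  swap
  · intro h
    have hord : orderOf (χ.ringHomComp f) = 1 := by rw [h, orderOf_one]
    have h6 : (χ.ringHomComp f) ^ 2 = 1 := by rw [h, one_pow]
    rw [MulChar.ringHomComp_pow] at h6
    classical
    obtain ⟨a, ha'⟩ := quadraticChar_exists_neg_one' (ringChar_ne_two_of h2) (F := ZMod p)
    have h3 := congrArg (fun X : MulChar (ZMod p) R => X (a : ZMod p)) h6
    rw [MulChar.one_apply_coe] at h3
    have h7 : (χ ^ 2).ringHomComp f (a : ZMod p) = f ((χ ^ 2) (a : ZMod p)) := rfl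
    rw [h7, quart_sq, ha'] at h3
    apply two_ne (R := R) (q := q) hq2
    have h8 : f ((-1 : ℤ) : GaussianInt) = -1 := by simp
    rw [h8] at h3
    linear_combination -h3
  have h6 : (χ.ringHomComp f)⁻¹ (-1) * gaussSum (χ.ringHomComp f)⁻¹ ψ⁻¹ =
      gaussSum (χ.ringHomComp f)⁻¹ ψ := mul_gaussSum_inv_eq_gaussSum _ _
  rw [ZMod.card, ← hg] at h5
  have h9 : (χ.ringHomComp f)⁻¹ (-1) = f (χ (-1)) := by
    rw [MulChar.ringHomComp_inv]
    have h10 : (χ⁻¹.ringHomComp f) (-1) = f (χ⁻¹ (-1)) := rfl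
    rw [h10, MulChar.inv_apply']
    norm_num
  rw [h9] at h6
  have h11 : (χ.ringHomComp f) (u : ZMod p) = f (χ (u : ZMod p)) := rfl
  rw [h11, ← h6] at hfr
  have hb : f (star ϖ) = f ϖ ^ q := (frob_three f h4 ϖ).symm
  have h12 : g ^ (q + 1) = f (χ (-(u : ZMod p))) * (f ϖ * f (star ϖ)) := by
    have h13 : f ϖ * f (star ϖ) = ((p : ℕ) : R) := by
      rw [← map_mul, ← p_eq hN]; simp
    have h14 : χ (-(u : ZMod p)) = χ (-1) * χ (u : ZMod p) := by rw [← map_mul]; simp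
    rw [pow_succ, hfr, h13, ← h5, h14, map_mul]
    ring
  have h15 : q + 1 = 4 * (m + 1) := by omega
  rw [h15, pow_mul, hg4, hb] at h12
  rw [← hu]
  have h16 : f ϖ ^ (q + 1) ≠ 0 := pow_ne_zero _ ha
  apply mul_right_cancel₀ h16
  have h17 : f ϖ ^ (q + 1) = f ϖ * f ϖ ^ q := by rw [pow_succ]; ring
  rw [h17, ← h12, ← h17, ← pow_add, ← pow_add, ← pow_mul]
  congr 1
  have h18 : (q ^ 2 - 1) / 4 = (m + 1) * (4 * m + 2) := by
    have h19 : q ^ 2 - 1 = 4 * ((m + 1) * (4 * m + 2)) := by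
      rw [hqm]
      have : (4 * m + 3) ^ 2 = 4 * ((m + 1) * (4 * m + 2)) + 1 := by ring
      omega
    rw [h19]; simp
  rw [h18, hqm]
  ring

end one

end recip

end QN
end P004
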