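import Vale.Agent.P004.H628.QN2

/-!
# P004, the rational quartic symbol with odd prime denominator
-/

namespace P004
namespace QN

open Finset

/-! ### homomorphisms to fields -/

/-- a homomorphism from the Gaussian integers given by a square root of `-1` -/
def homOf {R : Type*} [CommRing R] (u : R) (hu : u * u = -1) : GaussianInt →+* R :=
  Zsqrtd.lift ⟨u, by rw [hu]; simp⟩

lemma homOf_apply {R : Type*} [CommRing R] (u : R) (hu : u * u = -1) (z : GaussianInt) :
    homOf u hu z = z.re + z.im * u := rfl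

lemma exists_phi {p : ℕ} [hp : Fact p.Prime] {ϖ : GaussianInt} (hN : ϖ.norm = p) :
    ∃ φ : GaussianInt →+* ZMod p, φ ϖ = 0 := by
  have h1 : ϖ.re ^ 2 + ϖ.im ^ 2 = (p : ℤ) := by rw [← A1.norm_eq]; exact hN
  have h3 : ((ϖ.im : ℤ) : ZMod p) ≠ 0 := by
    intro h
    rw [ZMod.intCast_zmod_eq_zero_iff_dvd] at h
    obtain ⟨k, hk⟩ := h
    have h5 : (p : ℤ) ∣ ϖ.re ^ 2 := ⟨1 - k * (p * k), by rw [hk] at h1; linear_combination h1⟩
    have h6 : (p : ℤ) ∣ ϖ.re := Int.Prime.dvd_pow' hp.out h5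
    obtain ⟨l, hl⟩ := h6
    rw [hk, hl] at h1
    have hp0 : (p : ℤ) ≠ 0 := by exact_mod_cast hp.out.ne_zero
    have h7 : (p : ℤ) * (l ^ 2 + k ^ 2) = 1 := mul_left_cancel₀ hp0 (by linear_combination h1)
    have h8 : (p : ℤ) ∣ 1 := ⟨_, h7.symm⟩
    have h9 : p ∣ 1 := by exact_mod_cast h8
    exact hp.out.one_lt.ne' (Nat.dvd_one.1 h9)
  have h4 : (((ϖ.re : ℤ) : ZMod p)) ^ 2 + (((ϖ.im : ℤ) : ZMod p)) ^ 2 = 0 := by
    have := congrArg (Int.cast : ℤ → ZMod p) h1
    push_cast at this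
    rw [this]; simp
  refine ⟨homOf (-(((ϖ.re : ℤ) : ZMod p)) * (((ϖ.im : ℤ) : ZMod p))⁻¹) ?_, ?_⟩
  · field_simp
    linear_combination h4
  · rw [homOf_apply]
    field_simp
    ring

lemma exists_f (q : ℕ) [hq : Fact q.Prime] :
    ∃ _ : GaussianInt →+* AlgebraicClosure (ZMod q), True := by
  obtain ⟨z, hz⟩ := IsAlgClosed.exists_pow_nat_eq (-1 : AlgebraicClosure (ZMod q)) (n := 2)
    (by norm_num)
  exact ⟨homOf z (by rw [← hz]; ring), trivial⟩

/-- a homomorphism to a field of characteristic `q` -/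
noncomputable def fq (q : ℕ) [hq : Fact q.Prime] : GaussianInt →+* AlgebraicClosure (ZMod q) :=
  (exists_f q).choose

lemma dvd_of_f {q : ℕ} [hq : Fact q.Prime] {R : Type*} [Field R] [CharP R q]
    (f : GaussianInt →+* R) (hq2 : q ≠ 2) {z : GaussianInt} (h1 : f z = 0)
    (h3 : f (star z) = 0) : (q : GaussianInt) ∣ z := by
  have h2 : (2 : R) ≠ 0 := two_ne (q := q) hq2
  rw [f_eq] at h1
  rw [f_star] at h3
  have h4 : (2 : R) * ((z.re : ℤ) : R) = 0 := by linear_combination h1 + h3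
  have h5 : ((z.re : ℤ) : R) = 0 := (mul_eq_zero.1 h4).resolve_left h2
  rw [h5, zero_add] at h1
  have h6 : ((z.im : ℤ) : R) = 0 := by
    rcases mul_eq_zero.1 h1 with h | h
    · exact h
    · exfalso
      have h7 := phi_ii_sq f
      rw [h, zero_mul] at h7
      exact one_ne_zero (neg_eq_zero.1 h7.symm)
  have h7 : ((q : ℕ) : ℤ) ∣ z.re := (CharP.intCast_eq_zero_iff R q _).1 h5
  have h8 : ((q : ℕ) : ℤ) ∣ z.im := (CharP.intCast_eq_zero_iff R q _).1 h6
  obtain ⟨a, ha⟩ := h7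
  obtain ⟨b, hb⟩ := h8
  refine ⟨⟨a, b⟩, ?_⟩
  apply Zsqrtd.ext
  · simp [ha]
  · simp [hb]

lemma f_zero_of_dvd {q : ℕ} {R : Type*} [Field R] [CharP R q]
    (f : GaussianInt →+* R) {z : GaussianInt} (h : (q : GaussianInt) ∣ z) : f z = 0 := by
  obtain ⟨w, rfl⟩ := h
  rw [map_mul, map_natCast, CharP.cast_eq_zero, zero_mul]

/-! ### the power residue -/

/-- the power residue attached to the odd prime `q` -/
def PQ (q : ℕ) (α : GaussianInt) : GaussianInt :=
  if q % 4 = 1 then α ^ ((q - 1) / 4) * star α ^ (3 * ((q - 1) / 4)) else α ^ ((q ^ 2 - 1) / 4)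

lemma PQ_mul (q : ℕ) (α β : GaussianInt) : PQ q (α * β) = PQ q α * PQ q β := by
  unfold PQ
  split_ifs
  · rw [star_mul', mul_pow, mul_pow]; ring
  · rw [mul_pow]

lemma PQ_star (q : ℕ) (α : GaussianInt) : PQ q (star α) =
    if q % 4 = 1 then star α ^ ((q - 1) / 4) * α ^ (3 * ((q - 1) / 4))
      else star α ^ ((q ^ 2 - 1) / 4) := by
  unfold PQ; rw [star_star]

lemma star_PQ (q : ℕ) (α : GaussianInt) : star (PQ q α) = PQ q (star α) := by
  unfold PQ
  split_ifs
  · rw [star_mul', star_pow, star_pow]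
  · rw [star_pow]

lemma pow_m {q m : ℕ} (hqm : q = 4 * m + 3) : (q ^ 2 - 1) / 4 = (m + 1) * (4 * m + 2) := by
  have h19 : q ^ 2 - 1 = 4 * ((m + 1) * (4 * m + 2)) := by
    rw [hqm]
    have : (4 * m + 3) ^ 2 = 4 * ((m + 1) * (4 * m + 2)) + 1 := by ring
    omega
  rw [h19]; simp

section PQsec

variable {q : ℕ} [hq : Fact q.Prime] (hq2 : q ≠ 2)
  {R : Type*} [Field R] [CharP R q] (f : GaussianInt →+* R)

include hq2 in
lemma q_mod : q % 4 = 1 ∨ q % 4 = 3 := by
  have := hq.out.eq_two_or_odd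
  omega

lemma f_norm (α : GaussianInt) : f α * f (star α) = ((α.norm : ℤ) : R) := by
  rw [← map_mul, ← Zsqrtd.norm_eq_mul_conj, map_intCast]

lemma f_norm_pow (α : GaussianInt) (h : f α * f (star α) ≠ 0) :
    (f α * f (star α)) ^ (q - 1) = 1 := by
  have h1 := int_pow (q := q) (R := R) α.norm
  rw [← f_norm f] at h1
  have h3 : q = (q - 1) + 1 := by have := hq.out.pos; omega
  rw [h3, pow_succ] at h1
  exact mul_right_cancel₀ h (by rw [one_mul]; exact h1)

include hq2 in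
lemma f_PQ_zero (α : GaussianInt) (h : f α * f (star α) = 0) : f (PQ q α) = 0 := by
  have hq3 : 3 ≤ q := by have := hq.out.two_le; omega
  rcases q_mod hq2 with h4 | h4
  · unfold PQ
    rw [if_pos h4, map_mul, map_pow, map_pow]
    rcases mul_eq_zero.1 h with h | h <;> rw [h]
    · rw [zero_pow (by omega), zero_mul]
    · rw [zero_pow (by omega), mul_zero]
  · unfold PQ
    rw [if_neg (by omega), map_pow]
    have h5 : f α = 0 := by
      rw [← frob_three f h4, ← pow_succ'] at h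
      exact pow_eq_zero_iff (by omega) |>.1 h
    rw [h5, zero_pow]
    obtain ⟨m, hm⟩ : ∃ m, q = 4 * m + 3 := ⟨q / 4, by omega⟩
    rw [pow_m hm]
    positivity

include hq2 in
lemma f_PQ_pow (α : GaussianInt) (h : f α * f (star α) ≠ 0) : f (PQ q α) ^ 4 = 1 := by
  have ha : f α ≠ 0 := left_ne_zero_of_mul h
  rcases q_mod hq2 with h4 | h4
  · unfold PQ
    rw [if_pos h4, map_mul, map_pow, map_pow]
    have h1 : ∀ β : GaussianInt, f β ≠ 0 → f β ^ (4 * ((q - 1) / 4)) = 1 := by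
      intro β hβ
      have h1 := frob_one f h4 β
      have h3 : q = 4 * ((q - 1) / 4) + 1 := by omega
      conv_lhs at h1 => rw [h3, pow_succ]
      exact mul_right_cancel₀ hβ (by rw [one_mul]; exact h1)
    have h3 := h1 α ha
    have h5 := h1 (star α) (right_ne_zero_of_mul h)
    rw [mul_pow, ← pow_mul, ← pow_mul, mul_comm _ 4, h3, one_mul,
      show 3 * ((q - 1) / 4) * 4 = (4 * ((q - 1) / 4)) * 3 by ring, pow_mul, h5, one_pow]
  · unfold PQ
    obtain ⟨m, hm⟩ : ∃ m, q = 4 * m + 3 := ⟨q / 4, by omega⟩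
    rw [if_neg (by omega), map_pow, pow_m hm, ← pow_mul]
    have h1 := f_norm_pow (q := q) f α h
    rw [← frob_three f h4, ← pow_succ', ← pow_mul] at h1
    rw [← h1, hm]
    congr 1
    have : 4 * m + 3 - 1 = 4 * m + 2 := by omega
    rw [this]; ring

include hq2 in
/-- existence of the symbol -/
theorem exists_qs (α : GaussianInt) :
    ∃ v, Is4 v ∧ (q : GaussianInt) ∣ PQ q α - v := by
  set f := fq q with hf
  have h2 : (2 : AlgebraicClosure (ZMod q)) ≠ 0 := two_ne (q := q) hq2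
  by_cases h : f α * f (star α) = 0
  · refine ⟨0, is4_zero, ?_⟩
    apply dvd_of_f f hq2
    · rw [sub_zero]; exact f_PQ_zero hq2 f α h
    · rw [sub_zero, star_PQ]
      apply f_PQ_zero hq2 f
      rw [star_star, mul_comm]; exact h
  · have h1 := f_PQ_pow hq2 f α h
    have h3 : ∃ v, Is4 v ∧ v ≠ 0 ∧ f v = f (PQ q α) := by
      have h3 : (f (PQ q α) - 1) * (f (PQ q α) + 1) *
          ((f (PQ q α) - f ii) * (f (PQ q α) + f ii)) = 0 := by
        have h4 := phi_ii_sq f
        linear_combination h1 - (f (PQ q α) * f (PQ q α) - 1) * h4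
      rcases mul_eq_zero.1 h3 with h4 | h4
      · rcases mul_eq_zero.1 h4 with h5 | h5
        · exact ⟨1, is4_one, by decide, by rw [map_one]; linear_combination -h5⟩
        · exact ⟨-1, is4_neg_one, by decide, by rw [map_neg, map_one]; linear_combination -h5⟩
      · rcases mul_eq_zero.1 h4 with h5 | h5
        · exact ⟨ii, is4_ii, by decide, by linear_combination -h5⟩
        · exact ⟨-ii, is4_neg_ii, by decide, by rw [map_neg]; linear_combination -h5⟩
    obtain ⟨v, hv, hv0, hvf⟩ := h3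
    refine ⟨v, hv, dvd_of_f f hq2 (by rw [map_sub, hvf, sub_self]) ?_⟩
    rw [star_sub, map_sub, sub_eq_zero]
    rcases q_mod hq2 with h4 | h4
    · have h5 : f (PQ q α) * f (star (PQ q α)) = 1 := by
        rw [star_PQ, PQ_star, if_pos h4]
        unfold PQ
        rw [if_pos h4]
        have h6 := f_norm_pow (q := q) f α h
        have h7 : q - 1 = 4 * ((q - 1) / 4) := by omega
        rw [h7] at h6
        simp only [map_mul, map_pow]
        rw [← h6, mul_pow]
        ring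
      have h6 : f v * f (star v) = 1 := by
        rw [← map_mul, hv.mul_star hv0, map_one]
      rw [hvf] at h6
      exact mul_left_cancel₀ (left_ne_zero_of_mul_eq_one h6) (by rw [h5, h6])
    · rw [← frob_three f h4, ← frob_three f h4, hvf]

end PQsec

open Classical in
/-- the quartic symbol with odd prime denominator `q` -/
noncomputable def qs (q : ℕ) (α : GaussianInt) : GaussianInt :=
  if h : ∃ v, Is4 v ∧ (q : GaussianInt) ∣ PQ q α - v then h.choose else 0

section qssec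

variable {q : ℕ} [hq : Fact q.Prime] (hq2 : q ≠ 2)
  {R : Type*} [Field R] [CharP R q] (f : GaussianInt →+* R)

lemma qs_is4 (q : ℕ) (α : GaussianInt) : Is4 (qs q α) := by
  unfold qs
  split_ifs with h
  · exact h.choose_spec.1
  · exact is4_zero

include hq2 in
lemma qs_dvd (α : GaussianInt) : (q : GaussianInt) ∣ PQ q α - qs q α := by
  unfold qs
  rw [dif_pos (exists_qs hq2 α)]
  exact (exists_qs hq2 α).choose_spec.2

include hq2 in
lemma f_qs (α : GaussianInt) : f (qs q α) = f (PQ q α) := by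
  have h1 := f_zero_of_dvd f (qs_dvd hq2 α)
  rw [map_sub, sub_eq_zero] at h1
  exact h1.symm

include hq2 in
lemma qs_eq_of {α v : GaussianInt} (hv : Is4 v) (h : f v = f (PQ q α)) : qs q α = v := by
  apply Is4.inj f (two_ne (q := q) hq2) (qs_is4 q α) hv
  rw [f_qs hq2, h]

include hq2 in
lemma qs_mul (α β : GaussianInt) : qs q (α * β) = qs q α * qs q β := by
  apply qs_eq_of hq2 (fq q) ((qs_is4 q α).mul (qs_is4 q β))
  rw [map_mul, f_qs hq2, f_qs hq2, PQ_mul, map_mul]

include hq2 in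
lemma qs_one : qs q 1 = 1 := by
  apply qs_eq_of hq2 (fq q) is4_one
  unfold PQ; simp

include hq2 in
lemma qs_star (α : GaussianInt) : qs q (star α) = star (qs q α) := by
  apply qs_eq_of hq2 (fq q) (qs_is4 q α).star
  have h1 : (q : GaussianInt) ∣ star (PQ q α - qs q α) := by
    obtain ⟨w, hw⟩ := qs_dvd hq2 α
    rw [hw, star_mul']
    exact ⟨star w, by simp⟩
  have h3 := f_zero_of_dvd (fq q) h1
  rw [star_sub, map_sub, sub_eq_zero, star_PQ] at h3
  exact h3.symm

include hq2 in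
lemma qs_congr {α β : GaussianInt} (h : (q : GaussianInt) ∣ α - β) : qs q α = qs q β := by
  apply qs_eq_of hq2 (fq q) (qs_is4 q β)
  rw [f_qs hq2]
  have h1 : (fq q) α = (fq q) β := by
    rw [← sub_eq_zero, ← map_sub]; exact f_zero_of_dvd _ h
  have h3 : (fq q) (star α) = (fq q) (star β) := by
    rw [← sub_eq_zero, ← map_sub, ← star_sub]
    obtain ⟨w, hw⟩ := h
    rw [hw, star_mul']
    exact f_zero_of_dvd _ ⟨star w, by simp⟩
  unfold PQ
  split_ifs
  · rw [map_mul, map_mul, map_pow, map_pow, map_pow, map_pow, h1, h3]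
  · rw [map_pow, map_pow, h1]

include hq2 in
lemma qs_eq_zero_iff (α : GaussianInt) : qs q α = 0 ↔ ((q : ℕ) : ℤ) ∣ α.norm := by
  constructor
  · intro h
    have h1 := f_qs hq2 (fq q) α
    rw [h, map_zero] at h1
    by_contra h3
    have h5 : (fq q) α * (fq q) (star α) ≠ 0 := by
      rw [f_norm]
      intro h6
      exact h3 ((CharP.intCast_eq_zero_iff _ q _).1 h6)
    have h6 := f_PQ_pow hq2 (fq q) α h5
    rw [← h1, zero_pow (by norm_num)] at h6
    exact zero_ne_one h6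
  · intro h
    apply qs_eq_of hq2 (fq q) is4_zero
    rw [map_zero, f_PQ_zero hq2]
    rw [f_norm]
    exact (CharP.intCast_eq_zero_iff _ q _).2 h

include hq2 in
lemma qs_int {n : ℤ} (h : ¬ ((q : ℕ) : ℤ) ∣ n) : qs q (n : GaussianInt) = 1 := by
  apply qs_eq_of hq2 (fq q) is4_one
  have h1 : (((n : ℤ) : AlgebraicClosure (ZMod q))) ≠ 0 := by
    intro h6
    exact h ((CharP.intCast_eq_zero_iff _ q _).1 h6)
  have h3 : (((n : ℤ) : AlgebraicClosure (ZMod q))) ^ (q - 1) = 1 := by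
    have h4 := int_pow (q := q) (R := AlgebraicClosure (ZMod q)) n
    apply mul_right_cancel₀ h1
    rw [one_mul, ← pow_succ, Nat.sub_add_cancel hq.out.pos, h4]
  have h4 : star (n : GaussianInt) = (n : GaussianInt) := by simp
  unfold PQ
  rw [h4]
  rcases q_mod hq2 with h5 | h5
  · rw [if_pos h5, ← pow_add, map_pow, map_intCast, map_one,
      show (q - 1) / 4 + 3 * ((q - 1) / 4) = q - 1 by omega, h3]
  · obtain ⟨m, hm⟩ : ∃ m, q = 4 * m + 3 := ⟨q / 4, by omega⟩
    rw [if_neg (by omega), map_pow, map_intCast, map_one, pow_m hm,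
      show (m + 1) * (4 * m + 2) = (q - 1) * (m + 1) by
        rw [hm, show 4 * m + 3 - 1 = 4 * m + 2 by omega]; ring, pow_mul, h3, one_pow]

/-- the value at `i` -/
lemma qs_ii (q : ℕ) [hq : Fact q.Prime] (hq2 : q ≠ 2) : qs q ii = (-1) ^ ((q ^ 2 - 1) / 8) := by
  have h0 : Is4 ((-1 : GaussianInt) ^ ((q ^ 2 - 1) / 8)) := is4_neg_one.pow _
  apply qs_eq_of hq2 (fq q) h0
  congr 1
  have h1 : (-1 : GaussianInt) = ii ^ 2 := by decide
  have h3 : star ii = ii ^ 3 := by decide
  have h4 : ii ^ 4 = 1 := by decide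
  have h5 : ∀ a b : ℕ, a % 4 = b % 4 → ii ^ a = ii ^ b := by
    intro a b hab
    rw [← Nat.div_add_mod a 4, ← Nat.div_add_mod b 4, pow_add, pow_add, pow_mul, pow_mul, h4,
      one_pow, one_pow, hab]
  rw [h1, ← pow_mul]
  unfold PQ
  rw [h3]
  rcases q_mod hq2 with h6 | h6
  · obtain ⟨m, hm⟩ : ∃ m, q = 4 * m + 1 := ⟨q / 4, by omega⟩
    rw [if_pos h6, ← pow_mul, ← pow_add]
    apply h5
    have h7 : q ^ 2 - 1 = 8 * (m * (2 * m + 1)) := by
      rw [hm]
      have : (4 * m + 1) ^ 2 = 8 * (m * (2 * m + 1)) + 1 := by ring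
      omega
    have h8 : (q - 1) / 4 = m := by omega
    rw [h7, h8, Nat.mul_div_cancel_left _ (by norm_num)]
    have h9 : 2 * (m * (2 * m + 1)) = 4 * m ^ 2 + 2 * m := by ring
    omega
  · obtain ⟨m, hm⟩ : ∃ m, q = 4 * m + 3 := ⟨q / 4, by omega⟩
    rw [if_neg (by omega)]
    apply h5
    have h7 : q ^ 2 - 1 = 8 * ((m + 1) * (2 * m + 1)) := by
      rw [hm]
      have : (4 * m + 3) ^ 2 = 8 * ((m + 1) * (2 * m + 1)) + 1 := by ring
      omega
    rw [pow_m hm, h7, Nat.mul_div_cancel_left _ (by norm_num)]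
    have : (m + 1) * (4 * m + 2) = 2 * ((m + 1) * (2 * m + 1)) := by ring
    omega

/-- `q* = q` or `-q`, congruent to `1` modulo `4` -/
def qst (q : ℕ) : ℤ := if q % 4 = 1 then q else -q

/-- rational quartic reciprocity -/
theorem recip {p : ℕ} [hp : Fact p.Prime] (φ : GaussianInt →+* ZMod p)
    (h2 : (2 : ZMod p) ≠ 0) {ϖ : GaussianInt} (hN : ϖ.norm = p) (hP : A1.Prim ϖ) (h0 : φ ϖ = 0)
    (q : ℕ) [hq : Fact q.Prime] (hq2 : q ≠ 2) (hpq : p ≠ q) :
    quart φ h2 ((qst q : ℤ) : ZMod p) = qs q ϖ := by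
  have h1 : ((⟨p, hp.out.pos⟩ : ℕ+) : AlgebraicClosure (ZMod q)) ≠ 0 := by
    have h3 : (((⟨p, hp.out.pos⟩ : ℕ+) : ℕ) : AlgebraicClosure (ZMod q)) ≠ 0 := by
      rw [Ne, CharP.cast_eq_zero_iff (AlgebraicClosure (ZMod q)) q]
      intro h
      exact hpq ((Nat.prime_dvd_prime_iff_eq hq.out hp.out).1 h).symm
    exact h3
  let Ψ := AddChar.primitiveZModChar ⟨p, hp.out.pos⟩ (AlgebraicClosure (ZMod q)) h1
  let f : GaussianInt →+* CyclotomicField Ψ.n (AlgebraicClosure (ZMod q)) :=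
    (algebraMap (AlgebraicClosure (ZMod q)) _).comp (fq q)
  have hch : CharP (CyclotomicField Ψ.n (AlgebraicClosure (ZMod q))) q :=
    charP_of_injective_algebraMap
      (algebraMap (AlgebraicClosure (ZMod q)) _).injective q
  symm
  apply qs_eq_of hq2 f (quart_is4 φ h2 _)
  unfold PQ qst
  rcases q_mod hq2 with h6 | h6
  · rw [if_pos h6, if_pos h6, Int.cast_natCast, map_mul, map_pow, map_pow]
    exact recip_one f φ h2 hN hP h0 hpq hq2 Ψ.prim h6
  · rw [if_neg (by omega), if_neg (by omega), Int.cast_neg, Int.cast_natCast, map_pow]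
    exact recip_three f φ h2 hN hP h0 hpq hq2 Ψ.prim h6

end qssec

end QN
end P004
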