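import Vale.Agent.P004.H628.QN3

/-!
# P004, the supplementary laws of rational quartic reciprocity
-/

namespace P004
namespace QN

open Finset
open scoped NumberTheorySymbols

/-- `i ^ k` for an integer `k` -/
def ip (k : ℤ) : GaussianInt := ii ^ (k % 4).toNat

lemma ip_congr {a b : ℤ} (h : a % 4 = b % 4) : ip a = ip b := by
  unfold ip; rw [h]

lemma ip_zero : ip 0 = 1 := by decide

lemma ip_add (a b : ℤ) : ip (a + b) = ip a * ip b := by
  have h1 : a % 4 = 0 ∨ a % 4 = 1 ∨ a % 4 = 2 ∨ a % 4 = 3 := by omega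
  have h2 : b % 4 = 0 ∨ b % 4 = 1 ∨ b % 4 = 2 ∨ b % 4 = 3 := by omega
  unfold ip
  rw [Int.add_emod]
  rcases h1 with h1 | h1 | h1 | h1 <;> rcases h2 with h2 | h2 | h2 | h2 <;> rw [h1, h2] <;> decide

lemma is4_ip (a : ℤ) : Is4 (ip a) := is4_ii.pow _

lemma ip_ne_zero (a : ℤ) : ip a ≠ 0 := pow_ne_zero _ (by decide)

lemma ip_neg (a : ℤ) : ip (-a) = star (ip a) := by
  have h1 : a % 4 = 0 ∨ a % 4 = 1 ∨ a % 4 = 2 ∨ a % 4 = 3 := by omega
  rcases h1 with h1 | h1 | h1 | h1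
  · rw [ip_congr (a := -a) (b := 0) (by omega), ip_congr (a := a) (b := 0) (by omega)]; decide
  · rw [ip_congr (a := -a) (b := 3) (by omega), ip_congr (a := a) (b := 1) (by omega)]; decide
  · rw [ip_congr (a := -a) (b := 2) (by omega), ip_congr (a := a) (b := 2) (by omega)]; decide
  · rw [ip_congr (a := -a) (b := 1) (by omega), ip_congr (a := a) (b := 3) (by omega)]; decide

/-- the quartic symbol `(2/α)` for primary `α` -/
def T (α : GaussianInt) : GaussianInt := ip (-(α.im / 2))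

lemma T_is4 (α : GaussianInt) : Is4 (T α) := is4_ip _

lemma T_ne_zero (α : GaussianInt) : T α ≠ 0 := ip_ne_zero _

lemma T_congr {α β : GaussianInt} (h : α.im % 8 = β.im % 8) : T α = T β := by
  unfold T; exact ip_congr (by omega)

lemma T_int (n : ℤ) : T (n : GaussianInt) = 1 := by
  unfold T; simp [ip_zero]

lemma T_star {α : GaussianInt} (h : A1.Prim α) : T (star α) = star (T α) := by
  unfold T
  rw [Zsqrtd.im_star, ← ip_neg]
  apply ip_congr
  have := h.1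
  omega

lemma T_mul {α β : GaussianInt} (hα : A1.Prim α) (hβ : A1.Prim β) : T (α * β) = T α * T β := by
  obtain ⟨h1, h2⟩ := hα
  obtain ⟨h3, h4⟩ := hβ
  obtain ⟨b, hb⟩ : ∃ b, α.im = 2 * b := ⟨α.im / 2, by omega⟩
  obtain ⟨d, hd⟩ : ∃ d, β.im = 2 * d := ⟨β.im / 2, by omega⟩
  obtain ⟨k, hk⟩ : ∃ k, α.re = 4 * k + 1 - 2 * b := ⟨(α.re + α.im) / 4, by omega⟩
  obtain ⟨l, hl⟩ : ∃ l, β.re = 4 * l + 1 - 2 * d := ⟨(β.re + β.im) / 4, by omega⟩
  have e1 : (α * β).im = 2 * (4 * (k * d + b * l) + b + d - 4 * (b * d)) := by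
    rw [Zsqrtd.im_mul, hb, hd, hk, hl]; ring
  unfold T
  rw [← ip_add, e1, hb, hd]
  apply ip_congr
  generalize k * d + b * l = A
  generalize b * d = B
  omega

section supp

variable {p : ℕ} [hp : Fact p.Prime] (φ : GaussianInt →+* ZMod p) (h2 : (2 : ZMod p) ≠ 0)
  {ϖ : GaussianInt} (hN : ϖ.norm = p) (hP : A1.Prim ϖ) (h0 : φ ϖ = 0)

omit hp in
include hN hP in
lemma p_mod : p % 4 = 1 := by
  have := A1.prim_norm hP
  rw [hN] at this
  omega

include hN in
lemma no_common {l : ℕ} (hl : l.Prime) (h1 : (l : ℤ) ∣ ϖ.re) (h3 : (l : ℤ) ∣ ϖ.im) : False := by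
  have h4 : ϖ.re ^ 2 + ϖ.im ^ 2 = (p : ℤ) := by rw [← A1.norm_eq]; exact hN
  obtain ⟨a, ha⟩ := h1
  obtain ⟨b, hb⟩ := h3
  rw [ha, hb] at h4
  have h5 : (l : ℤ) * l ∣ (p : ℤ) := ⟨a ^ 2 + b ^ 2, by rw [← h4]; ring⟩
  have h6 : l * l ∣ p := by exact_mod_cast h5
  have h7 := (Nat.squarefree_iff_prime_squarefree.1 hp.out.prime.irreducible.squarefree) l hl
  exact h7 h6

/-- Euler's criterion combined with quadratic reciprocity for an odd integer -/
lemma pow_half (h4 : p % 4 = 1) {c : ℤ} (hc : c % 2 = 1) :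
    ((c : ℤ) : ZMod p) ^ (p / 2) = ((J(p | c.natAbs) : ℤ) : ZMod p) := by
  have h1 : Odd c.natAbs := by
    rw [Nat.odd_iff]; omega
  have h3 : J(p | c.natAbs) = J((c.natAbs : ℤ) | p) := by
    have := jacobiSym.quadratic_reciprocity_one_mod_four h4 h1
    exact this
  rw [h3, ← jacobiSym.legendreSym.to_jacobiSym, legendreSym.eq_pow]
  have h5 : p / 2 = 2 * (p / 4) := by omega
  have h6 : ((c : ℤ) : ZMod p) ^ 2 = (((c.natAbs : ℤ) : ℤ) : ZMod p) ^ 2 := by
    have : c ^ 2 = ((c.natAbs : ℤ)) ^ 2 := (Int.natAbs_sq c).symm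
    exact_mod_cast congrArg (Int.cast : ℤ → ZMod p) this
  rw [h5, pow_mul, pow_mul, h6]

include hN hP h0 in
/-- the supplement for `2` -/
theorem quart_two : quart φ h2 2 = T ϖ := by
  have h4 := p_mod hN hP
  set a := ϖ.re with ha
  set b := ϖ.im with hb
  have hab : a ^ 2 + b ^ 2 = (p : ℤ) := by rw [ha, hb, ← A1.norm_eq]; exact hN
  obtain ⟨hP1, hP2⟩ := hP
  rw [← hb] at hP1
  rw [← ha, ← hb] at hP2
  have haodd : a % 2 = 1 := by omega
  -- the symbol of `a`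
  have hga : Int.gcd b (a.natAbs : ℤ) = 1 := by
    by_contra h
    obtain ⟨l, hl, hl2⟩ := Nat.exists_prime_and_dvd h
    have h5 : (l : ℤ) ∣ b := Int.dvd_trans (Int.natCast_dvd_natCast.2 hl2) (Int.gcd_dvd_left ..)
    have h6 : (l : ℤ) ∣ a := by
      have := Int.dvd_trans (Int.natCast_dvd_natCast.2 hl2) (Int.gcd_dvd_right b (a.natAbs : ℤ))
      exact Int.dvd_natAbs.1 this
    exact no_common hN hl h6 h5
  have hJa : J(p | a.natAbs) = 1 := by
    have h5 : J((p : ℤ) | a.natAbs) = J(b ^ 2 | a.natAbs) := by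
      apply jacobiSym.mod_left'
      have h6 : (p : ℤ) ≡ b ^ 2 [ZMOD (a.natAbs : ℤ)] := by
        rw [Int.modEq_iff_dvd, ← hab, Int.natAbs_dvd]
        exact ⟨-a, by ring⟩
      exact h6
    rw [h5]
    exact jacobiSym.sq_one' hga
  -- the symbol of `a + b`
  set c := (a + b).natAbs with hc
  have hcodd : Odd c := by rw [Nat.odd_iff]; omega
  have hgc : Int.gcd (a - b) (c : ℤ) = 1 := by
    by_contra h
    obtain ⟨l, hl, hl2⟩ := Nat.exists_prime_and_dvd h
    have h5 : (l : ℤ) ∣ a - b :=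
      Int.dvd_trans (Int.natCast_dvd_natCast.2 hl2) (Int.gcd_dvd_left ..)
    have h6 : (l : ℤ) ∣ a + b := by
      have := Int.dvd_trans (Int.natCast_dvd_natCast.2 hl2) (Int.gcd_dvd_right (a - b) (c : ℤ))
      exact Int.dvd_natAbs.1 this
    have hl2 : l ≠ 2 := by
      rintro rfl
      obtain ⟨t, ht⟩ := h6
      push_cast at ht
      omega
    have hcop : IsCoprime (l : ℤ) 2 := by
      rw [Int.isCoprime_iff_gcd_eq_one]
      exact (Nat.coprime_primes hl Nat.prime_two).2 hl2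
    have h7 : (l : ℤ) ∣ 2 * a := by
      have := dvd_add h5 h6
      rwa [show a - b + (a + b) = 2 * a by ring] at this
    have h8 : (l : ℤ) ∣ 2 * b := by
      have := dvd_sub h6 h5
      rwa [show a + b - (a - b) = 2 * b by ring] at this
    exact no_common hN hl (hcop.dvd_of_dvd_mul_left h7) (hcop.dvd_of_dvd_mul_left h8)
  have hJc : J(p | c) = ZMod.χ₈ c := by
    have h5 : J(2 * (p : ℤ) | c) = J((a - b) ^ 2 | c) := by
      apply jacobiSym.mod_left'
      have h6 : 2 * (p : ℤ) ≡ (a - b) ^ 2 [ZMOD (c : ℤ)] := by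
        rw [Int.modEq_iff_dvd, ← hab, hc, Int.natAbs_dvd]
        exact ⟨-(a + b), by ring⟩
      exact h6
    rw [jacobiSym.sq_one' hgc, jacobiSym.mul_left, jacobiSym.at_two hcodd] at h5
    have h7 : ZMod.χ₈ (c : ZMod 8) * ZMod.χ₈ (c : ZMod 8) = 1 := by
      have h8 := jacobiSym.sq_one (a := 2) (b := c) (by
        have : Nat.Coprime 2 c := Nat.coprime_two_left.2 hcodd
        exact this)
      rw [jacobiSym.at_two hcodd, sq] at h8
      exact h8
    calc J(p | c) = (ZMod.χ₈ (c : ZMod 8) * ZMod.χ₈ (c : ZMod 8)) * J(p | c) := by rw [h7, one_mul]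
      _ = ZMod.χ₈ (c : ZMod 8) * (ZMod.χ₈ (c : ZMod 8) * J(p | c)) := by ring
      _ = ZMod.χ₈ (c : ZMod 8) := by rw [h5, mul_one]
  -- computation modulo `p`
  have hodd2 : (a + b) % 2 = 1 := by omega
  have e1 := pow_half (p := p) h4 haodd
  rw [hJa] at e1
  have e2 := pow_half (p := p) h4 hodd2
  rw [← hc, hJc] at e2
  have hu := phi_ii_sq φ
  have hz : ((a : ℤ) : ZMod p) + ((b : ℤ) : ZMod p) * φ ii = 0 := by
    rw [← f_eq φ ϖ, h0]
  set u := φ ii with hudef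
  have hB : ((b : ℤ) : ZMod p) = ((a : ℤ) : ZMod p) * u := by
    linear_combination (-u) * hz + ((b : ℤ) : ZMod p) * hu
  have e3 : ((((a + b : ℤ)) : ℤ) : ZMod p) ^ 2 = 2 * u * ((a : ℤ) : ZMod p) ^ 2 := by
    push_cast
    rw [hB]
    linear_combination ((a : ℤ) : ZMod p) ^ 2 * hu
  set n := p / 4 with hn
  have h5 : p / 2 = 2 * n := by omega
  rw [h5, pow_mul, e3, mul_pow, ← pow_mul, ← h5, e1, Int.cast_one, mul_one, mul_pow] at e2
  -- parity
  obtain ⟨b', hb'⟩ : ∃ b', b = 2 * b' := ⟨b / 2, by omega⟩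
  obtain ⟨k, hk⟩ : ∃ k, a + b = 4 * k + 1 := ⟨(a + b) / 4, by omega⟩
  have hn' : (n : ℤ) = 2 * k - b' + 4 * k ^ 2 + 2 * b' ^ 2 - 4 * (k * b') := by
    have h6 : (p : ℤ) = 4 * n + 1 := by omega
    have h7 : a = 4 * k + 1 - 2 * b' := by omega
    rw [h7, hb'] at hab
    have : (4 : ℤ) * n = 4 * (2 * k - b' + 4 * k ^ 2 + 2 * b' ^ 2 - 4 * (k * b')) := by
      rw [h6] at hab
      linear_combination -hab
    omega
  obtain ⟨w, hw⟩ : ∃ w, b' ^ 2 - b' = 2 * w := by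
    rcases Int.even_or_odd' b' with ⟨t, ht | ht⟩
    · exact ⟨2 * t ^ 2 - t, by rw [ht]; ring⟩
    · exact ⟨2 * t ^ 2 + t, by rw [ht]; ring⟩
  have hpow : ∀ m : ℕ, φ (ip m) = u ^ m := by
    intro m
    have h6 : u ^ 4 = 1 := by
      have : u ^ 4 = (u * u) ^ 2 := by ring
      rw [this, hu]; ring
    unfold ip
    rw [map_pow, ← hudef]
    have h7 : ((m : ℤ) % 4).toNat = m % 4 := by omega
    rw [h7]
    conv_rhs => rw [← Nat.div_add_mod m 4, pow_add, pow_mul, h6, one_pow, one_mul]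
  have hχ : ((ZMod.χ₈ (c : ZMod 8) : ℤ) : GaussianInt) = ip (2 * k) := by
    rw [ZMod.χ₈_nat_eq_if_mod_eight]
    rcases Int.even_or_odd' k with ⟨t, ht | ht⟩
    · have h6 : c % 8 = 1 ∨ c % 8 = 7 := by omega
      rw [if_neg (by omega), if_pos h6, ip_congr (b := 0) (by omega), ip_zero]
      simp
    · have h6 : ¬ (c % 8 = 1 ∨ c % 8 = 7) := by omega
      rw [if_neg (by omega), if_neg h6, ip_congr (b := 2) (by omega)]
      simp
      decide
  have e4 : φ (T ϖ) * u ^ n = ((ZMod.χ₈ (c : ZMod 8) : ℤ) : ZMod p) := by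
    have h6 : ((ZMod.χ₈ (c : ZMod 8) : ℤ) : ZMod p) =
        φ ((ZMod.χ₈ (c : ZMod 8) : ℤ) : GaussianInt) := by rw [map_intCast]
    rw [h6, hχ, ← hpow, ← map_mul]
    unfold T
    rw [← ip_add]
    congr 1
    apply ip_congr
    rw [← hb, hn', hb']
    generalize k * b' = A at *
    generalize k ^ 2 = B at *
    have h7 : b' ^ 2 = 2 * w + b' := by linarith
    rw [h7]
    omega
  apply Is4.inj φ h2 (quart_is4 φ h2 _) (T_is4 ϖ)
  have hun : u ^ n ≠ 0 := by
    apply pow_ne_zero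
    intro h
    rw [h, mul_zero] at hu
    exact one_ne_zero (neg_eq_zero.1 hu.symm)
  apply mul_right_cancel₀ hun
  rw [e4, ← e2, phi_quart, ZMod.card]
  have h6 : (p - 1) / 4 = n := by omega
  rw [h6]

include hN hP h0 in
/-- the supplement for `-1` -/
theorem quart_neg_one : quart φ h2 (-1) = T ϖ ^ 2 := by
  rw [← quart_four, ← quart_two φ h2 hN hP h0, ← map_pow]
  norm_num

end supp

end QN
end P004
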