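import Vale.Agent.P004.H628.QN4
import Vale.Agent.P004G.Cm

/-!
# P004, the quartic symbol with numerator a nonzero integer `B`, as a function of the denominator
-/

namespace P004
namespace QN

open Finset
open P004G (cop RQ)

/-- the exponent of the `2`-part (the sign included) -/
noncomputable def e2 (B : ℤ) : ℕ := padicValInt 2 B + (if cop B 2 % 4 = 1 then 0 else 2)

/-- the odd bad primes -/
noncomputable def SQ (B : ℤ) : Finset ℕ :=
  B.natAbs.primeFactors.filter (fun q => q ≠ 2 ∧ ¬ 4 ∣ padicValInt q B)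

/-- the quartic symbol `(B/α)` as a function of the primary element `α` -/
noncomputable def XB (B : ℤ) (α : GaussianInt) : GaussianInt :=
  T α ^ e2 B * ∏ q ∈ SQ B, qs q α ^ padicValInt q B

lemma RQ_eq (B : ℤ) : RQ B = ∏ q ∈ SQ B, q := by
  unfold RQ SQ
  rw [prod_filter]

lemma mem_SQ {B : ℤ} {q : ℕ} (h : q ∈ SQ B) : q.Prime ∧ q ≠ 2 ∧ ¬ 4 ∣ padicValInt q B := by
  unfold SQ at h
  rw [mem_filter, Nat.mem_primeFactors] at h
  exact ⟨h.1.1, h.2⟩

lemma XB_is4 (B : ℤ) (α : GaussianInt) : Is4 (XB B α) := by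
  unfold XB
  apply ((T_is4 α).pow _).mul
  apply prod_induction _ Is4 (fun a b => Is4.mul) is4_one
  intro q _
  exact (qs_is4 q α).pow _

lemma XB_mul (B : ℤ) {α β : GaussianInt} (hα : A1.Prim α) (hβ : A1.Prim β) :
    XB B (α * β) = XB B α * XB B β := by
  unfold XB
  rw [T_mul hα hβ, mul_pow]
  have h1 : ∏ q ∈ SQ B, qs q (α * β) ^ padicValInt q B =
      (∏ q ∈ SQ B, qs q α ^ padicValInt q B) * ∏ q ∈ SQ B, qs q β ^ padicValInt q B := by
    rw [← prod_mul_distrib]
    apply prod_congr rfl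
    intro q hq
    have : Fact q.Prime := ⟨(mem_SQ hq).1⟩
    rw [qs_mul (mem_SQ hq).2.1, mul_pow]
  rw [h1]; ring

lemma XB_star (B : ℤ) {α : GaussianInt} (hα : A1.Prim α) : XB B (star α) = star (XB B α) := by
  unfold XB
  have h0 : star (∏ q ∈ SQ B, qs q α ^ padicValInt q B) =
      ∏ q ∈ SQ B, star (qs q α ^ padicValInt q B) := map_prod (starRingEnd GaussianInt) _ _
  rw [T_star hα, star_mul', star_pow, h0]
  congr 1
  apply prod_congr rfl
  intro q hq
  have : Fact q.Prime := ⟨(mem_SQ hq).1⟩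
  rw [qs_star (mem_SQ hq).2.1, star_pow]

lemma XB_congr (B : ℤ) {α β : GaussianInt} (h : (((8 * RQ B : ℕ) : ℤ) : GaussianInt) ∣ α - β) :
    XB B α = XB B β := by
  unfold XB
  have h8 : α.im % 8 = β.im % 8 := by
    obtain ⟨w, hw⟩ := h
    have h1 := congrArg Zsqrtd.im hw
    rw [Zsqrtd.im_sub] at h1
    have h3 : ((((8 * RQ B : ℕ) : ℤ) : GaussianInt) * w).im = 8 * (RQ B * w.im) := by
      rw [Zsqrtd.im_mul]
      push_cast
      simp
      ring
    rw [h3] at h1
    generalize (RQ B : ℤ) * w.im = t at h1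
    omega
  rw [T_congr h8]
  congr 1
  apply prod_congr rfl
  intro q hq
  have : Fact q.Prime := ⟨(mem_SQ hq).1⟩
  rw [qs_congr (mem_SQ hq).2.1 (β := β)]
  refine dvd_trans ?_ h
  have h1 : q ∣ 8 * RQ B := by
    rw [RQ_eq]
    exact Dvd.dvd.mul_left (dvd_prod_of_mem _ hq) 8
  have h3 : (q : ℤ) ∣ ((8 * RQ B : ℕ) : ℤ) := Int.natCast_dvd_natCast.2 h1
  have h5 : (((q : ℕ) : ℤ) : GaussianInt) ∣ (((8 * RQ B : ℕ) : ℤ) : GaussianInt) :=
    (Zsqrtd.intCast_dvd_intCast _ _).2 h3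
  rw [Int.cast_natCast] at h5
  exact h5

lemma XB_int (B : ℤ) {n : ℤ} (h : n.natAbs.Coprime (RQ B)) : XB B (n : GaussianInt) = 1 := by
  unfold XB
  rw [T_int, one_pow, one_mul]
  apply prod_eq_one
  intro q hq
  have hqp := (mem_SQ hq).1
  have : Fact q.Prime := ⟨hqp⟩
  rw [qs_int (mem_SQ hq).2.1, one_pow]
  intro h1
  have h3 : q ∣ RQ B := by rw [RQ_eq]; exact dvd_prod_of_mem _ hq
  have h4 : q ∣ n.natAbs := Int.natCast_dvd.1 h1
  exact hqp.one_lt.ne' (Nat.eq_one_of_dvd_coprimes h h4 h3)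

lemma XB_ne_zero_iff (B : ℤ) (α : GaussianInt) :
    XB B α ≠ 0 ↔ α.norm.natAbs.Coprime (RQ B) := by
  unfold XB
  rw [mul_ne_zero_iff, prod_ne_zero_iff, RQ_eq, Nat.coprime_prod_right_iff]
  constructor
  · rintro ⟨-, h⟩ q hq
    have hqp := (mem_SQ hq).1
    have : Fact q.Prime := ⟨hqp⟩
    rw [Nat.coprime_comm, Nat.Prime.coprime_iff_not_dvd hqp]
    intro h1
    apply h q hq
    have h3 : qs q α = 0 := (qs_eq_zero_iff (mem_SQ hq).2.1 α).2 (Int.natCast_dvd.2 h1)
    rw [h3]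
    apply zero_pow
    intro h4
    exact (mem_SQ hq).2.2 (by rw [h4]; exact dvd_zero _)
  · intro h
    refine ⟨pow_ne_zero _ (T_ne_zero α), fun q hq => pow_ne_zero _ ?_⟩
    have hqp := (mem_SQ hq).1
    have : Fact q.Prime := ⟨hqp⟩
    intro h1
    rw [qs_eq_zero_iff (mem_SQ hq).2.1] at h1
    have h3 := h q hq
    rw [Nat.coprime_comm, Nat.Prime.coprime_iff_not_dvd hqp] at h3
    exact h3 (Int.natCast_dvd.1 h1)

/-! ### factorisation of `B` -/

lemma natAbs_cop (B : ℤ) (p : ℕ) : (cop B p).natAbs = B.natAbs / p ^ padicValInt p B := by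
  unfold cop
  have h1 : (p : ℤ) ^ padicValInt p B ∣ B := by
    have h3 : p ^ padicValNat p B.natAbs ∣ B.natAbs := pow_padicValNat_dvd
    have h4 : ((p ^ padicValNat p B.natAbs : ℕ) : ℤ) ∣ B := Int.natCast_dvd.2 h3
    push_cast at h4
    exact h4
  rw [Int.natAbs_ediv_of_dvd h1, Int.natAbs_pow, Int.natAbs_natCast]

lemma cop_mul (B : ℤ) (p : ℕ) : (p : ℤ) ^ padicValInt p B * cop B p = B := by
  unfold cop
  have h1 : (p : ℤ) ^ padicValInt p B ∣ B := by
    have h3 : p ^ padicValNat p B.natAbs ∣ B.natAbs := pow_padicValNat_dvd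
    have h4 : ((p ^ padicValNat p B.natAbs : ℕ) : ℤ) ∣ B := Int.natCast_dvd.2 h3
    push_cast at h4
    exact h4
  exact Int.mul_ediv_cancel' h1

lemma qst_natAbs (q : ℕ) : (qst q).natAbs = q := by
  unfold qst; split_ifs <;> simp

lemma qst_mod {q : ℕ} (h : q % 2 = 1) : qst q % 4 = 1 := by
  unfold qst; split_ifs <;> omega

lemma prod_mod_four {s : Finset ℕ} {f : ℕ → ℤ} (h : ∀ q ∈ s, f q % 4 = 1) :
    (∏ q ∈ s, f q) % 4 = 1 := by
  apply prod_induction f (fun x => x % 4 = 1)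
  · intro a b ha hb
    rw [Int.mul_emod, ha, hb]; rfl
  · rfl
  · exact h

lemma pow_mod_four {x : ℤ} (h : x % 4 = 1) (n : ℕ) : x ^ n % 4 = 1 := by
  induction n with
  | zero => rw [pow_zero]; rfl
  | succ n ih => rw [pow_succ, Int.mul_emod, ih, h]; rfl

/-- the odd part of `B` -/
lemma cop_two {B : ℤ} (hB : B ≠ 0) : cop B 2 = (if cop B 2 % 4 = 1 then 1 else -1) *
    ∏ q ∈ B.natAbs.primeFactors.erase 2, qst q ^ padicValInt q B := by
  have h0 : B.natAbs ≠ 0 := Int.natAbs_ne_zero.2 hB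
  set P := ∏ q ∈ B.natAbs.primeFactors.erase 2, qst q ^ padicValInt q B with hP
  have hPm : P % 4 = 1 := by
    apply prod_mod_four
    intro q hq
    apply pow_mod_four
    apply qst_mod
    rw [mem_erase, Nat.mem_primeFactors] at hq
    have := hq.2.1.eq_two_or_odd
    omega
  have hPn : P.natAbs = (cop B 2).natAbs := by
    have h1 : P.natAbs = ∏ q ∈ B.natAbs.primeFactors.erase 2, q ^ padicValInt q B := by
      rw [hP]
      have : (∏ q ∈ B.natAbs.primeFactors.erase 2, qst q ^ padicValInt q B).natAbs =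
          ∏ q ∈ B.natAbs.primeFactors.erase 2, (qst q ^ padicValInt q B).natAbs :=
        map_prod Int.natAbsHom _ _
      rw [this]
      apply prod_congr rfl
      intro q _
      rw [Int.natAbs_pow, qst_natAbs]
    have h3 : B.natAbs = 2 ^ padicValInt 2 B * ∏ q ∈ B.natAbs.primeFactors.erase 2,
        q ^ padicValInt q B := by
      conv_lhs => rw [← Nat.prod_factorization_pow_eq_self h0]
      rw [Finsupp.prod, Nat.support_factorization]
      by_cases h2 : 2 ∈ B.natAbs.primeFactors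
      · rw [← mul_prod_erase _ _ h2]
        congr 1
        apply prod_congr rfl
        intro q hq
        rw [mem_erase, Nat.mem_primeFactors] at hq
        rw [Nat.factorization_def _ hq.2.1]; rfl
      · rw [erase_eq_of_notMem h2]
        have h4 : padicValInt 2 B = 0 := by
          rw [Nat.mem_primeFactors] at h2
          apply padicValNat.eq_zero_of_not_dvd
          intro h5
          exact h2 ⟨Nat.prime_two, h5, h0⟩
        rw [h4, pow_zero, one_mul]
        apply prod_congr rfl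
        intro q hq
        rw [Nat.mem_primeFactors] at hq
        rw [Nat.factorization_def _ hq.1]; rfl
    rw [natAbs_cop, h1]
    conv_rhs => rw [h3]
    rw [Nat.mul_div_cancel_left _ (by positivity)]
  have h5 : cop B 2 = P ∨ cop B 2 = -P := Int.natAbs_eq_natAbs_iff.1 hPn.symm
  rcases h5 with h5 | h5
  · rw [if_pos (by rw [h5]; exact hPm), one_mul]; exact h5
  · rw [if_neg (by rw [h5]; omega), neg_one_mul]; exact h5

lemma cop_odd {B : ℤ} (hB : B ≠ 0) {p : ℕ} (hp : p.Prime) (hp4 : p % 4 = 1) :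
    cop B p = 2 ^ padicValInt 2 B * ((if cop B 2 % 4 = 1 then 1 else -1) *
      ∏ q ∈ (B.natAbs.primeFactors.erase 2).erase p, qst q ^ padicValInt q B) := by
  have hp0 : (p : ℤ) ^ padicValInt p B ≠ 0 := pow_ne_zero _ (by exact_mod_cast hp.ne_zero)
  apply mul_left_cancel₀ hp0
  rw [cop_mul]
  have h1 := cop_mul B 2
  push_cast at h1
  have hp2 : p ≠ 2 := by rintro rfl; omega
  have h3 : ∏ q ∈ B.natAbs.primeFactors.erase 2, qst q ^ padicValInt q B =
      (p : ℤ) ^ padicValInt p B *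
        ∏ q ∈ (B.natAbs.primeFactors.erase 2).erase p, qst q ^ padicValInt q B := by
    by_cases h4 : p ∈ B.natAbs.primeFactors.erase 2
    · rw [← mul_prod_erase _ _ h4]
      congr 2
      unfold qst
      rw [if_pos hp4]
    · rw [erase_eq_of_notMem h4]
      have h5 : padicValInt p B = 0 := by
        rw [mem_erase, Nat.mem_primeFactors] at h4
        apply padicValNat.eq_zero_of_not_dvd
        intro h5
        exact h4 ⟨hp2, hp, h5, Int.natAbs_ne_zero.2 hB⟩
      rw [h5, pow_zero, one_mul]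
  have h5 := cop_two hB
  rw [h3] at h5
  have h6 := congrArg (fun x : ℤ => (2 : ℤ) ^ padicValInt 2 B * x) h5
  rw [h1] at h6
  linear_combination h6

/-- the factors with exponent divisible by `4` do not contribute -/
lemma prod_SQ {B : ℤ} {p : ℕ} (hp : p.Prime) {G : Type*} [CommMonoid G]
    (f : ℕ → G) (hf : ∀ q : ℕ, q.Prime → q ≠ 2 → q ≠ p → f q ^ 4 = 1)
    (hv : 4 ∣ padicValInt p B) :
    ∏ q ∈ (B.natAbs.primeFactors.erase 2).erase p, f q ^ padicValInt q B =
      ∏ q ∈ SQ B, f q ^ padicValInt q B := by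
  symm
  apply prod_subset
  · intro q hq
    have h1 := mem_SQ hq
    rw [mem_erase, mem_erase]
    refine ⟨?_, h1.2.1, ?_⟩
    · rintro rfl; exact h1.2.2 hv
    · unfold SQ at hq
      exact (mem_filter.1 hq).1
  · intro q hq hq2
    rw [mem_erase, mem_erase] at hq
    have h1 : 4 ∣ padicValInt q B := by
      by_contra h
      apply hq2
      unfold SQ
      rw [mem_filter]
      exact ⟨hq.2.2, hq.2.1, h⟩
    obtain ⟨k, hk⟩ := h1
    rw [hk, pow_mul, hf q (Nat.mem_primeFactors.1 hq.2.2).1 hq.2.1 hq.1, one_pow]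

/-- `(cop B p / π) = XB B π` -/
theorem quart_cop {p : ℕ} [hp : Fact p.Prime] (φ : GaussianInt →+* ZMod p) (h2 : (2 : ZMod p) ≠ 0)
    {ϖ : GaussianInt} (hN : ϖ.norm = p) (hP : A1.Prim ϖ) (h0 : φ ϖ = 0) {B : ℤ} (hB : B ≠ 0)
    (hv : 4 ∣ padicValInt p B) :
    quart φ h2 ((cop B p : ℤ) : ZMod p) = XB B ϖ := by
  have hp4 := p_mod hN hP
  rw [cop_odd hB hp.out hp4]
  push_cast
  rw [map_mul, map_pow, map_mul, quart_two φ h2 hN hP h0]
  have h1 : quart φ h2 (∏ q ∈ (B.natAbs.primeFactors.erase 2).erase p,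
      ((qst q : ℤ) : ZMod p) ^ padicValInt q B) =
      ∏ q ∈ (B.natAbs.primeFactors.erase 2).erase p, qs q ϖ ^ padicValInt q B := by
    rw [map_prod]
    apply prod_congr rfl
    intro q hq
    rw [mem_erase, mem_erase, Nat.mem_primeFactors] at hq
    have : Fact q.Prime := ⟨hq.2.2.1⟩
    rw [map_pow, recip φ h2 hN hP h0 q hq.2.1 (Ne.symm hq.1)]
  rw [h1, prod_SQ hp.out (fun q => qs q ϖ) ?_ hv]
  · have h3 : quart φ h2 (if cop B 2 % 4 = 1 then 1 else -1) =
        T ϖ ^ (if cop B 2 % 4 = 1 then 0 else 2) := by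
      split_ifs
      · rw [map_one, pow_zero]
      · exact quart_neg_one φ h2 hN hP h0
    rw [h3]
    unfold XB e2
    rw [pow_add]; ring
  · intro q hq hq2 hqp
    have : Fact q.Prime := ⟨hq⟩
    apply (qs_is4 q ϖ).pow_four
    intro h
    rw [qs_eq_zero_iff hq2, hN] at h
    have h3 : q ∣ p := by exact_mod_cast h
    exact hqp ((Nat.prime_dvd_prime_iff_eq hq hp.out).1 h3)

/-! ### the completely multiplicative function on all Gaussian integers -/

open Classical in
/-- the unit `u` with `z * u` primary (`0` for even norm) -/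
noncomputable def pu (z : GaussianInt) : GaussianInt :=
  if h : z.norm % 2 = 1 then (A1.exists_prim h).choose else 0

lemma pu_spec {z : GaussianInt} (h : z.norm % 2 = 1) : (pu z).norm = 1 ∧ A1.Prim (z * pu z) := by
  unfold pu
  rw [dif_pos h]
  exact (A1.exists_prim h).choose_spec

lemma pu_zero {z : GaussianInt} (h : ¬ z.norm % 2 = 1) : pu z = 0 := by
  unfold pu
  rw [dif_neg h]

lemma unit_is4 {u : GaussianInt} (hu : u.norm = 1) : Is4 u := by
  rcases A1.unit_cases hu with h | h | h | h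
  · exact Or.inr (Or.inl (Zsqrtd.ext h.1 h.2))
  · exact Or.inr (Or.inr (Or.inr (Or.inl (Zsqrtd.ext h.1 h.2))))
  · exact Or.inr (Or.inr (Or.inl (Zsqrtd.ext h.1 h.2)))
  · exact Or.inr (Or.inr (Or.inr (Or.inr (Zsqrtd.ext h.1 h.2))))

lemma unit_mul_star {u : GaussianInt} (hu : u.norm = 1) : u * star u = 1 := by
  rw [← Zsqrtd.norm_eq_mul_conj, hu]; simp

lemma pu_is4 (z : GaussianInt) : Is4 (pu z) := by
  by_cases h : z.norm % 2 = 1
  · exact unit_is4 (pu_spec h).1
  · rw [pu_zero h]; exact is4_zero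

/-- uniqueness of the unit -/
lemma pu_eq {z u : GaussianInt} (hu : u.norm = 1) (h : A1.Prim (z * u)) : pu z = u := by
  have hz : z.norm % 2 = 1 := by
    have := A1.prim_norm h
    rw [Zsqrtd.norm_mul, hu, mul_one] at this
    omega
  obtain ⟨h1, h2⟩ := pu_spec hz
  have h3 : (star u * pu z).norm = 1 := by
    rw [Zsqrtd.norm_mul, A1.star_norm, hu, h1]; rfl
  have h4 : z * u * (star u * pu z) = z * pu z := by
    have := unit_mul_star hu
    linear_combination (z * pu z) * this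
  have h5 := A1.prim_unit h3 h (by rw [h4]; exact h2)
  have h6 : u * (star u * pu z) = u * 1 := by rw [h5]
  have h7 := unit_mul_star hu
  linear_combination h6 - (pu z) * h7

lemma pu_prim {z : GaussianInt} (h : A1.Prim z) : pu z = 1 :=
  pu_eq (by simp) (by rw [mul_one]; exact h)

lemma norm_odd_mul (z w : GaussianInt) :
    (z * w).norm % 2 = 1 ↔ z.norm % 2 = 1 ∧ w.norm % 2 = 1 := by
  rw [Zsqrtd.norm_mul, Int.mul_emod]
  have h1 : z.norm % 2 = 0 ∨ z.norm % 2 = 1 := by omega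
  have h2 : w.norm % 2 = 0 ∨ w.norm % 2 = 1 := by omega
  rcases h1 with h1 | h1 <;> rcases h2 with h2 | h2 <;> rw [h1, h2] <;> simp

lemma pu_mul (z w : GaussianInt) : pu (z * w) = pu z * pu w := by
  by_cases hz : z.norm % 2 = 1
  · by_cases hw : w.norm % 2 = 1
    · obtain ⟨h1, h2⟩ := pu_spec hz
      obtain ⟨h3, h4⟩ := pu_spec hw
      apply pu_eq
      · rw [Zsqrtd.norm_mul, h1, h3]; rfl
      · have := A1.prim_mul h2 h4
        rwa [show z * pu z * (w * pu w) = z * w * (pu z * pu w) by ring] at this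
    · rw [pu_zero hw, mul_zero, pu_zero]
      rw [norm_odd_mul]; tauto
  · rw [pu_zero hz, zero_mul, pu_zero]
    rw [norm_odd_mul]; tauto

lemma pu_star (z : GaussianInt) : pu (star z) = star (pu z) := by
  by_cases hz : z.norm % 2 = 1
  · obtain ⟨h1, h2⟩ := pu_spec hz
    apply pu_eq
    · rw [A1.star_norm, h1]
    · rw [← star_mul']; exact A1.prim_star h2
  · rw [pu_zero hz, pu_zero, star_zero]
    rw [A1.star_norm]; exact hz

lemma prim_congr {z w : GaussianInt} (h : (((4 : ℕ) : ℤ) : GaussianInt) ∣ z - w)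
    (hz : A1.Prim z) : A1.Prim w := by
  obtain ⟨t, ht⟩ := h
  have h1 := congrArg Zsqrtd.im ht
  have h3 := congrArg Zsqrtd.re ht
  rw [Zsqrtd.im_sub, Zsqrtd.im_mul] at h1
  rw [Zsqrtd.re_sub, Zsqrtd.re_mul] at h3
  simp at h1 h3
  obtain ⟨h4, h5⟩ := hz
  constructor <;> omega

lemma norm_congr {z w : GaussianInt} (h : (((4 : ℕ) : ℤ) : GaussianInt) ∣ z - w)
    (hz : z.norm % 2 = 1) : w.norm % 2 = 1 := by
  obtain ⟨h1, h2⟩ := pu_spec hz
  have h3 : (((4 : ℕ) : ℤ) : GaussianInt) ∣ z * pu z - w * pu z := by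
    rw [← sub_mul]; exact Dvd.dvd.mul_right h _
  have h5 := A1.prim_norm (prim_congr h3 h2)
  rw [Zsqrtd.norm_mul, h1, mul_one] at h5
  omega

lemma pu_congr {z w : GaussianInt} (h : (((4 : ℕ) : ℤ) : GaussianInt) ∣ z - w) :
    pu z = pu w := by
  by_cases hz : z.norm % 2 = 1
  · obtain ⟨h1, h2⟩ := pu_spec hz
    symm
    apply pu_eq h1
    have h3 : (((4 : ℕ) : ℤ) : GaussianInt) ∣ z * pu z - w * pu z := by
      rw [← sub_mul]; exact Dvd.dvd.mul_right h _
    exact prim_congr h3 h2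
  · rw [pu_zero hz, pu_zero]
    intro hw
    apply hz
    apply norm_congr _ hw
    rw [← neg_sub]; exact (dvd_neg).2 h

/-- the finite part of the Hecke character of `y² = x³ - B x`: a completely multiplicative
function on the Gaussian integers with values `0, ±1, ±i` -/
noncomputable def Phi (B : ℤ) (z : GaussianInt) : GaussianInt :=
  pu z * star (XB B (z * pu z))

lemma Phi_is4 (B : ℤ) (z : GaussianInt) : Is4 (Phi B z) := (pu_is4 z).mul (XB_is4 B _).star

lemma Phi_prim (B : ℤ) {z : GaussianInt} (h : A1.Prim z) : Phi B z = star (XB B z) := by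
  unfold Phi; rw [pu_prim h, one_mul, mul_one]

theorem Phi_mul (B : ℤ) (z w : GaussianInt) : Phi B (z * w) = Phi B z * Phi B w := by
  unfold Phi
  by_cases hz : z.norm % 2 = 1
  · by_cases hw : w.norm % 2 = 1
    · obtain ⟨h1, h2⟩ := pu_spec hz
      obtain ⟨h3, h4⟩ := pu_spec hw
      rw [pu_mul, show z * w * (pu z * pu w) = (z * pu z) * (w * pu w) by ring,
        XB_mul B h2 h4, star_mul']
      ring
    · rw [pu_mul, pu_zero hw]; simp
  · rw [pu_mul, pu_zero hz]; simp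

theorem Phi_one (B : ℤ) : Phi B 1 = 1 := by
  rw [Phi_prim B A1.prim_one]
  have h1 := XB_int B (n := 1) (by simp)
  rw [Int.cast_one] at h1
  rw [h1, star_one]

theorem Phi_unit (B : ℤ) {u : GaussianInt} (hu : u.norm = 1) : Phi B u = star u := by
  unfold Phi
  have h1 : pu u = star u := by
    apply pu_eq
    · rw [A1.star_norm, hu]
    · rw [unit_mul_star hu]; exact A1.prim_one
  have h3 := XB_int B (n := 1) (by simp)
  rw [Int.cast_one] at h3
  rw [h1, unit_mul_star hu, h3, star_one, mul_one]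

theorem Phi_ii (B : ℤ) : Phi B ii = -ii := by
  rw [Phi_unit B (by decide)]; decide

theorem Phi_star (B : ℤ) (z : GaussianInt) : Phi B (star z) = star (Phi B z) := by
  unfold Phi
  by_cases hz : z.norm % 2 = 1
  · obtain ⟨h1, h2⟩ := pu_spec hz
    rw [pu_star, ← star_mul' z (pu z), XB_star B h2, star_mul' (pu z)]
  · rw [pu_star, pu_zero hz]; simp

theorem Phi_congr (B : ℤ) {z w : GaussianInt}
    (h : (((8 * RQ B : ℕ) : ℤ) : GaussianInt) ∣ z - w) : Phi B z = Phi B w := by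
  have h4 : (((4 : ℕ) : ℤ) : GaussianInt) ∣ z - w := by
    refine dvd_trans ?_ h
    rw [Zsqrtd.intCast_dvd_intCast, Int.natCast_dvd_natCast]
    exact ⟨2 * RQ B, by ring⟩
  have h5 := pu_congr h4
  unfold Phi
  rw [h5, XB_congr B (β := w * pu w)]
  rw [← h5, ← sub_mul]
  exact Dvd.dvd.mul_right h _

theorem Phi_ne_zero_iff (B : ℤ) (z : GaussianInt) :
    Phi B z ≠ 0 ↔ z.norm.natAbs.Coprime (2 * RQ B) := by
  unfold Phi
  rw [mul_ne_zero_iff, Nat.coprime_mul_iff_right]
  by_cases hz : z.norm % 2 = 1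
  · obtain ⟨h1, h2⟩ := pu_spec hz
    have h3 : pu z ≠ 0 := by
      intro h; rw [h] at h1; simp at h1
    have h4 : star (XB B (z * pu z)) ≠ 0 ↔ XB B (z * pu z) ≠ 0 := by
      rw [Ne, star_eq_zero]
    rw [h4, XB_ne_zero_iff, Zsqrtd.norm_mul, h1, mul_one, Nat.coprime_two_right, Nat.odd_iff]
    have h5 : z.norm.natAbs % 2 = 1 := by omega
    tauto
  · rw [pu_zero hz, Nat.coprime_two_right, Nat.odd_iff]
    have h5 : ¬ z.norm.natAbs % 2 = 1 := by omega
    tauto

theorem Phi_int (B : ℤ) {n : ℤ} (h4 : n % 4 = 1) (h : n.natAbs.Coprime (RQ B)) :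
    Phi B (n : GaussianInt) = 1 := by
  rw [Phi_prim B, XB_int B h, star_one]
  constructor
  · simp
  · simpa using h4

theorem Phi_pi {p : ℕ} [hp : Fact p.Prime] (φ : GaussianInt →+* ZMod p) (h2 : (2 : ZMod p) ≠ 0)
    {ϖ : GaussianInt} (hN : ϖ.norm = p) (hP : A1.Prim ϖ) (h0 : φ ϖ = 0) {B : ℤ} (hB : B ≠ 0)
    (hv : 4 ∣ padicValInt p B) :
    Phi B ϖ = star (quart φ h2 ((cop B p : ℤ) : ZMod p)) := by
  rw [quart_cop φ h2 hN hP h0 hB hv, Phi_prim B hP]

end QN
end P004
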