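import Vale.Agent.P004.H628.QN5

/-!
# P004, the number of points of `y² = x³ - B x` and the coefficients
-/

namespace P004
namespace QN

open Finset
open P004G (cop RQ trQ)

/-! ### point count -/

lemma card_points {p : ℕ} [hp : Fact p.Prime] (h2 : (2 : ZMod p) ≠ 0) (f : ZMod p → ZMod p) :
    (Nat.card {q : ZMod p × ZMod p // q.2 ^ 2 = f q.1} : ℤ) =
      p + ∑ x : ZMod p, quadraticChar (ZMod p) (f x) := by
  classical
  rw [Nat.card_eq_fintype_card, Fintype.card_subtype, card_filter, ← univ_product_univ,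
    sum_product]
  push_cast
  have h1 : ∀ x : ZMod p, (∑ y : ZMod p, if y ^ 2 = f x then (1 : ℤ) else 0) =
      quadraticChar (ZMod p) (f x) + 1 := by
    intro x
    rw [← quadraticChar_card_sqrts (ringChar_ne_two_of h2) (f x)]
    have h5 : {y : ZMod p | y ^ 2 = f x}.toFinset = univ.filter (fun y : ZMod p => y ^ 2 = f x) := by
      ext y; simp
    rw [h5, card_filter]
    push_cast
    rfl
  rw [sum_congr rfl (fun x _ => h1 x), sum_add_distrib, sum_const, card_univ, ZMod.card]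
  simp
  ring

lemma trQ_eq {p : ℕ} [hp : Fact p.Prime] (h2 : (2 : ZMod p) ≠ 0) (b : ℤ) :
    trQ b p = -∑ x : ZMod p, quadraticChar (ZMod p) (x ^ 3 - (b : ZMod p) * x) := by
  unfold trQ
  have h1 := card_points h2 (fun x : ZMod p => x ^ 3 - (b : ZMod p) * x)
  rw [h1]; ring

lemma two_ne_of_odd {p : ℕ} [hp : Fact p.Prime] (h : p ≠ 2) : (2 : ZMod p) ≠ 0 := by
  intro h0
  have h1 : ((2 : ℕ) : ZMod p) = 0 := by exact_mod_cast h0
  rw [ZMod.natCast_eq_zero_iff] at h1
  exact h ((Nat.prime_dvd_prime_iff_eq hp.out Nat.prime_two).1 h1)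

lemma trQ_three {p : ℕ} [hp : Fact p.Prime] (h4 : p % 4 = 3) (b : ℤ) : trQ b p = 0 := by
  have h2 : (2 : ZMod p) ≠ 0 := two_ne_of_odd (by omega)
  rw [trQ_eq h2, neg_eq_zero]
  have h1 : ∑ x : ZMod p, quadraticChar (ZMod p) (x ^ 3 - (b : ZMod p) * x) =
      ∑ x : ZMod p, -quadraticChar (ZMod p) (x ^ 3 - (b : ZMod p) * x) := by
    rw [← Equiv.sum_comp (Equiv.neg (ZMod p))]
    apply sum_congr rfl
    intro x _
    rw [Equiv.neg_apply]
    have h3 : (-x) ^ 3 - (b : ZMod p) * -x = (-1) * (x ^ 3 - (b : ZMod p) * x) := by ring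
    rw [h3, map_mul]
    have h5 : quadraticChar (ZMod p) (-1) = -1 := by
      rw [quadraticChar_neg_one (ringChar_ne_two_of h2), ZMod.card,
        ZMod.χ₄_nat_three_mod_four h4]
    rw [h5]; ring
  rw [sum_neg_distrib] at h1
  omega

lemma jac_twist {F : Type*} [Field F] [Fintype F] (χ ρ : MulChar F GaussianInt) {b : F}
    (hb : b ≠ 0) : ∑ z : F, χ z * ρ (b - z) = χ b * ρ b * jacobiSum χ ρ := by
  unfold jacobiSum
  rw [← Equiv.sum_comp (Equiv.mulLeft₀ b hb), mul_sum]
  apply sum_congr rfl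
  intro x _
  rw [Equiv.mulLeft₀_apply, show b - b * x = b * (1 - x) by ring, map_mul, map_mul]
  ring

/-- the trace of Frobenius for `p = 1 mod 4`, in terms of the quartic symbol -/
theorem trQ_quart {p : ℕ} [hp : Fact p.Prime] (φ : GaussianInt →+* ZMod p) (h2 : (2 : ZMod p) ≠ 0)
    {ϖ : GaussianInt} (hN : ϖ.norm = p) (hP : A1.Prim ϖ) (h0 : φ ϖ = 0) {b : ℤ}
    (hb : ((b : ℤ) : ZMod p) ≠ 0) :
    ((trQ b p : ℤ) : GaussianInt) = star (quart φ h2 (b : ZMod p)) * ϖ +
      star (star (quart φ h2 (b : ZMod p)) * ϖ) := by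
  classical
  set χ := quart φ h2 with hχ
  set β : ZMod p := (b : ZMod p) with hβ
  have hρ : ∀ x : ZMod p, ((quadraticChar (ZMod p) x : ℤ) : GaussianInt) = (χ ^ 2) x :=
    fun x => (quart_sq φ h2 x).symm
  have hm1 : (χ ^ 2) (-1) = 1 := by
    rw [MulChar.pow_apply' _ two_ne_zero, ← map_pow]; norm_num
  have hJ : jacobiSum χ (χ ^ 2) = -ϖ := jac_eq_neg φ h2 hN hP h0
  have hχ4 : χ ^ 4 = 1 := quart_pow_four φ h2
  have e1 : ∑ x : ZMod p, (χ ^ 2) (x ^ 3 - β * x) =
      ∑ z : ZMod p, (1 + (χ ^ 2) z) * (χ z * (χ ^ 2) (β - z)) := by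
    rw [← sum_sq φ h2 (fun z => χ z * (χ ^ 2) (β - z))]
    apply sum_congr rfl
    intro x _
    have h3 : x ^ 3 - β * x = (-1) * (x * (β - x ^ 2)) := by ring
    rw [h3, map_mul, hm1, one_mul, map_mul, map_pow, MulChar.pow_apply' _ two_ne_zero]
  have e2 : ∑ z : ZMod p, (1 + (χ ^ 2) z) * (χ z * (χ ^ 2) (β - z)) =
      (∑ z : ZMod p, χ z * (χ ^ 2) (β - z)) + ∑ z : ZMod p, χ⁻¹ z * (χ ^ 2) (β - z) := by
    rw [← sum_add_distrib]
    apply sum_congr rfl
    intro z _
    have h3 : χ⁻¹ = χ ^ 3 := by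
      rw [inv_eq_iff_mul_eq_one, ← pow_succ']; exact hχ4
    rw [h3, MulChar.pow_apply' χ three_ne_zero, MulChar.pow_apply' χ two_ne_zero z]
    ring
  have hJ' : jacobiSum χ⁻¹ (χ ^ 2) = star (jacobiSum χ (χ ^ 2)) := by
    unfold jacobiSum
    rw [star_sum]
    apply sum_congr rfl
    intro x _
    rw [star_mul', quart_inv, ← hρ, star_intCast]
  have hb4 : χ β ^ 4 = 1 := (quart_is4 φ h2 β).pow_four (quart_ne_zero φ h2 hb)
  have hs : star (χ β) = χ β ^ 3 := (quart_is4 φ h2 β).star_eq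
  have e3 : ∑ x : ZMod p, (χ ^ 2) (x ^ 3 - β * x) = -(star (χ β) * ϖ + star (star (χ β) * ϖ)) := by
    rw [e1, e2, jac_twist _ _ hb, jac_twist _ _ hb, hJ', hJ, star_mul', star_star, quart_inv,
      MulChar.pow_apply' χ two_ne_zero, hs, star_neg]
    linear_combination (-(χ β * star ϖ)) * hb4
  rw [trQ_eq h2]
  push_cast
  rw [sum_congr rfl (fun x _ => hρ _), e3, neg_neg]

lemma padicValInt_cop {B : ℤ} (hB : B ≠ 0) {p : ℕ} (hp : p.Prime) : ¬ (p : ℤ) ∣ cop B p := by
  intro h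
  have h1 := cop_mul B p
  obtain ⟨t, ht⟩ := h
  have h3 : (p : ℤ) ^ (padicValInt p B + 1) ∣ B := ⟨t, by rw [pow_succ, mul_assoc, ← ht, h1]⟩
  have h5 : p ^ (padicValInt p B + 1) ∣ B.natAbs := by
    rw [← Int.natCast_dvd]; push_cast; exact h3
  have : Fact p.Prime := ⟨hp⟩
  have h6 : padicValInt p B + 1 ≤ padicValNat p B.natAbs :=
    (padicValNat_dvd_iff_le (Int.natAbs_ne_zero.2 hB)).1 h5
  unfold padicValInt at h6
  omega

theorem trQ_Phi {p : ℕ} [hp : Fact p.Prime] (hp4 : p % 4 = 1)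
    {ϖ : GaussianInt} (hN : ϖ.norm = p) (hP : A1.Prim ϖ) {B : ℤ} (hB : B ≠ 0)
    (hv : 4 ∣ padicValInt p B) :
    ((trQ (cop B p) p : ℤ) : GaussianInt) = Phi B ϖ * ϖ + star (Phi B ϖ * ϖ) := by
  obtain ⟨φ, h0⟩ := exists_phi hN
  have h2 : (2 : ZMod p) ≠ 0 := two_ne_of_odd (by omega)
  rw [Phi_pi φ h2 hN hP h0 hB hv]
  apply trQ_quart φ h2 hN hP h0
  intro h
  rw [ZMod.intCast_zmod_eq_zero_iff_dvd] at h
  exact padicValInt_cop hB hp.out h

/-! ### the coefficients -/

/-- the coefficients of the Hecke character -/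
noncomputable def AQ (B : ℤ) (n : ℕ) : ℤ := ∑ z ∈ A1.PA n, (Phi B z * z).re

lemma sum_AQ (B : ℤ) (n : ℕ) : ∑ z ∈ A1.PA n, Phi B z * z = ((AQ B n : ℤ) : GaussianInt) := by
  have hre : (∑ z ∈ A1.PA n, Phi B z * z).re = ∑ z ∈ A1.PA n, (Phi B z * z).re :=
    map_sum (⟨⟨Zsqrtd.re, rfl⟩, fun _ _ => rfl⟩ : GaussianInt →+ ℤ) _ _
  have him : (∑ z ∈ A1.PA n, Phi B z * z).im = ∑ z ∈ A1.PA n, (Phi B z * z).im :=
    map_sum (⟨⟨Zsqrtd.im, rfl⟩, fun _ _ => rfl⟩ : GaussianInt →+ ℤ) _ _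
  have h0 : ∑ z ∈ A1.PA n, (Phi B z * z).im = ∑ z ∈ A1.PA n, (Phi B (star z) * star z).im := by
    refine Finset.sum_nbij' star star ?_ ?_ ?_ ?_ ?_
    · intro z hz
      rw [A1.mem_PA] at hz ⊢
      exact ⟨by rw [Zsqrtd.norm_conj]; exact hz.1, A1.prim_star hz.2⟩
    · intro z hz
      rw [A1.mem_PA] at hz ⊢
      exact ⟨by rw [Zsqrtd.norm_conj]; exact hz.1, A1.prim_star hz.2⟩
    · intro z _; exact star_star z
    · intro z _; exact star_star z
    · intro z _; rw [star_star]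
  have h1 : ∑ z ∈ A1.PA n, (Phi B z * z).im = 0 := by
    have : ∑ z ∈ A1.PA n, (Phi B (star z) * star z).im = - ∑ z ∈ A1.PA n, (Phi B z * z).im := by
      rw [← Finset.sum_neg_distrib]
      refine Finset.sum_congr rfl fun z _ => ?_
      rw [Phi_star, ← star_mul', Zsqrtd.im_star]
    omega
  apply Zsqrtd.ext
  · rw [hre, Zsqrtd.re_intCast]; rfl
  · rw [him, h1]; simp

lemma AQ_mod (B : ℤ) {n : ℕ} (hn : n % 4 ≠ 1) : AQ B n = 0 := by
  unfold AQ
  rw [A1.mod_four hn, sum_empty]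

lemma AQ_one (B : ℤ) : AQ B 1 = 1 := by
  unfold AQ
  rw [A1.PA_one, sum_singleton, Phi_one]
  simp

lemma AQ_mul (B : ℤ) {m n : ℕ} (h : Nat.Coprime m n) : AQ B (m * n) = AQ B m * AQ B n := by
  have h1 : ((AQ B (m * n) : ℤ) : GaussianInt) =
      ((AQ B m : ℤ) : GaussianInt) * ((AQ B n : ℤ) : GaussianInt) := by
    rw [← sum_AQ, ← sum_AQ, ← sum_AQ, Finset.sum_mul_sum, ← Finset.sum_product']
    symm
    apply Finset.sum_nbij (fun p : GaussianInt × GaussianInt => p.1 * p.2)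
      (fun p hp => A1.maps_mul hp) (A1.inj_mul h) (A1.surj_mul h)
    intro p _
    rw [Phi_mul]; ring
  have h2 := congrArg Zsqrtd.re h1
  simpa using h2

lemma Phi_pow (B : ℤ) (z : GaussianInt) (n : ℕ) : Phi B (z ^ n) = Phi B z ^ n := by
  induction n with
  | zero => rw [pow_zero, pow_zero, Phi_one]
  | succ n ih => rw [pow_succ, Phi_mul, ih, pow_succ]

lemma Phi_mul_star (B : ℤ) {z : GaussianInt} (h : Phi B z ≠ 0) : Phi B z * star (Phi B z) = 1 :=
  (Phi_is4 B z).mul_star h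

/-- primes not dividing `RQ` -/
lemma prime_coprime_RQ {B : ℤ} {p : ℕ} (hp : p.Prime) (hv : 4 ∣ padicValInt p B) :
    p.Coprime (RQ B) := by
  rw [RQ_eq, Nat.coprime_prod_right_iff]
  intro q hq
  have h1 := mem_SQ hq
  rw [Nat.coprime_primes hp h1.1]
  rintro rfl
  exact h1.2.2 hv

lemma AQ_good_one (B : ℤ) {p : ℕ} [hp : Fact p.Prime] (h4 : p % 4 = 1)
    (hv : 4 ∣ padicValInt p B) {ϖ : GaussianInt} (hN : ϖ.norm = p) (hP : A1.Prim ϖ) :
    ((AQ B p : ℤ) : GaussianInt) = Phi B ϖ * ϖ + star (Phi B ϖ * ϖ) ∧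
    ∀ k, AQ B (p ^ (k + 2)) = AQ B p * AQ B (p ^ (k + 1)) - p * AQ B (p ^ k) := by
  classical
  have hne : Phi B ϖ ≠ 0 := by
    rw [Phi_ne_zero_iff, hN, Int.natAbs_natCast, Nat.coprime_mul_iff_right]
    exact ⟨Nat.coprime_two_right.2 (Nat.odd_iff.2 (by omega)), prime_coprime_RQ hp.out hv⟩
  set x := Phi B ϖ * ϖ with hx
  have hxs : star x = Phi B (star ϖ) * star ϖ := by rw [hx, star_mul', Phi_star]
  have hn : x * star x = ((p : ℤ) : GaussianInt) := by
    rw [← hN, Zsqrtd.norm_eq_mul_conj, hx, star_mul']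
    have := Phi_mul_star B hne
    linear_combination (ϖ * star ϖ) * this
  have S1 : ∀ k, ((AQ B (p ^ k) : ℤ) : GaussianInt) =
      ∑ i ∈ range (k + 1), x ^ i * star x ^ (k - i) := by
    intro k
    rw [← sum_AQ, A1.PA_pow hN hP, Finset.sum_image (A1.injOn_pow hN hP k)]
    apply sum_congr rfl
    intro i _
    rw [Phi_mul, Phi_pow, Phi_pow, hxs, hx, mul_pow, mul_pow]
    ring
  have S : ∀ k, ((AQ B (p ^ k) : ℤ) : GaussianInt) * (x - star x) =
      x ^ (k + 1) - star x ^ (k + 1) := by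
    intro k
    rw [S1, ← geom_sum₂_mul]
    rfl
  have e1 : ((AQ B p : ℤ) : GaussianInt) = x + star x := by
    have := S1 1
    rw [pow_one] at this
    rw [this, sum_range_succ, sum_range_one]
    simp
    ring
  refine ⟨e1, fun k => ?_⟩
  have hd : x - star x ≠ 0 := by
    intro h
    have h1 : x = star x := sub_eq_zero.1 h
    have h3 := congrArg Zsqrtd.im h1
    rw [Zsqrtd.im_star] at h3
    have h5 : x.im = 0 := by omega
    have h6 : x.norm = p := by
      have : ((x.norm : ℤ) : GaussianInt) = ((p : ℤ) : GaussianInt) := by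
        rw [Zsqrtd.norm_eq_mul_conj, hn]
      exact_mod_cast this
    exact A1.pi_ne h6 h1
  have e3 : ((AQ B (p ^ (k + 2)) : ℤ) : GaussianInt) =
      ((AQ B p * AQ B (p ^ (k + 1)) - p * AQ B (p ^ k) : ℤ) : GaussianInt) := by
    apply mul_right_cancel₀ hd
    rw [S]
    push_cast
    have e2' : ((p : ℕ) : GaussianInt) = x * star x := by rw [hn]; push_cast; rfl
    rw [sub_mul, mul_assoc, S, mul_assoc, S, e1, e2']
    ring
  exact_mod_cast e3

lemma AQ_good_three (B : ℤ) {p : ℕ} [hp : Fact p.Prime] (h4 : p % 4 = 3)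
    (hv : 4 ∣ padicValInt p B) (k : ℕ) :
    AQ B (p ^ (k + 2)) = AQ B p * AQ B (p ^ (k + 1)) - p * AQ B (p ^ k) := by
  have h0 : AQ B p = 0 := AQ_mod B (by omega)
  have hΦ : Phi B ((-(p : ℤ) : ℤ) : GaussianInt) = 1 := by
    apply Phi_int B (by omega)
    rw [Int.natAbs_neg, Int.natAbs_natCast]
    exact prime_coprime_RQ hp.out hv
  have e3 : ((AQ B (p ^ (k + 2)) : ℤ) : GaussianInt) =
      ((-(p : ℤ) * AQ B (p ^ k) : ℤ) : GaussianInt) := by
    rw [← sum_AQ, A1.PA_three h4, Finset.sum_map]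
    push_cast
    rw [← sum_AQ, Finset.mul_sum]
    apply Finset.sum_congr rfl
    intro z _
    have h5 : Phi B (((-(p : ℤ) : ℤ) : GaussianInt) * z) = Phi B z := by
      rw [Phi_mul, hΦ, one_mul]
    push_cast at h5
    simp only [Function.Embedding.coeFn_mk]
    rw [h5]
    ring
  have h3 : AQ B (p ^ (k + 2)) = -(p : ℤ) * AQ B (p ^ k) := by exact_mod_cast e3
  rw [h3, h0]; ring

lemma AQ_two (B : ℤ) (k : ℕ) : AQ B (2 ^ (k + 1)) = 0 := by
  apply AQ_mod
  rw [pow_succ]; omega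

lemma AQ_bad (B : ℤ) {p : ℕ} (hp : p.Prime) (hp2 : p ≠ 2) (hv : ¬ 4 ∣ padicValInt p B) (k : ℕ) :
    AQ B (p ^ (k + 1)) = 0 := by
  unfold AQ
  apply sum_eq_zero
  intro z hz
  rw [A1.mem_PA] at hz
  have h1 : Phi B z = 0 := by
    by_contra h
    rw [← Ne, Phi_ne_zero_iff, hz.1, Int.natAbs_natCast, Nat.coprime_mul_iff_right] at h
    have h3 : p ∈ SQ B := by
      unfold SQ
      rw [mem_filter, Nat.mem_primeFactors]
      have h5 : padicValInt p B ≠ 0 := fun h => hv (by rw [h]; exact dvd_zero _)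
      have h6 : p ∣ B.natAbs := by
        by_contra h7
        exact h5 (padicValNat.eq_zero_of_not_dvd h7)
      have h7 : B.natAbs ≠ 0 := by
        intro h8
        apply h5
        unfold padicValInt
        rw [h8]; simp
      exact ⟨⟨hp, h6, h7⟩, hp2, hv⟩
    have h4 : p ∣ RQ B := by rw [RQ_eq]; exact dvd_prod_of_mem _ h3
    exact hp.one_lt.ne' (Nat.eq_one_of_dvd_coprimes h.2 (dvd_pow_self p (by omega)) h4)
  rw [h1, zero_mul]; rfl

/-- the local data of `y² = x³ - B x` -/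
theorem coefQ {B : ℤ} (hB : B ≠ 0) : P004G.CoefQ B (AQ B) where
  ld :=
    { zero := AQ_mod B (by norm_num)
      one := AQ_one B
      mul := fun m n h => AQ_mul B h
      loc := fun p hp => by
        have : Fact p.Prime := ⟨hp⟩
        by_cases hp2 : p = 2
        · right
          subst hp2
          refine ⟨fun k => ?_, ?_⟩
          · rw [AQ_two]
            have := AQ_two B 0
            rw [zero_add, pow_one] at this
            rw [this, zero_mul]
          · have := AQ_two B 0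
            rw [zero_add, pow_one] at this
            rw [this]; norm_num
        · by_cases hv : 4 ∣ padicValInt p B
          · left
            have h2 := hp.eq_two_or_odd
            have h4 : p % 4 = 1 ∨ p % 4 = 3 := by omega
            rcases h4 with h4 | h4
            · obtain ⟨ϖ, hN, hP⟩ := A1.exists_pi h4
              have h5 := AQ_good_one B h4 hv hN hP
              refine ⟨h5.2, ?_⟩
              have h6 := congrArg Zsqrtd.re h5.1
              rw [Zsqrtd.re_add, Zsqrtd.re_star, Zsqrtd.re_intCast] at h6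
              rw [h6]
              have h7 : (Phi B ϖ * ϖ).norm = p := by
                have hne : Phi B ϖ ≠ 0 := by
                  rw [Phi_ne_zero_iff, hN, Int.natAbs_natCast, Nat.coprime_mul_iff_right]
                  exact ⟨Nat.coprime_two_right.2 (Nat.odd_iff.2 (by omega)),
                    prime_coprime_RQ hp hv⟩
                have h8 := Phi_mul_star B hne
                rw [← Zsqrtd.norm_eq_mul_conj] at h8
                have h9 : (Phi B ϖ).norm = 1 := by exact_mod_cast h8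
                rw [Zsqrtd.norm_mul, h9, one_mul, hN]
              rw [A1.norm_eq] at h7
              nlinarith [sq_nonneg (Phi B ϖ * ϖ).im]
            · refine ⟨AQ_good_three B h4 hv, ?_⟩
              rw [AQ_mod B (by omega)]
              positivity
          · right
            refine ⟨fun k => ?_, ?_⟩
            · rw [AQ_bad B hp hp2 hv]
              have := AQ_bad B hp hp2 hv 0
              rw [zero_add, pow_one] at this
              rw [this, zero_mul]
            · have := AQ_bad B hp hp2 hv 0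
              rw [zero_add, pow_one] at this
              rw [this]; norm_num }
  two := AQ_two B
  bad := fun p hp hp2 hv => AQ_bad B hp hp2 hv
  good := fun p hp hp2 hv => by
    have : Fact p.Prime := ⟨hp⟩
    have h2 := hp.eq_two_or_odd
    have h4 : p % 4 = 1 ∨ p % 4 = 3 := by omega
    rcases h4 with h4 | h4
    · obtain ⟨ϖ, hN, hP⟩ := A1.exists_pi h4
      have h5 := AQ_good_one B h4 hv hN hP
      refine ⟨h5.2, ?_⟩
      have h6 := trQ_Phi h4 hN hP hB hv
      rw [← h5.1] at h6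
      exact_mod_cast h6.symm
    · refine ⟨AQ_good_three B h4 hv, ?_⟩
      rw [AQ_mod B (by omega), trQ_three h4]

end QN
end P004
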