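import Vale.Agent.P004.H628.QN6

/-!
# P004, the conductor of the Hecke character: a divisor-minimal modulus
-/

namespace P004
namespace QN

open Finset
open P004G (cop RQ)

/-- a modulus for `Phi B` -/
noncomputable def MQ (B : ℤ) : ℕ := 8 * RQ B

lemma RQ_ne_zero (B : ℤ) : RQ B ≠ 0 := by
  rw [RQ_eq, prod_ne_zero_iff]
  intro q hq
  exact (mem_SQ hq).1.ne_zero

lemma RQ_odd (B : ℤ) : (RQ B).Coprime 2 := by
  rw [RQ_eq, Nat.coprime_prod_left_iff]
  intro q hq
  exact (Nat.coprime_primes (mem_SQ hq).1 Nat.prime_two).2 (mem_SQ hq).2.1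

lemma MQ_ne_zero (B : ℤ) : MQ B ≠ 0 := by
  unfold MQ
  exact Nat.mul_ne_zero (by norm_num) (RQ_ne_zero B)

lemma crt {a b : GaussianInt} (h : IsCoprime a b) (x y : GaussianInt) :
    ∃ z : GaussianInt, a ∣ z - x ∧ b ∣ z - y := by
  obtain ⟨u, v, huv⟩ := h
  refine ⟨x * (v * b) + y * (u * a), ⟨u * (y - x), ?_⟩, ⟨v * (x - y), ?_⟩⟩
  · linear_combination x * huv
  · linear_combination y * huv

lemma natCast_coprime {m n : ℕ} (h : m.Coprime n) :
    IsCoprime (m : GaussianInt) (n : GaussianInt) := by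
  obtain ⟨a, b, hab⟩ := Nat.isCoprime_iff_coprime.2 h
  refine ⟨(a : GaussianInt), (b : GaussianInt), ?_⟩
  have h1 := congrArg (Int.cast : ℤ → GaussianInt) hab
  push_cast at h1
  exact h1

lemma Phi_ne_zero_iff' (B : ℤ) (z : GaussianInt) :
    Phi B z ≠ 0 ↔ IsCoprime z (MQ B : GaussianInt) := by
  rw [Phi_ne_zero_iff]
  constructor
  · intro h
    rw [Nat.coprime_mul_iff_right] at h
    have h1 : z.norm.natAbs.Coprime (MQ B) := by
      unfold MQ
      have h8 : (8 : ℕ) = 2 ^ 3 := by norm_num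
      rw [h8]
      exact Nat.Coprime.mul_right (Nat.Coprime.pow_right 3 h.1) h.2
    obtain ⟨a, b, hab⟩ := natCast_coprime h1
    have h3 : ((z.norm.natAbs : ℕ) : GaussianInt) = z * star z := by
      rw [← Zsqrtd.norm_eq_mul_conj, ← Int.cast_natCast, Int.natAbs_of_nonneg
        (GaussianInt.norm_nonneg z)]
    rw [h3] at hab
    exact ⟨a * star z, b, by rw [← hab]; ring⟩
  · rintro ⟨u, v, huv⟩
    by_contra h
    obtain ⟨l, hl, hl1, hl2⟩ := Nat.Prime.not_coprime_iff_dvd.1 h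
    have h3 : l ∣ MQ B := by
      unfold MQ
      exact hl2.trans ⟨4, by ring⟩
    have h5 : (u * z).norm = 1 - (v + star v).re * MQ B + v.norm * MQ B * MQ B := by
      have h6 : u * z = 1 - v * (MQ B : GaussianInt) := by linear_combination huv
      rw [h6, A1.norm_eq, A1.norm_eq]
      simp
      ring
    rw [Zsqrtd.norm_mul] at h5
    have h7 : (l : ℤ) ∣ u.norm * z.norm := Dvd.dvd.mul_left (Int.natCast_dvd.2 hl1) _
    have h8 : (l : ℤ) ∣ (MQ B : ℤ) := Int.natCast_dvd_natCast.2 h3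
    have h9 : (l : ℤ) ∣ 1 := by
      have : (1 : ℤ) = u.norm * z.norm + ((v + star v).re * MQ B - v.norm * MQ B * MQ B) := by
        rw [h5]; ring
      rw [this]
      apply dvd_add h7
      apply dvd_sub
      · exact Dvd.dvd.mul_left h8 _
      · exact Dvd.dvd.mul_left h8 _
    have h10 : l ∣ 1 := by exact_mod_cast h9
    exact hl.one_lt.ne' (Nat.dvd_one.1 h10)

/-- `F` is a modulus of the character -/
def PF (B : ℤ) (F : GaussianInt) : Prop :=
  F ∣ (MQ B : GaussianInt) ∧ ∀ α, Phi B α ≠ 0 → F ∣ α - 1 → Phi B α = 1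

lemma Phi_congr' (B : ℤ) {z w : GaussianInt} (h : (MQ B : GaussianInt) ∣ z - w) :
    Phi B z = Phi B w := by
  apply Phi_congr
  rw [Int.cast_natCast]
  exact h

lemma PF_M (B : ℤ) : PF B (MQ B : GaussianInt) :=
  ⟨dvd_rfl, fun α _ h => by rw [Phi_congr' B h, Phi_one]⟩

lemma exists_min (B : ℤ) : ∃ F, PF B F ∧ ∀ F', PF B F' → F.norm.natAbs ≤ F'.norm.natAbs := by
  classical
  have h : ∃ n : ℕ, ∃ F, PF B F ∧ F.norm.natAbs = n := ⟨_, _, PF_M B, rfl⟩
  obtain ⟨F, hF, hn⟩ := Nat.find_spec h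
  refine ⟨F, hF, fun F' hF' => ?_⟩
  rw [hn]
  exact Nat.find_min' h ⟨F', hF', rfl⟩

/-- the prime `1 + i` divides the modulus -/
lemma PF.two {B : ℤ} {F : GaussianInt} (h : PF B F) : (⟨1, 1⟩ : GaussianInt) ∣ F := by
  by_contra hn
  have : Fact (Nat.Prime 2) := ⟨Nat.prime_two⟩
  have hp : Prime (⟨1, 1⟩ : GaussianInt) := A1.prime_of_norm (p := 2) (by decide)
  have hc : IsCoprime (⟨1, 1⟩ : GaussianInt) F := (Prime.coprime_iff_not_dvd hp).2 hn
  have h8 : IsCoprime (8 : GaussianInt) F := by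
    have h1 : IsCoprime ((⟨1, 1⟩ : GaussianInt) ^ 6) F := hc.pow_left
    have h3 : (8 : GaussianInt) = (⟨1, 1⟩ : GaussianInt) ^ 6 * ⟨0, 1⟩ := by decide
    rw [h3]
    apply IsCoprime.mul_left h1
    exact ⟨⟨0, -1⟩, 0, by rw [zero_mul, add_zero]; decide⟩
  have hR : F ∣ (RQ B : GaussianInt) := by
    have h1 := h.1
    unfold MQ at h1
    push_cast at h1
    exact h8.symm.dvd_of_dvd_mul_left h1
  -- a rational integer
  have hco : IsCoprime (8 : ℤ) (RQ B : ℤ) := by
    have h1 : Nat.Coprime 8 (RQ B) := by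
      have h8 : (8 : ℕ) = 2 ^ 3 := by norm_num
      rw [h8]
      exact Nat.Coprime.pow_left 3 (RQ_odd B).symm
    exact_mod_cast Nat.isCoprime_iff_coprime.2 h1
  obtain ⟨u, v, huv⟩ := hco
  -- `n = -1 mod 8`, `n = 1 mod RQ`
  set n : ℤ := 1 - 2 * (v * RQ B) with hn'
  have hn8 : (-n) % 4 = 1 := by
    have : -n = 4 * (-4 * u) + 1 := by rw [hn']; linear_combination 2 * huv
    omega
  have hnR : (RQ B : ℤ) ∣ n - 1 := ⟨-2 * v, by rw [hn']; ring⟩
  have hcop : (-n).natAbs.Coprime (RQ B) := by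
    have h1 : IsCoprime (-n) (RQ B : ℤ) := ⟨-1, 2 * v, by rw [hn']; ring⟩
    exact Int.isCoprime_iff_gcd_eq_one.1 h1
  have hΦ : Phi B ((n : ℤ) : GaussianInt) = -1 := by
    have h1 : ((n : ℤ) : GaussianInt) = (-1) * ((-n : ℤ) : GaussianInt) := by push_cast; ring
    rw [h1, Phi_mul, Phi_int B hn8 hcop, mul_one, Phi_unit B (by decide)]
    decide
  have h3 := h.2 ((n : ℤ) : GaussianInt) (by rw [hΦ]; decide) (by
    refine hR.trans ?_
    obtain ⟨t, ht⟩ := hnR
    exact ⟨(t : GaussianInt), by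
      have h1 := congrArg (Int.cast : ℤ → GaussianInt) ht
      push_cast at h1
      exact h1⟩)
  rw [hΦ] at h3
  exact absurd h3 (by decide)

/-- the other odd bad primes, times `8` -/
noncomputable def KQ (B : ℤ) (q : ℕ) : ℕ := 8 * ∏ l ∈ (SQ B).erase q, l

lemma MQ_eq {B : ℤ} {q : ℕ} (hq : q ∈ SQ B) : MQ B = q * KQ B q := by
  unfold MQ KQ
  rw [RQ_eq, ← mul_prod_erase _ _ hq]
  ring

lemma KQ_coprime {B : ℤ} {q : ℕ} (hq : q ∈ SQ B) : q.Coprime (KQ B q) := by
  unfold KQ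
  have h1 := mem_SQ hq
  apply Nat.Coprime.mul_right
  · have h8 : (8 : ℕ) = 2 ^ 3 := by norm_num
    rw [h8]
    exact Nat.Coprime.pow_right 3 ((Nat.coprime_primes h1.1 Nat.prime_two).2 h1.2.1)
  · rw [Nat.coprime_prod_right_iff]
    intro l hl
    rw [mem_erase] at hl
    exact (Nat.coprime_primes h1.1 (mem_SQ hl.2).1).2 (Ne.symm hl.1)

lemma prim_of_congr {α : GaussianInt} (h : (8 : GaussianInt) ∣ α - 1) : A1.Prim α := by
  apply prim_of_dvd
  exact Dvd.dvd.trans ⟨⟨2, -2⟩, by decide⟩ h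

lemma T_of_congr {α : GaussianInt} (h : (8 : GaussianInt) ∣ α - 1) : T α = 1 := by
  obtain ⟨w, hw⟩ := h
  have h1 := congrArg Zsqrtd.im hw
  have h3 : ((8 : GaussianInt) * w).im = 8 * w.im := by
    rw [Zsqrtd.im_mul]
    simp
  rw [h3] at h1
  simp only [Zsqrtd.im_sub, Zsqrtd.im_one, sub_zero] at h1
  unfold T
  rw [ip_congr (b := 0) (by omega), ip_zero]

lemma XB_single {B : ℤ} {q : ℕ} (hq : q ∈ SQ B) {α : GaussianInt}
    (h : (KQ B q : GaussianInt) ∣ α - 1) :
    A1.Prim α ∧ XB B α = qs q α ^ padicValInt q B := by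
  have h8 : (8 : GaussianInt) ∣ α - 1 := by
    refine Dvd.dvd.trans ?_ h
    unfold KQ
    push_cast
    exact dvd_mul_right _ _
  refine ⟨prim_of_congr h8, ?_⟩
  unfold XB
  rw [T_of_congr h8, one_pow, one_mul, ← mul_prod_erase _ _ hq, prod_eq_one, mul_one]
  intro l hl
  have hl' : l ∈ SQ B := (mem_erase.1 hl).2
  have : Fact l.Prime := ⟨(mem_SQ hl').1⟩
  have h1 : (l : GaussianInt) ∣ α - 1 := by
    refine Dvd.dvd.trans ?_ h
    have h3 : l ∣ KQ B q := by
      unfold KQ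
      exact Dvd.dvd.mul_left (dvd_prod_of_mem _ hl) 8
    obtain ⟨t, ht⟩ := h3
    exact ⟨(t : GaussianInt), by rw [ht]; push_cast; rfl⟩
  rw [qs_congr (mem_SQ hl').2.1 h1, qs_one (mem_SQ hl').2.1, one_pow]

lemma Is4.pow_ne_one {x : GaussianInt} (hx : Is4 x) (h0 : x ≠ 0) (h : x ^ 2 ≠ 1) {v : ℕ}
    (hv : ¬ 4 ∣ v) : x ^ v ≠ 1 := by
  have h4 := hx.pow_four h0
  intro h1
  have h2 : v % 4 = 1 ∨ v % 4 = 2 ∨ v % 4 = 3 := by omega
  rw [← Nat.div_add_mod v 4, pow_add, pow_mul, h4, one_pow, one_mul] at h1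
  rcases h2 with h2 | h2 | h2 <;> rw [h2] at h1
  · rw [pow_one] at h1; exact h (by rw [h1]; rfl)
  · exact h h1
  · apply h
    have h5 : x ^ 6 = 1 := by
      calc x ^ 6 = (x ^ 3) ^ 2 := by ring
        _ = 1 := by rw [h1]; rfl
    calc x ^ 2 = x ^ 4 * x ^ 2 := by rw [h4, one_mul]
      _ = x ^ 6 := by ring
      _ = 1 := h5

lemma Phi_single {B : ℤ} {q : ℕ} (hq : q ∈ SQ B) {α : GaussianInt}
    (h : (KQ B q : GaussianInt) ∣ α - 1) (h0 : qs q α ≠ 0) (h1 : qs q α ^ 2 ≠ 1) :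
    Phi B α ≠ 0 ∧ Phi B α ≠ 1 := by
  obtain ⟨h2, h3⟩ := XB_single hq h
  rw [Phi_prim B h2, h3]
  constructor
  · rw [Ne, star_eq_zero]
    exact pow_ne_zero _ h0
  · intro h5
    have h6 := congrArg star h5
    rw [star_star, star_one] at h6
    exact (qs_is4 q α).pow_ne_one h0 h1 (mem_SQ hq).2.2 h6

/-- split primes divide the modulus -/
lemma PF.one {B : ℤ} {F : GaussianInt} (h : PF B F) {q : ℕ} (hq : q ∈ SQ B)
    {ϖ : GaussianInt} (hN : ϖ.norm = q) (hP : A1.Prim ϖ) : ϖ ∣ F := by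
  by_contra hn
  have hqp := (mem_SQ hq).1
  have hq2 := (mem_SQ hq).2.1
  have : Fact q.Prime := ⟨hqp⟩
  have hp : Prime ϖ := A1.prime_of_norm hN
  have hc : IsCoprime ϖ F := (Prime.coprime_iff_not_dvd hp).2 hn
  have h4 : q % 4 = 1 := p_mod hN hP
  have hqq : (q : GaussianInt) = ϖ * star ϖ := p_eq hN
  have hc1 : IsCoprime ϖ (star ϖ) := by
    rw [Prime.coprime_iff_not_dvd hp]
    intro h1
    exact A1.pi_ne hN (A1.eq_of_dvd hP (A1.prim_star hP) A1.star_norm.symm h1)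
  have hc2 : IsCoprime ϖ (KQ B q : GaussianInt) := by
    have h1 := natCast_coprime (KQ_coprime hq)
    rw [hqq] at h1
    exact h1.of_mul_left_left
  obtain ⟨φ, h0⟩ := exists_phi hN
  have h2 : (2 : ZMod q) ≠ 0 := two_ne_of_odd hq2
  classical
  obtain ⟨g, hg⟩ := quadraticChar_exists_neg_one' (ringChar_ne_two_of h2) (F := ZMod q)
  obtain ⟨α, h5, h6⟩ := crt (hc1.mul_right hc2) (((g : ZMod q).val : ℤ) : GaussianInt) 1
  have h7 : φ α = (g : ZMod q) := by
    obtain ⟨t, ht⟩ := h5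
    have h8 := congrArg φ ht
    rw [map_sub, map_mul, h0, zero_mul, map_intCast, sub_eq_zero] at h8
    rw [h8]; simp
  have h8 : φ (star α) = 1 := by
    obtain ⟨t, ht⟩ := h6
    have h9 := congrArg (fun x => φ (star x)) ht
    simp only [star_sub, star_mul', star_star, star_one, map_sub, map_mul, h0, zero_mul,
      map_one] at h9
    exact sub_eq_zero.1 h9
  have h9 : φ (qs q α) = (g : ZMod q) ^ ((q - 1) / 4) := by
    rw [f_qs hq2 φ]
    unfold PQ
    rw [if_pos h4, map_mul, map_pow, map_pow, h7, h8, one_pow, mul_one]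
  have h10 : φ (qs q α ^ 2) = -1 := by
    rw [map_pow, h9, ← pow_mul]
    have h11 := quadraticChar_eq_pow_of_char_ne_two' (ringChar_ne_two_of h2) (g : ZMod q)
    rw [hg, ZMod.card] at h11
    have h12 : (q - 1) / 4 * 2 = q / 2 := by omega
    rw [h12, ← h11]; simp
  have h11 : Phi B α ≠ 0 ∧ Phi B α ≠ 1 := by
    apply Phi_single hq (Dvd.dvd.trans (Dvd.intro_left _ rfl) h6)
    · intro h12
      rw [h12, zero_pow two_ne_zero, map_zero] at h10
      exact one_ne_zero (neg_eq_zero.1 h10.symm)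
    · intro h12
      rw [h12, map_one] at h10
      apply h2
      linear_combination h10
  apply h11.2
  apply h.2 α h11.1
  have h13 : F ∣ ϖ * (star ϖ * (KQ B q : GaussianInt)) := by
    have h14 := h.1
    rw [MQ_eq hq] at h14
    push_cast at h14
    rw [hqq, mul_assoc] at h14
    exact h14
  exact (hc.symm.dvd_of_dvd_mul_left h13).trans h6

/-- inert primes: an element whose symbol is not `0, 1, -1` -/
lemma exists_inert {q : ℕ} [hq : Fact q.Prime] (hq2 : q ≠ 2) (h4 : q % 4 = 3) :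
    ∃ α, qs q α ≠ 0 ∧ qs q α ^ 2 ≠ 1 := by
  classical
  by_contra hcon
  push Not at hcon
  set f := fq q with hf
  set n := (q ^ 2 - 1) / 2 with hn
  obtain ⟨m, hm⟩ : ∃ m, q = 4 * m + 3 := ⟨q / 4, by omega⟩
  have hn2 : q ^ 2 - 1 = 2 * n := by
    have h19 : q ^ 2 - 1 = 2 * (2 * ((m + 1) * (4 * m + 2))) := by
      rw [hm]
      have : (4 * m + 3) ^ 2 = 2 * (2 * ((m + 1) * (4 * m + 2))) + 1 := by ring
      omega
    omega
  have hn0 : 0 < n := by
    have : 1 < q ^ 2 := Nat.one_lt_pow two_ne_zero hq.out.one_lt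
    omega
  have hn4 : (q ^ 2 - 1) / 4 * 2 = n := by
    rw [pow_m hm, hn]
    have h19 : q ^ 2 - 1 = 2 * (2 * ((m + 1) * (4 * m + 2))) := by
      rw [hm]
      have : (4 * m + 3) ^ 2 = 2 * (2 * ((m + 1) * (4 * m + 2))) + 1 := by ring
      omega
    rw [h19]
    omega
  -- the values
  let S : Finset (ZMod q × ZMod q) := univ.erase 0
  let g : ZMod q × ZMod q → AlgebraicClosure (ZMod q) :=
    fun x => f ⟨(x.1.val : ℤ), (x.2.val : ℤ)⟩
  have hinj : Set.InjOn g (univ : Finset (ZMod q × ZMod q)) := by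
    rintro ⟨a, b⟩ - ⟨c, d⟩ - h
    have h1 : f (⟨(a.val : ℤ), (b.val : ℤ)⟩ - ⟨(c.val : ℤ), (d.val : ℤ)⟩) = 0 := by
      rw [map_sub, sub_eq_zero]; exact h
    have h3 := dvd_of_f f hq2 h1 (by rw [← frob_three f h4, h1, zero_pow hq.out.ne_zero])
    obtain ⟨t, ht⟩ := h3
    have h5 := congrArg Zsqrtd.re ht
    have h6 := congrArg Zsqrtd.im ht
    rw [Zsqrtd.re_mul] at h5
    rw [Zsqrtd.im_mul] at h6
    simp at h5 h6
    have h7 := congrArg (Int.cast : ℤ → ZMod q) h5
    have h8 := congrArg (Int.cast : ℤ → ZMod q) h6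
    push_cast at h7 h8
    simp at h7 h8
    rw [Prod.mk.injEq]
    exact ⟨sub_eq_zero.1 h7, sub_eq_zero.1 h8⟩
  have hsub : S.image g ⊆ (Polynomial.nthRoots n (1 : AlgebraicClosure (ZMod q))).toFinset := by
    intro y hy
    rw [mem_image] at hy
    obtain ⟨x, hx, rfl⟩ := hy
    rw [Multiset.mem_toFinset, Polynomial.mem_nthRoots hn0]
    set α : GaussianInt := ⟨(x.1.val : ℤ), (x.2.val : ℤ)⟩ with hα
    have h0 : f α ≠ 0 := by
      intro h0
      have h1 : g x = g 0 := by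
        change f α = f _
        rw [h0]
        symm
        have : (⟨((0 : ZMod q × ZMod q).1.val : ℤ), ((0 : ZMod q × ZMod q).2.val : ℤ)⟩ :
          GaussianInt) = 0 := by
          apply Zsqrtd.ext <;> simp
        rw [this, map_zero]
      have h3 := hinj (mem_coe.2 (mem_univ x)) (mem_coe.2 (mem_univ 0)) h1
      exact (mem_erase.1 hx).1 h3
    have h1 : qs q α ≠ 0 := by
      intro h1
      have h3 := f_qs hq2 f α
      rw [h1, map_zero] at h3
      unfold PQ at h3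
      rw [if_neg (by omega), map_pow] at h3
      exact pow_ne_zero _ h0 h3.symm
    have h3 := hcon α h1
    have h5 := congrArg f h3
    rw [map_pow, f_qs hq2 f, map_one] at h5
    unfold PQ at h5
    rw [if_neg (by omega), map_pow, ← pow_mul, hn4] at h5
    exact h5
  have hcard := card_le_card hsub
  rw [card_image_of_injOn (hinj.mono (by simp)), card_erase_of_mem (mem_univ _), card_univ,
    Fintype.card_prod, ZMod.card, ← sq, hn2] at hcard
  have h5 := (Multiset.toFinset_card_le (Polynomial.nthRoots n (1 : AlgebraicClosure (ZMod q))))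
  have h6 := Polynomial.card_nthRoots n (1 : AlgebraicClosure (ZMod q))
  omega

/-- inert primes divide the modulus -/
lemma PF.three {B : ℤ} {F : GaussianInt} (h : PF B F) {q : ℕ} (hq : q ∈ SQ B)
    (h4 : q % 4 = 3) : (q : GaussianInt) ∣ F := by
  by_contra hn
  have hqp := (mem_SQ hq).1
  have hq2 := (mem_SQ hq).2.1
  have : Fact q.Prime := ⟨hqp⟩
  have hp : Prime (q : GaussianInt) := GaussianInt.prime_of_nat_prime_of_mod_four_eq_three q h4
  have hc : IsCoprime (q : GaussianInt) F := (Prime.coprime_iff_not_dvd hp).2 hn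
  obtain ⟨α0, h1, h3⟩ := exists_inert hq2 h4
  obtain ⟨α, h5, h6⟩ := crt (natCast_coprime (KQ_coprime hq)) α0 1
  rw [← qs_congr hq2 h5] at h1 h3
  have h11 := Phi_single hq h6 h1 h3
  apply h11.2
  apply h.2 α h11.1
  have h13 : F ∣ (q : GaussianInt) * (KQ B q : GaussianInt) := by
    have h14 := h.1
    rw [MQ_eq hq] at h14
    push_cast at h14
    exact h14
  exact (hc.symm.dvd_of_dvd_mul_left h13).trans h6

lemma PF.q_dvd {B : ℤ} {F : GaussianInt} (h : PF B F) {q : ℕ} (hq : q ∈ SQ B) :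
    (q : GaussianInt) ∣ F := by
  have hqp := (mem_SQ hq).1
  have hq2 := (mem_SQ hq).2.1
  have : Fact q.Prime := ⟨hqp⟩
  rcases q_mod hq2 with h4 | h4
  · obtain ⟨ϖ, hN, hP⟩ := A1.exists_pi h4
    have h1 := h.one hq hN hP
    have h3 := h.one hq (A1.star_norm.trans hN) (A1.prim_star hP)
    have hqq : (q : GaussianInt) = ϖ * star ϖ := p_eq hN
    rw [hqq]
    apply IsCoprime.mul_dvd _ h1 h3
    rw [Prime.coprime_iff_not_dvd (A1.prime_of_norm hN)]
    intro h1
    exact A1.pi_ne hN (A1.eq_of_dvd hP (A1.prim_star hP) A1.star_norm.symm h1)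
  · exact h.three hq h4

lemma PF.RQ_dvd {B : ℤ} {F : GaussianInt} (h : PF B F) : (RQ B : GaussianInt) ∣ F := by
  rw [RQ_eq]
  push_cast
  apply Finset.prod_dvd_of_coprime
  · intro a ha b hb hab
    exact natCast_coprime ((Nat.coprime_primes (mem_SQ ha).1 (mem_SQ hb).1).2 hab)
  · intro q hq
    exact h.q_dvd hq

lemma PF.prime_dvd {B : ℤ} {F : GaussianInt} (h : PF B F) {ϖ : GaussianInt} (hp : Prime ϖ)
    (hd : ϖ ∣ (MQ B : GaussianInt)) : ϖ ∣ F := by
  unfold MQ at hd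
  push_cast at hd
  rcases hp.dvd_or_dvd hd with h1 | h1
  · have h3 : (8 : GaussianInt) = (⟨1, 1⟩ : GaussianInt) ^ 6 * ⟨0, 1⟩ := by decide
    rw [h3] at h1
    rcases hp.dvd_or_dvd h1 with h5 | h5
    · exact (hp.dvd_of_dvd_pow h5).trans h.two
    · exfalso
      apply hp.not_isUnit
      exact isUnit_of_dvd_unit h5 (IsUnit.of_mul_eq_one (⟨0, -1⟩ : GaussianInt) (by decide))
  · exact h1.trans h.RQ_dvd

/-- The conductor `F` (with cofactor `G`): `Phi B` is periodic modulo `F`, and for each prime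
divisor `π` of `F` it is not constant on the units congruent to `1` modulo `F / π`. -/
theorem exists_FG (B : ℤ) : ∃ F G : GaussianInt, F * G = (MQ B : GaussianInt) ∧
    (RQ B : GaussianInt) ∣ F ∧ (∀ z w, F ∣ z - w → Phi B z = Phi B w) ∧
    ∀ ϖ : GaussianInt, Prime ϖ → ϖ ∣ (MQ B : GaussianInt) →
      ∃ α, Phi B α ≠ 0 ∧ Phi B α ≠ 1 ∧ (MQ B : GaussianInt) ∣ (α - 1) * (G * ϖ) := by
  obtain ⟨F, hF, hmin⟩ := exists_min B
  obtain ⟨G, hG⟩ := hF.1
  have hM0 : (MQ B : GaussianInt) ≠ 0 := by exact_mod_cast MQ_ne_zero B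
  have hF0 : F ≠ 0 := by
    rintro rfl
    rw [zero_mul] at hG
    exact hM0 hG
  refine ⟨F, G, hG.symm, hF.RQ_dvd, ?_, ?_⟩
  · -- periodicity
    have key : ∀ z w, F ∣ z - w → Phi B z ≠ 0 → Phi B w = Phi B z := by
      intro z w h hz
      have hzc := (Phi_ne_zero_iff' B z).1 hz
      have hwc : IsCoprime w (MQ B : GaussianInt) := by
        apply isCoprime_of_prime_dvd
        · rintro ⟨-, h0⟩
          exact hM0 h0
        · intro ϖ hp h1 h3
          have h5 : ϖ ∣ z - w := (hF.prime_dvd hp h3).trans h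
          have h6 : ϖ ∣ z := by
            have := dvd_add h5 h1
            rwa [sub_add_cancel] at this
          exact hp.not_isUnit (hzc.isUnit_of_dvd' h6 h3)
      have hw := (Phi_ne_zero_iff' B w).2 hwc
      obtain ⟨β, γ, hβ⟩ := hzc
      have h1 : Phi B β * Phi B z = 1 := by
        rw [← Phi_mul, ← Phi_one B]
        apply Phi_congr'
        exact ⟨-γ, by linear_combination hβ⟩
      have h3 : Phi B (β * w) = 1 := by
        apply hF.2
        · rw [Phi_mul]
          exact mul_ne_zero (left_ne_zero_of_mul_eq_one h1) hw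
        · obtain ⟨t, ht⟩ := h
          exact ⟨-β * t - G * γ, by linear_combination hβ - β * ht - γ * hG⟩
      rw [Phi_mul] at h3
      exact mul_left_cancel₀ (left_ne_zero_of_mul_eq_one h1) (by rw [h1, h3])
    intro z w h
    by_cases hz : Phi B z = 0
    · by_cases hw : Phi B w = 0
      · rw [hz, hw]
      · exact key w z (by rw [← neg_sub]; exact (dvd_neg).2 h) hw
    · exact (key z w h hz).symm
  · intro ϖ hp hd
    obtain ⟨F', hF'⟩ := hF.prime_dvd hp hd
    have h1 : ¬ PF B F' := by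
      intro h1
      have h3 := hmin F' h1
      rw [hF', Zsqrtd.norm_mul, Int.natAbs_mul] at h3
      have h5 : F'.norm.natAbs ≠ 0 := by
        intro h5
        have h6 : F' = 0 := by
          rw [Int.natAbs_eq_zero] at h5
          exact (Zsqrtd.norm_eq_zero_iff (by norm_num) _).1 h5
        exact hF0 (by rw [hF', h6, mul_zero])
      have h6 : 1 < ϖ.norm.natAbs := by
        have h7 : ϖ.norm.natAbs ≠ 0 := by
          intro h7
          rw [Int.natAbs_eq_zero] at h7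
          exact hp.ne_zero ((Zsqrtd.norm_eq_zero_iff (by norm_num) _).1 h7)
        have h8 : ϖ.norm.natAbs ≠ 1 := by
          intro h8
          apply hp.not_isUnit
          exact Zsqrtd.norm_eq_one_iff.1 h8
        omega
      nlinarith [Nat.pos_of_ne_zero h5]
    unfold PF at h1
    push Not at h1
    obtain ⟨α, h3, h5, h6⟩ := h1 (Dvd.dvd.trans ⟨ϖ, by rw [hF']; ring⟩ hF.1)
    refine ⟨α, h3, h6, ?_⟩
    obtain ⟨t, ht⟩ := h5
    exact ⟨t, by rw [hG, ht, hF']; ring⟩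

end QN
end P004
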