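import Vale.Agent.P004.H628.QN7
import Vale.Agent.P004.C1

/-!
# P004, the finite Fourier transform of the Hecke character
-/

namespace P004
namespace QN

open Finset
open P004G (cop RQ)

instance (B : ℤ) : NeZero (MQ B) := ⟨MQ_ne_zero B⟩

/-- the values as complex numbers -/
noncomputable def PhiC (B : ℤ) (z : GaussianInt) : ℂ := GaussianInt.toComplex (Phi B z)

/-- the periodic function attached to `Phi B` -/
noncomputable def fB (B : ℤ) (a b : ZMod (MQ B)) : ℂ := PhiC B ⟨(a.val : ℤ), (b.val : ℤ)⟩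

lemma fB_int (B : ℤ) (x y : ℤ) : fB B (x : ZMod (MQ B)) (y : ZMod (MQ B)) = PhiC B ⟨x, y⟩ := by
  unfold fB PhiC
  congr 1
  apply Phi_congr'
  have h1 : (MQ B : ℤ) ∣ (((x : ZMod (MQ B)).val : ℤ) - x) := by
    rw [← ZMod.intCast_zmod_eq_zero_iff_dvd]; simp
  have h2 : (MQ B : ℤ) ∣ (((y : ZMod (MQ B)).val : ℤ) - y) := by
    rw [← ZMod.intCast_zmod_eq_zero_iff_dvd]; simp
  obtain ⟨s, hs⟩ := h1
  obtain ⟨t, ht⟩ := h2
  refine ⟨⟨s, t⟩, ?_⟩
  apply Zsqrtd.ext
  · simpa using hs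
  · simpa using ht

/-- the pairing `Re (p w)` -/
noncomputable def lf (B : ℤ) (p : ZMod (MQ B) × ZMod (MQ B)) (w : GaussianInt) : ZMod (MQ B) :=
  p.1 * (w.re : ZMod (MQ B)) + p.2 * ((-w.im : ℤ) : ZMod (MQ B))

/-- the finite Fourier transform -/
noncomputable def hat (B : ℤ) (w : GaussianInt) : ℂ :=
  ∑ p : ZMod (MQ B) × ZMod (MQ B), fB B p.1 p.2 * ZMod.stdAddChar (lf B p w)

lemma hat_eq (B : ℤ) (w : GaussianInt) :
    hat B w = dft2 (MQ B) (fB B) (w.re : ZMod (MQ B)) ((-w.im : ℤ) : ZMod (MQ B)) := by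
  unfold hat dft2 dft1 lf
  rw [Fintype.sum_prod_type]
  apply sum_congr rfl
  intro a _
  rw [sum_mul]
  apply sum_congr rfl
  intro b _
  rw [AddChar.map_add_eq_mul]
  ring

lemma hat_congr (B : ℤ) {w w' : GaussianInt} (h : (MQ B : GaussianInt) ∣ w - w') :
    hat B w = hat B w' := by
  obtain ⟨t, ht⟩ := h
  have h1 := congrArg Zsqrtd.re ht
  have h2 := congrArg Zsqrtd.im ht
  simp at h1 h2
  have h3 : (w.re : ZMod (MQ B)) = (w'.re : ZMod (MQ B)) := by
    have := congrArg (Int.cast : ℤ → ZMod (MQ B)) h1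
    push_cast at this
    simp at this
    exact sub_eq_zero.1 this
  have h4 : ((-w.im : ℤ) : ZMod (MQ B)) = ((-w'.im : ℤ) : ZMod (MQ B)) := by
    have := congrArg (Int.cast : ℤ → ZMod (MQ B)) h2
    push_cast at this
    simp at this
    push_cast
    rw [sub_eq_zero.1 this]
  unfold hat lf
  rw [h3, h4]

/-- multiplication by `α` on pairs -/
def mu (M : ℕ) (α : GaussianInt) (p : ZMod M × ZMod M) : ZMod M × ZMod M :=
  ((α.re : ZMod M) * p.1 - (α.im : ZMod M) * p.2, (α.re : ZMod M) * p.2 + (α.im : ZMod M) * p.1)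

lemma mu_mu (M : ℕ) (α β : GaussianInt) (h : (M : GaussianInt) ∣ β * α - 1)
    (p : ZMod M × ZMod M) : mu M β (mu M α p) = p := by
  obtain ⟨t, ht⟩ := h
  have h1 := congrArg Zsqrtd.re ht
  have h2 := congrArg Zsqrtd.im ht
  simp at h1 h2
  have h3 := congrArg (Int.cast : ℤ → ZMod M) h1
  have h4 := congrArg (Int.cast : ℤ → ZMod M) h2
  push_cast at h3 h4
  simp at h3 h4
  unfold mu
  ext
  · simp only
    linear_combination p.1 * h3 - p.2 * h4
  · simp only
    linear_combination p.2 * h3 + p.1 * h4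

lemma fB_mu (B : ℤ) (α : GaussianInt) (p : ZMod (MQ B) × ZMod (MQ B)) :
    fB B (mu (MQ B) α p).1 (mu (MQ B) α p).2 = PhiC B α * fB B p.1 p.2 := by
  have h1 : (mu (MQ B) α p).1 =
      ((α.re * (p.1.val : ℤ) - α.im * (p.2.val : ℤ) : ℤ) : ZMod (MQ B)) := by
    unfold mu; push_cast; simp
  have h2 : (mu (MQ B) α p).2 =
      ((α.re * (p.2.val : ℤ) + α.im * (p.1.val : ℤ) : ℤ) : ZMod (MQ B)) := by
    unfold mu; push_cast; simp
  rw [h1, h2, fB_int]
  unfold fB PhiC
  rw [← map_mul, ← Phi_mul]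
  congr 2
  apply Zsqrtd.ext
  · simp; ring
  · simp

lemma lf_mu (B : ℤ) (α w : GaussianInt) (p : ZMod (MQ B) × ZMod (MQ B)) :
    lf B (mu (MQ B) α p) w = lf B p (α * w) := by
  unfold lf mu
  simp
  ring

lemma PhiC_mul_conj (B : ℤ) {α : GaussianInt} (h : Phi B α ≠ 0) :
    PhiC B α * (starRingEnd ℂ) (PhiC B α) = 1 := by
  unfold PhiC
  rw [← GaussianInt.toComplex_star, ← map_mul, Phi_mul_star B h, map_one]

/-- the transform at `α w` -/
lemma hat_mul (B : ℤ) {α : GaussianInt} (h : Phi B α ≠ 0) (w : GaussianInt) :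
    hat B (α * w) = (starRingEnd ℂ) (PhiC B α) * hat B w := by
  obtain ⟨u, v, huv⟩ := (Phi_ne_zero_iff' B α).1 h
  have h1 : (MQ B : GaussianInt) ∣ u * α - 1 := ⟨-v, by linear_combination huv⟩
  have h2 : (MQ B : GaussianInt) ∣ α * u - 1 := ⟨-v, by linear_combination huv⟩
  let e : ZMod (MQ B) × ZMod (MQ B) ≃ ZMod (MQ B) × ZMod (MQ B) :=
    ⟨mu (MQ B) α, mu (MQ B) u, mu_mu _ α u h1, mu_mu _ u α h2⟩
  have h3 : hat B w = PhiC B α * hat B (α * w) := by
    unfold hat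
    rw [← Equiv.sum_comp e, mul_sum]
    apply sum_congr rfl
    intro p _
    have h5 : e p = mu (MQ B) α p := rfl
    rw [h5, fB_mu, lf_mu, mul_assoc]
  rw [h3, ← mul_assoc, mul_comm ((starRingEnd ℂ) (PhiC B α)), PhiC_mul_conj B h, one_mul]

/-- the shift -/
lemma hat_shift (B : ℤ) {s : GaussianInt} (h : ∀ z, Phi B (z + s) = Phi B z) (w : GaussianInt) :
    hat B w = ZMod.stdAddChar (((s * w).re : ℤ) : ZMod (MQ B)) * hat B w := by
  have h1 : hat B w = ∑ p : ZMod (MQ B) × ZMod (MQ B),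
      ZMod.stdAddChar (((s * w).re : ℤ) : ZMod (MQ B)) *
        (fB B p.1 p.2 * ZMod.stdAddChar (lf B p w)) := by
    conv_lhs => unfold hat
    rw [← Equiv.sum_comp (Equiv.addRight (((s.re : ℤ) : ZMod (MQ B)), ((s.im : ℤ) : ZMod (MQ B))))]
    apply sum_congr rfl
    intro p _
    rw [Equiv.coe_addRight]
    have h3 : fB B (p + (((s.re : ℤ) : ZMod (MQ B)), ((s.im : ℤ) : ZMod (MQ B)))).1
        (p + (((s.re : ℤ) : ZMod (MQ B)), ((s.im : ℤ) : ZMod (MQ B)))).2 = fB B p.1 p.2 := by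
      have h5 : (p + (((s.re : ℤ) : ZMod (MQ B)), ((s.im : ℤ) : ZMod (MQ B)))).1 =
          (((p.1.val : ℤ) + s.re : ℤ) : ZMod (MQ B)) := by push_cast; simp
      have h6 : (p + (((s.re : ℤ) : ZMod (MQ B)), ((s.im : ℤ) : ZMod (MQ B)))).2 =
          (((p.2.val : ℤ) + s.im : ℤ) : ZMod (MQ B)) := by push_cast; simp
      rw [h5, h6, fB_int]
      unfold fB PhiC
      congr 1
      rw [← h ⟨(p.1.val : ℤ), (p.2.val : ℤ)⟩]
      rfl
    have h4 : lf B (p + (((s.re : ℤ) : ZMod (MQ B)), ((s.im : ℤ) : ZMod (MQ B)))) w =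
        (((s * w).re : ℤ) : ZMod (MQ B)) + lf B p w := by
      unfold lf
      simp
      ring
    rw [h3, h4, AddChar.map_add_eq_mul]
    ring
  rw [← mul_sum] at h1
  exact h1

/-- the transform is supported on the multiples of `G`, and it is `conj Phi` there -/
theorem hat_main (B : ℤ) {F G : GaussianInt} (hFG : F * G = (MQ B : GaussianInt))
    (hper : ∀ z w, F ∣ z - w → Phi B z = Phi B w)
    (hprim : ∀ ϖ : GaussianInt, Prime ϖ → ϖ ∣ (MQ B : GaussianInt) →
      ∃ α, Phi B α ≠ 0 ∧ Phi B α ≠ 1 ∧ (MQ B : GaussianInt) ∣ (α - 1) * (G * ϖ)) :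
    (∀ w, ¬ G ∣ w → hat B w = 0) ∧
      ∀ w, hat B (G * w) = (starRingEnd ℂ) (PhiC B w) * hat B G := by
  have hM0 : (MQ B : GaussianInt) ≠ 0 := by exact_mod_cast MQ_ne_zero B
  constructor
  · intro w hw
    by_contra h0
    have h1 : ∀ t : GaussianInt, (MQ B : ℤ) ∣ (F * t * w).re := by
      intro t
      have h3 := hat_shift B (s := F * t) (fun z => hper _ _ ⟨t, by ring⟩) w
      have h5 : ZMod.stdAddChar (((F * t * w).re : ℤ) : ZMod (MQ B)) = 1 := by
        apply mul_right_cancel₀ h0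
        rw [one_mul, ← h3]
      have h6 : (((F * t * w).re : ℤ) : ZMod (MQ B)) = 0 := by
        apply ZMod.injective_stdAddChar
        rw [h5]; simp
      rwa [ZMod.intCast_zmod_eq_zero_iff_dvd] at h6
    have h2 := h1 1
    have h3 := h1 ⟨0, 1⟩
    rw [mul_one] at h2
    have h4 : (F * ⟨0, 1⟩ * w).re = -(F * w).im := by
      simp
    rw [h4, dvd_neg] at h3
    apply hw
    have hF0 : F ≠ 0 := by
      rintro rfl
      rw [zero_mul] at hFG
      exact hM0 hFG.symm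
    obtain ⟨a, ha⟩ := h2
    obtain ⟨b, hb⟩ := h3
    refine ⟨⟨a, b⟩, ?_⟩
    apply mul_left_cancel₀ hF0
    rw [← mul_assoc, hFG]
    apply Zsqrtd.ext
    · rw [ha]; simp
    · rw [hb]; simp
  · intro w
    by_cases hw : Phi B w = 0
    · have h1 : PhiC B w = 0 := by unfold PhiC; rw [hw, map_zero]
      rw [h1, map_zero, zero_mul]
      have h3 : ¬ IsCoprime w (MQ B : GaussianInt) := fun h => (Phi_ne_zero_iff' B w).2 h hw
      obtain ⟨ϖ, hp, hd1, hd2⟩ : ∃ ϖ, Prime ϖ ∧ ϖ ∣ w ∧ ϖ ∣ (MQ B : GaussianInt) := by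
        by_contra hcon
        push Not at hcon
        apply h3
        apply isCoprime_of_prime_dvd
        · rintro ⟨-, h0⟩
          exact hM0 h0
        · intro ϖ hp h1 h5
          exact hcon ϖ hp h1 h5
      obtain ⟨α, h5, h6, h7⟩ := hprim ϖ hp hd2
      obtain ⟨t, ht⟩ := hd1
      have h8 : hat B (α * (G * w)) = hat B (G * w) := by
        apply hat_congr
        obtain ⟨s, hs⟩ := h7
        exact ⟨s * t, by rw [ht]; linear_combination t * hs⟩
      rw [hat_mul B h5] at h8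
      by_contra h9
      have h10 : (starRingEnd ℂ) (PhiC B α) = 1 :=
        mul_right_cancel₀ h9 (by rw [one_mul]; exact h8)
      have h11 : PhiC B α = 1 := by
        have := congrArg (starRingEnd ℂ) h10
        simpa using this
      apply h6
      have h12 : GaussianInt.toComplex (Phi B α - 1) = 0 := by
        rw [map_sub, map_one]
        unfold PhiC at h11
        rw [h11, sub_self]
      exact sub_eq_zero.1 (GaussianInt.toComplex_eq_zero.1 h12)
    · rw [mul_comm, hat_mul B hw]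

end QN
end P004
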