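import Vale.Agent.P004.H628.QN8

/-!
# P004, the functional equation for every `y² = x³ - B x`
-/

open Real MeasureTheory Set

namespace P004
namespace QN

open P004G (cop RQ TH FEq)

/-- the Gaussian -/
noncomputable def EE (t : ℝ) (z : GaussianInt) : ℂ := ((Real.exp (-π * (z.norm : ℝ) * t) : ℝ) : ℂ)

/-- pairs of integers and Gaussian integers -/
def eG : ℤ × ℤ ≃ GaussianInt where
  toFun := fun p => ⟨p.1, p.2⟩
  invFun := fun z => (z.re, z.im)
  left_inv := fun _ => rfl
  right_inv := fun _ => rfl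

/-- pairs of integers and Gaussian integers, conjugated -/
def eG' : ℤ × ℤ ≃ GaussianInt where
  toFun := fun p => ⟨p.1, -p.2⟩
  invFun := fun z => (z.re, -z.im)
  left_inv := fun p => by simp
  right_inv := fun z => by apply Zsqrtd.ext <;> simp

/-- multiplication by `i` -/
def rot : GaussianInt ≃ GaussianInt where
  toFun := fun z => ii * z
  invFun := fun z => -ii * z
  left_inv := fun z => by
    have : -ii * (ii * z) = -(ii * ii) * z := by ring
    change -ii * (ii * z) = z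
    rw [this, ii_sq]; ring
  right_inv := fun z => by
    have : ii * (-ii * z) = -(ii * ii) * z := by ring
    change ii * (-ii * z) = z
    rw [this, ii_sq]; ring

lemma EE_pair (t : ℝ) (x y : ℤ) :
    ((((x : ℝ) * Real.exp (-π * ((x : ℝ) ^ 2 + (y : ℝ) ^ 2) * t) : ℝ)) : ℂ) =
      ((x : ℤ) : ℂ) * EE t ⟨x, y⟩ := by
  unfold EE
  rw [A1.norm_eq]
  push_cast
  rfl

lemma norm_ii_mul (z : GaussianInt) : (ii * z).norm = z.norm := by
  rw [Zsqrtd.norm_mul]
  have : ii.norm = 1 := by decide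
  rw [this, one_mul]

lemma EE_rot (t : ℝ) (z : GaussianInt) : EE t (ii * z) = EE t z := by
  unfold EE; rw [norm_ii_mul]

lemma re_rot (z : GaussianInt) : (ii * z).re = -z.im := by
  rw [Zsqrtd.re_mul]; simp [ii]

lemma im_rot (z : GaussianInt) : (ii * z).im = z.re := by
  rw [Zsqrtd.im_mul]; simp [ii]

lemma summable_re {t : ℝ} (ht : 0 < t) (c : GaussianInt → ℂ) (K : ℝ) (hc : ∀ z, ‖c z‖ ≤ K) :
    Summable (fun z : GaussianInt => c z * (((z.re : ℤ) : ℂ) * EE t z)) := by
  rw [← eG.summable_iff]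
  refine (summable_two ht (fun p => c (eG p)) K (fun p => hc _)).congr ?_
  intro p
  rw [EE_pair]
  rfl

lemma summable_im {t : ℝ} (ht : 0 < t) (c : GaussianInt → ℂ) (K : ℝ) (hc : ∀ z, ‖c z‖ ≤ K) :
    Summable (fun z : GaussianInt => c z * (((z.im : ℤ) : ℂ) * EE t z)) := by
  rw [← rot.summable_iff]
  refine (summable_re ht (fun z => c (rot z)) K (fun p => hc _)).congr ?_
  intro z
  have h1 : rot z = ii * z := rfl
  simp only [Function.comp_apply]
  rw [h1, EE_rot, im_rot]

/-- the sum with `Re z` -/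
noncomputable def SX (c : GaussianInt → ℂ) (t : ℝ) : ℂ :=
  ∑' z : GaussianInt, c z * (((z.re : ℤ) : ℂ) * EE t z)

/-- the sum with `Im z` -/
noncomputable def SY (c : GaussianInt → ℂ) (t : ℝ) : ℂ :=
  ∑' z : GaussianInt, c z * (((z.im : ℤ) : ℂ) * EE t z)

lemma SY_eq {c : GaussianInt → ℂ} {k : ℂ} (h : ∀ z, c (ii * z) = k * c z) (t : ℝ) :
    SY c t = k * SX c t := by
  unfold SY SX
  rw [← rot.tsum_eq, ← tsum_mul_left]
  refine tsum_congr fun z => ?_
  have h1 : rot z = ii * z := rfl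
  rw [h1, EE_rot, im_rot, h]
  ring

lemma PhiC_rot (B : ℤ) (z : GaussianInt) : PhiC B (ii * z) = -Complex.I * PhiC B z := by
  unfold PhiC
  rw [Phi_mul, Phi_ii, map_mul]
  congr 1
  simp [ii, GaussianInt.toComplex_def]

lemma norm_toComplex_le {z : GaussianInt} (h : Is4 z) : ‖GaussianInt.toComplex z‖ ≤ 1 := by
  rcases h with rfl | rfl | rfl | rfl | rfl
  · simp
  · simp
  · simp [ii, GaussianInt.toComplex_def]
  · simp
  · simp [ii, GaussianInt.toComplex_def]

lemma norm_PhiC_le (B : ℤ) (z : GaussianInt) : ‖PhiC B z‖ ≤ 1 := norm_toComplex_le (Phi_is4 B z)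

/-- the bounded transform -/
lemma norm_hat_le (B : ℤ) : ∃ K : ℝ, ∀ w, ‖hat B w‖ ≤ K := by
  obtain ⟨K, hK⟩ := bdd_two (dft2 (MQ B) (fB B))
  exact ⟨K, fun w => by rw [hat_eq]; exact hK _ _⟩

/-- Poisson summation -/
lemma SX_poisson (B : ℤ) {u : ℝ} (hu : 0 < u) :
    SX (PhiC B) u = (-Complex.I / ((MQ B : ℝ) ^ 3 * u ^ 2 : ℝ) : ℂ) *
      SX (hat B) (1 / ((MQ B : ℝ) ^ 2 * u)) := by
  have h := poisson2 (MQ B) (fB B) hu
  have h1 : SX (PhiC B) u = ∑' p : ℤ × ℤ, fB B p.1 p.2 *
      (((p.1 : ℝ) * Real.exp (-π * ((p.1 : ℝ) ^ 2 + (p.2 : ℝ) ^ 2) * u) : ℝ) : ℂ) := by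
    unfold SX
    rw [← eG.tsum_eq]
    refine tsum_congr fun p => ?_
    rw [EE_pair, fB_int]
    rfl
  have h3 : SX (hat B) (1 / ((MQ B : ℝ) ^ 2 * u)) = ∑' p : ℤ × ℤ, dft2 (MQ B) (fB B) p.1 p.2 *
      (((p.1 : ℝ) * Real.exp (-π * ((p.1 : ℝ) ^ 2 + (p.2 : ℝ) ^ 2) *
        (1 / ((MQ B : ℝ) ^ 2 * u))) : ℝ) : ℂ) := by
    unfold SX
    rw [← eG'.tsum_eq]
    refine tsum_congr fun p => ?_
    rw [EE_pair, hat_eq]
    have h5 : eG' p = ⟨p.1, -p.2⟩ := rfl
    rw [h5]
    have h6 : EE (1 / ((MQ B : ℝ) ^ 2 * u)) ⟨p.1, -p.2⟩ =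
        EE (1 / ((MQ B : ℝ) ^ 2 * u)) ⟨p.1, p.2⟩ := by
      unfold EE
      rw [A1.norm_eq, A1.norm_eq]
      simp
    rw [h6]
    simp
  rw [h1, h3, h]

/-- restriction to the multiples of `G` -/
lemma SX_hat (B : ℤ) {F G : GaussianInt} (hFG : F * G = (MQ B : GaussianInt))
    (hsupp : ∀ w, ¬ G ∣ w → hat B w = 0)
    (hval : ∀ w, hat B (G * w) = (starRingEnd ℂ) (PhiC B w) * hat B G) {t : ℝ} (ht : 0 < t) :
    SX (hat B) t = hat B G * (((G.re : ℤ) : ℂ) - Complex.I * ((G.im : ℤ) : ℂ)) *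
      SX (fun z => (starRingEnd ℂ) (PhiC B z)) ((G.norm : ℝ) * t) := by
  have hM0 : (MQ B : GaussianInt) ≠ 0 := by exact_mod_cast MQ_ne_zero B
  have hG0 : G ≠ 0 := by
    rintro rfl
    rw [mul_zero] at hFG
    exact hM0 hFG.symm
  have hGn : 0 < (G.norm : ℝ) := by
    have h1 := GaussianInt.norm_pos.2 hG0
    exact_mod_cast h1
  have hinj : Function.Injective (fun w : GaussianInt => G * w) := fun a b h =>
    mul_left_cancel₀ hG0 h
  have h1 : SX (hat B) t = ∑' w : GaussianInt,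
      hat B (G * w) * ((((G * w).re : ℤ) : ℂ) * EE t (G * w)) := by
    unfold SX
    symm
    apply hinj.tsum_eq (f := fun z : GaussianInt => hat B z * (((z.re : ℤ) : ℂ) * EE t z))
    intro z hz
    by_contra h
    apply hz
    simp only
    rw [hsupp z, zero_mul]
    rintro ⟨w, rfl⟩
    exact h ⟨w, rfl⟩
  have hE : ∀ w, EE t (G * w) = EE ((G.norm : ℝ) * t) w := by
    intro w
    unfold EE
    rw [Zsqrtd.norm_mul]
    push_cast
    congr 1
    ring
  have hs1 := summable_re (t := (G.norm : ℝ) * t) (by positivity)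
    (fun z => (starRingEnd ℂ) (PhiC B z)) 1 (fun z => by
      rw [RCLike.norm_conj]; exact norm_PhiC_le B z)
  have hs2 := summable_im (t := (G.norm : ℝ) * t) (by positivity)
    (fun z => (starRingEnd ℂ) (PhiC B z)) 1 (fun z => by
      rw [RCLike.norm_conj]; exact norm_PhiC_le B z)
  have h2 : ∑' w : GaussianInt, hat B (G * w) * ((((G * w).re : ℤ) : ℂ) * EE t (G * w)) =
      hat B G * (((G.re : ℤ) : ℂ) * SX (fun z => (starRingEnd ℂ) (PhiC B z)) ((G.norm : ℝ) * t) -
        ((G.im : ℤ) : ℂ) * SY (fun z => (starRingEnd ℂ) (PhiC B z)) ((G.norm : ℝ) * t)) := by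
    unfold SX SY
    rw [← tsum_mul_left, ← tsum_mul_left, ← (hs1.mul_left _).tsum_sub (hs2.mul_left _),
      ← tsum_mul_left]
    refine tsum_congr fun w => ?_
    rw [hval, hE, Zsqrtd.re_mul]
    push_cast
    ring
  have h3 : SY (fun z => (starRingEnd ℂ) (PhiC B z)) ((G.norm : ℝ) * t) =
      Complex.I * SX (fun z => (starRingEnd ℂ) (PhiC B z)) ((G.norm : ℝ) * t) := by
    apply SY_eq
    intro z
    rw [PhiC_rot, map_mul]
    simp
  rw [h1, h2, h3]
  ring

/-! ### the theta series -/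

open scoped Classical in
/-- the sum over the primary elements -/
lemma hasSum_prim (B : ℤ) {u : ℝ} (hu : 0 < u) :
    HasSum (fun n : ℕ => (((AQ B n : ℝ) * Real.exp (-π * n * u) : ℝ) : ℂ))
      (∑' z : GaussianInt, (if A1.Prim z then 1 else 0) *
        (PhiC B z * GaussianInt.toComplex z * EE u z)) := by
  have hs : Summable (fun z : GaussianInt => (if A1.Prim z then 1 else 0) *
        (PhiC B z * GaussianInt.toComplex z * EE u z)) := by
    have h1 := summable_re hu (fun z => (if A1.Prim z then 1 else 0) * PhiC B z) 1 (fun z => by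
      split_ifs
      · rw [one_mul]; exact norm_PhiC_le B z
      · simp)
    have h2 := summable_im hu (fun z => (if A1.Prim z then 1 else 0) * PhiC B z) 1 (fun z => by
      split_ifs
      · rw [one_mul]; exact norm_PhiC_le B z
      · simp)
    refine (h1.add (h2.mul_left Complex.I)).congr ?_
    intro z
    rw [GaussianInt.toComplex_def]
    ring
  have h1 := hs.hasSum.tsum_fiberwise (fun z : GaussianInt => z.norm.natAbs)
  refine h1.congr_fun ?_
  intro n
  rw [tsum_subtype ((fun z : GaussianInt => z.norm.natAbs) ⁻¹' {n})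
    (fun z : GaussianInt => (if A1.Prim z then 1 else 0) *
        (PhiC B z * GaussianInt.toComplex z * EE u z))]
  rw [tsum_eq_sum (s := A1.PA n)]
  · have h2 : ∀ z ∈ A1.PA n, ((fun z : GaussianInt => z.norm.natAbs) ⁻¹' {n}).indicator
        (fun z : GaussianInt => (if A1.Prim z then 1 else 0) *
        (PhiC B z * GaussianInt.toComplex z * EE u z)) z =
        GaussianInt.toComplex (Phi B z * z) * ((Real.exp (-π * n * u) : ℝ) : ℂ) := by
      intro z hz
      rw [A1.mem_PA] at hz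
      have h3 : z ∈ (fun z : GaussianInt => z.norm.natAbs) ⁻¹' {n} := by
        simp [hz.1]
      rw [Set.indicator_of_mem h3, if_pos hz.2, one_mul, map_mul]
      unfold PhiC EE
      rw [hz.1]
      push_cast
      rfl
    rw [Finset.sum_congr rfl h2, ← Finset.sum_mul, ← map_sum, sum_AQ]
    push_cast
    simp
  · intro z hz
    by_cases h3 : z ∈ (fun z : GaussianInt => z.norm.natAbs) ⁻¹' {n}
    · rw [Set.indicator_of_mem h3, if_neg, zero_mul]
      intro h4
      apply hz
      rw [A1.mem_PA]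
      refine ⟨?_, h4⟩
      simp only [Set.mem_preimage, Set.mem_singleton_iff] at h3
      rw [← h3, Int.natAbs_of_nonneg (GaussianInt.norm_nonneg z)]
    · rw [Set.indicator_of_notMem h3]

open scoped Classical in
/-- the number of rotations which are primary -/
lemma prim_rot (z : GaussianInt) (hz : z.norm % 2 = 1) :
    ((if A1.Prim z then 1 else 0) + (if A1.Prim (ii * z) then 1 else 0) +
      (if A1.Prim (ii * (ii * z)) then 1 else 0) +
      (if A1.Prim (ii * (ii * (ii * z))) then 1 else 0) : ℂ) = 1 := by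
  classical
  have e1 : (ii * z).re = -z.im := re_rot z
  have e2 : (ii * z).im = z.re := im_rot z
  have e3 : (ii * (ii * z)).re = -z.re := by rw [re_rot, im_rot]
  have e4 : (ii * (ii * z)).im = -z.im := by rw [im_rot, re_rot]
  have e5 : (ii * (ii * (ii * z))).re = z.im := by rw [re_rot, im_rot, re_rot]; ring
  have e6 : (ii * (ii * (ii * z))).im = -z.re := by rw [im_rot, re_rot, im_rot]
  have hpar : (z.re + z.im) % 2 = 1 := by
    rw [A1.norm_eq] at hz
    rcases Int.even_or_odd' z.re with ⟨a, ha | ha⟩ <;> rcases Int.even_or_odd' z.im with ⟨b, hb | hb⟩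
    · have : z.re ^ 2 + z.im ^ 2 = 2 * (2 * a ^ 2 + 2 * b ^ 2) := by rw [ha, hb]; ring
      omega
    · omega
    · omega
    · have : z.re ^ 2 + z.im ^ 2 = 2 * (2 * a ^ 2 + 2 * b ^ 2 + 2 * a + 2 * b + 1) := by
        rw [ha, hb]; ring
      omega
  unfold A1.Prim
  rw [e1, e2, e3, e4, e5, e6]
  have h1 : z.im % 2 = 0 ∧ (z.re + z.im) % 4 = 1 ∨ z.im % 2 = 0 ∧ (z.re + z.im) % 4 = 3 ∨
      z.re % 2 = 0 ∧ (z.im - z.re) % 4 = 3 ∨ z.re % 2 = 0 ∧ (z.im - z.re) % 4 = 1 := by omega
  rcases h1 with h1 | h1 | h1 | h1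
  · rw [if_pos (by omega), if_neg (by omega), if_neg (by omega), if_neg (by omega)]; norm_num
  · rw [if_neg (by omega), if_neg (by omega), if_pos (by omega), if_neg (by omega)]; norm_num
  · rw [if_neg (by omega), if_pos (by omega), if_neg (by omega), if_neg (by omega)]; norm_num
  · rw [if_neg (by omega), if_neg (by omega), if_neg (by omega), if_pos (by omega)]; norm_num

/-- the theta series as a lattice sum -/
lemma TH_eq (B : ℤ) {u : ℝ} (hu : 0 < u) : ((TH (AQ B) u : ℝ) : ℂ) = 2 * SX (PhiC B) u := by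
  classical
  have h1 := (hasSum_prim B hu).tsum_eq
  set H : GaussianInt → ℂ := fun z => PhiC B z * GaussianInt.toComplex z * EE u z with hH
  set P : GaussianInt → ℂ := fun z => if A1.Prim z then 1 else 0 with hP
  have hs : ∀ c : GaussianInt → ℂ, (∀ z, ‖c z‖ ≤ 1) → Summable (fun z => c z * H z) := by
    intro c hc
    have h1 := summable_re hu (fun z => c z * PhiC B z) 1 (fun z => by
      rw [norm_mul]
      exact mul_le_one₀ (hc z) (norm_nonneg _) (norm_PhiC_le B z))
    have h2 := summable_im hu (fun z => c z * PhiC B z) 1 (fun z => by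
      rw [norm_mul]
      exact mul_le_one₀ (hc z) (norm_nonneg _) (norm_PhiC_le B z))
    refine (h1.add (h2.mul_left Complex.I)).congr ?_
    intro z
    simp only [hH]
    rw [GaussianInt.toComplex_def]
    ring
  have hPb : ∀ z, ‖P z‖ ≤ 1 := by
    intro z
    simp only [hP]
    split_ifs <;> simp
  have hrot : ∀ z, H (ii * z) = H z := by
    intro z
    simp only [hH]
    rw [PhiC_rot, EE_rot, map_mul]
    have : GaussianInt.toComplex ii = Complex.I := by simp [ii, GaussianInt.toComplex_def]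
    rw [this]
    linear_combination (-PhiC B z * GaussianInt.toComplex z * EE u z) * Complex.I_sq
  -- the four rotations
  have hr : ∀ c : GaussianInt → ℂ, ∑' z, c (ii * z) * H z = ∑' z, c z * H z := by
    intro c
    rw [← rot.tsum_eq (fun z => c z * H z)]
    refine tsum_congr fun z => ?_
    have h5 : rot z = ii * z := rfl
    rw [h5, hrot]
  have h2 : ∑' z, H z = 4 * ∑' z, P z * H z := by
    have e1 : ∑' z, P (ii * z) * H z = ∑' z, P z * H z := hr P
    have e2 : ∑' z, P (ii * (ii * z)) * H z = ∑' z, P z * H z := by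
      rw [← e1, ← hr (fun z => P (ii * z))]
    have e3 : ∑' z, P (ii * (ii * (ii * z))) * H z = ∑' z, P z * H z := by
      rw [← e2, ← hr (fun z => P (ii * (ii * z)))]
    have s0 := hs P hPb
    have s1 := hs (fun z => P (ii * z)) (fun z => hPb _)
    have s2 := hs (fun z => P (ii * (ii * z))) (fun z => hPb _)
    have s3 := hs (fun z => P (ii * (ii * (ii * z)))) (fun z => hPb _)
    have e4 : ∑' z, H z = ∑' z, (P z * H z + P (ii * z) * H z + P (ii * (ii * z)) * H z +
        P (ii * (ii * (ii * z))) * H z) := by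
      refine tsum_congr fun z => ?_
      by_cases hz : z.norm % 2 = 1
      · have h5 := prim_rot z hz
        simp only [hP]
        linear_combination (-(H z)) * h5
      · have h6 : H z = 0 := by
          simp only [hH]
          have h7 : Phi B z = 0 := by unfold Phi; rw [pu_zero hz, zero_mul]
          unfold PhiC
          rw [h7]; simp
        rw [h6]; ring
    rw [e4, ((s0.add s1).add s2).tsum_add s3, (s0.add s1).tsum_add s2, s0.tsum_add s1, e1, e2, e3]
    ring
  have h3 : ∑' z, H z = SX (PhiC B) u + Complex.I * SY (PhiC B) u := by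
    unfold SX SY
    rw [← tsum_mul_left, ← (summable_re hu (PhiC B) 1 (norm_PhiC_le B)).tsum_add
      ((summable_im hu (PhiC B) 1 (norm_PhiC_le B)).mul_left _)]
    refine tsum_congr fun z => ?_
    simp only [hH]
    rw [GaussianInt.toComplex_def]
    ring
  have h4 : SY (PhiC B) u = -Complex.I * SX (PhiC B) u := SY_eq (PhiC_rot B) u
  unfold TH
  rw [Complex.ofReal_mul, Complex.ofReal_tsum, h1]
  have h5 : ∑' z, (if A1.Prim z then 1 else 0) *
      (PhiC B z * GaussianInt.toComplex z * EE u z) = ∑' z, P z * H z := rfl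
  rw [h5]
  push_cast
  rw [← h2, h3, h4]
  linear_combination (-SX (PhiC B) u) * Complex.I_sq

lemma conj_EE (t : ℝ) (z : GaussianInt) : (starRingEnd ℂ) (EE t z) = EE t z := by
  unfold EE; exact Complex.conj_ofReal _

/-- the functional equation with a complex constant -/
lemma TH_fe (B : ℤ) : ∃ (q : ℝ) (c : ℂ), 0 < q ∧ (RQ B : ℝ) ≤ √q ∧ √q ≤ 8 * (RQ B : ℝ) ∧
    ∀ u : ℝ, 0 < u → ((TH (AQ B) u : ℝ) : ℂ) = c / (u : ℂ) ^ 2 * ((TH (AQ B) (1 / (q * u)) : ℝ) : ℂ) := by
  obtain ⟨F, G, hFG, hR, hper, hprim⟩ := exists_FG B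
  obtain ⟨hsupp, hval⟩ := hat_main B hFG hper hprim
  have hM0 : (MQ B : GaussianInt) ≠ 0 := by exact_mod_cast MQ_ne_zero B
  have hF0 : F ≠ 0 := by
    rintro rfl
    rw [zero_mul] at hFG
    exact hM0 hFG.symm
  have hG0 : G ≠ 0 := by
    rintro rfl
    rw [mul_zero] at hFG
    exact hM0 hFG.symm
  have hFn : 0 < F.norm := GaussianInt.norm_pos.2 hF0
  have hGn : 0 < G.norm := GaussianInt.norm_pos.2 hG0
  have hnorm : F.norm * G.norm = (MQ B : ℤ) ^ 2 := by
    rw [← Zsqrtd.norm_mul, hFG, Zsqrtd.norm_natCast]; ring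
  have hnormR : (F.norm : ℝ) * (G.norm : ℝ) = (MQ B : ℝ) ^ 2 := by exact_mod_cast hnorm
  have hFR : (0 : ℝ) < (F.norm : ℝ) := by exact_mod_cast hFn
  have hGR : (0 : ℝ) < (G.norm : ℝ) := by exact_mod_cast hGn
  have hMR : (0 : ℝ) < (MQ B : ℝ) := by
    have := Nat.pos_of_ne_zero (MQ_ne_zero B)
    exact_mod_cast this
  refine ⟨(F.norm : ℝ), -Complex.I / ((MQ B : ℝ) ^ 3 : ℝ) *
    (hat B G * (((G.re : ℤ) : ℂ) - Complex.I * ((G.im : ℤ) : ℂ))), hFR, ?_, ?_, ?_⟩
  · -- lower bound
    apply Real.le_sqrt_of_sq_le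
    obtain ⟨t, ht⟩ := hR
    have h1 : F.norm = (RQ B : ℤ) ^ 2 * t.norm := by
      rw [ht, Zsqrtd.norm_mul, Zsqrtd.norm_natCast]; ring
    have h3 : t ≠ 0 := by
      rintro rfl
      rw [mul_zero] at ht
      exact hF0 ht
    have h5 : 1 ≤ t.norm := GaussianInt.norm_pos.2 h3
    have h6 : (RQ B : ℤ) ^ 2 ≤ F.norm := by rw [h1]; nlinarith [sq_nonneg (RQ B : ℤ)]
    exact_mod_cast h6
  · -- upper bound
    rw [Real.sqrt_le_left (by positivity)]
    have h1 : (F.norm : ℝ) ≤ (MQ B : ℝ) ^ 2 := by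
      rw [← hnormR]
      have : (1 : ℝ) ≤ (G.norm : ℝ) := by exact_mod_cast hGn
      nlinarith
    refine h1.trans (le_of_eq ?_)
    unfold MQ
    push_cast
    ring
  · intro u hu
    have ht : 0 < 1 / ((MQ B : ℝ) ^ 2 * u) := by positivity
    have hq : 0 < 1 / ((F.norm : ℝ) * u) := by positivity
    have e0 : (G.norm : ℝ) * (1 / ((MQ B : ℝ) ^ 2 * u)) = 1 / ((F.norm : ℝ) * u) := by
      rw [← hnormR]
      field_simp
    have e1 := SX_poisson B hu
    rw [SX_hat B hFG hsupp hval ht, e0] at e1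
    have e2 : SX (fun z => (starRingEnd ℂ) (PhiC B z)) (1 / ((F.norm : ℝ) * u)) =
        SX (PhiC B) (1 / ((F.norm : ℝ) * u)) := by
      have h1 : SX (fun z => (starRingEnd ℂ) (PhiC B z)) (1 / ((F.norm : ℝ) * u)) =
          (starRingEnd ℂ) (SX (PhiC B) (1 / ((F.norm : ℝ) * u))) := by
        unfold SX
        rw [Complex.conj_tsum]
        refine tsum_congr fun z => ?_
        rw [map_mul, map_mul, conj_EE]
        simp
      have h3 := TH_eq B hq
      have h5 : SX (PhiC B) (1 / ((F.norm : ℝ) * u)) =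
          (((TH (AQ B) (1 / ((F.norm : ℝ) * u)) / 2 : ℝ)) : ℂ) := by
        push_cast
        rw [h3]; ring
      rw [h1, h5, Complex.conj_ofReal]
    rw [e2] at e1
    rw [TH_eq B hu, TH_eq B hq, e1]
    have hu' : (u : ℂ) ≠ 0 := by exact_mod_cast hu.ne'
    have hM' : ((MQ B : ℕ) : ℂ) ≠ 0 := by exact_mod_cast MQ_ne_zero B
    push_cast
    field_simp

end QN
end P004
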