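import Vale.Agent.P004.H628.QN10
import Vale.Agent.P004.C3

/-!
# P004, root numbers of the twists of `y² = x³ - B x`
-/

open Real MeasureTheory Set

namespace P004
namespace QN

open P004G (cop RQ TH FEq StQ)
open scoped NumberTheorySymbols

/-- the functional equation from the support and the values of the transform -/
lemma TH_fe' (B : ℤ) {F G : GaussianInt} (hFG : F * G = (MQ B : GaussianInt))
    (hsupp : ∀ w, ¬ G ∣ w → hat B w = 0)
    (hval : ∀ w, hat B (G * w) = (starRingEnd ℂ) (PhiC B w) * hat B G) :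
    ∀ u : ℝ, 0 < u → ((TH (AQ B) u : ℝ) : ℂ) =
      (-Complex.I / ((MQ B : ℝ) ^ 3 : ℝ) *
        (hat B G * (((G.re : ℤ) : ℂ) - Complex.I * ((G.im : ℤ) : ℂ)))) / (u : ℂ) ^ 2 *
      ((TH (AQ B) (1 / ((F.norm : ℝ) * u)) : ℝ) : ℂ) := by
  have hM0 : (MQ B : GaussianInt) ≠ 0 := by exact_mod_cast MQ_ne_zero B
  have hF0 : F ≠ 0 := by
    rintro rfl
    rw [zero_mul] at hFG
    exact hM0 hFG.symm
  have hG0 : G ≠ 0 := by
    rintro rfl
    rw [mul_zero] at hFG
    exact hM0 hFG.symm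
  have hFn : 0 < F.norm := GaussianInt.norm_pos.2 hF0
  have hGn : 0 < G.norm := GaussianInt.norm_pos.2 hG0
  have hnorm : F.norm * G.norm = (MQ B : ℤ) ^ 2 := by
    rw [← Zsqrtd.norm_mul, hFG, Zsqrtd.norm_natCast]; ring
  have hnormR : (F.norm : ℝ) * (G.norm : ℝ) = (MQ B : ℝ) ^ 2 := by exact_mod_cast hnorm
  have hFR : (0 : ℝ) < (F.norm : ℝ) := by exact_mod_cast hFn
  have hGR : (0 : ℝ) < (G.norm : ℝ) := by exact_mod_cast hGn
  have hMR : (0 : ℝ) < (MQ B : ℝ) := by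
    have := Nat.pos_of_ne_zero (MQ_ne_zero B)
    exact_mod_cast this
  intro u hu
  have ht : 0 < 1 / ((MQ B : ℝ) ^ 2 * u) := by positivity
  have hq : 0 < 1 / ((F.norm : ℝ) * u) := by positivity
  have e0 : (G.norm : ℝ) * (1 / ((MQ B : ℝ) ^ 2 * u)) = 1 / ((F.norm : ℝ) * u) := by
    rw [← hnormR]
    field_simp
  have e1 := SX_poisson B hu
  rw [SX_hat B hFG hsupp hval ht, e0] at e1
  have e2 : SX (fun z => (starRingEnd ℂ) (PhiC B z)) (1 / ((F.norm : ℝ) * u)) =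
      SX (PhiC B) (1 / ((F.norm : ℝ) * u)) := by
    have h1 : SX (fun z => (starRingEnd ℂ) (PhiC B z)) (1 / ((F.norm : ℝ) * u)) =
        (starRingEnd ℂ) (SX (PhiC B) (1 / ((F.norm : ℝ) * u))) := by
      unfold SX
      rw [Complex.conj_tsum]
      refine tsum_congr fun z => ?_
      rw [map_mul, map_mul, conj_EE]
      simp
    have h3 := TH_eq B hq
    have h5 : SX (PhiC B) (1 / ((F.norm : ℝ) * u)) =
        (((TH (AQ B) (1 / ((F.norm : ℝ) * u)) / 2 : ℝ)) : ℂ) := by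
      push_cast
      rw [h3]; ring
    rw [h1, h5, Complex.conj_ofReal]
  rw [e2] at e1
  rw [TH_eq B hu, TH_eq B hq, e1]
  have hu' : (u : ℂ) ≠ 0 := by exact_mod_cast hu.ne'
  have hM' : ((MQ B : ℕ) : ℂ) ≠ 0 := by exact_mod_cast MQ_ne_zero B
  push_cast
  field_simp

/-- the constant is real and the root number is `± 1` -/
lemma const_real (B : ℤ) {q : ℝ} {c : ℂ} (hq : 0 < q)
    (hfe : ∀ u : ℝ, 0 < u → ((TH (AQ B) u : ℝ) : ℂ) = c / (u : ℂ) ^ 2 *
      ((TH (AQ B) (1 / (q * u)) : ℝ) : ℂ)) :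
    ∃ κ : ℝ, (κ = 1 ∨ κ = -1) ∧ c * (q : ℂ) = (κ : ℂ) := by
  obtain ⟨v, hv, hne⟩ := exists_TH_ne B
  have hw : 0 < 1 / (q * v) := by positivity
  have e1 := hfe v hv
  have hv' : (v : ℂ) ≠ 0 := by exact_mod_cast hv.ne'
  have hTv : ((TH (AQ B) v : ℝ) : ℂ) ≠ 0 := by exact_mod_cast hne
  have hTw : ((TH (AQ B) (1 / (q * v)) : ℝ) : ℂ) ≠ 0 := by
    intro h
    rw [h, mul_zero] at e1
    exact hTv e1
  set r : ℝ := TH (AQ B) v * v ^ 2 / TH (AQ B) (1 / (q * v)) with hr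
  have hc : c = (r : ℂ) := by
    rw [hr]
    push_cast
    rw [eq_div_iff hTw, e1]
    field_simp
  have hfr : ∀ u : ℝ, 0 < u → TH (AQ B) u = r / u ^ 2 * TH (AQ B) (1 / (q * u)) := by
    intro u hu
    have := hfe u hu
    rw [hc] at this
    exact_mod_cast this
  have e2 := hfr v hv
  have e3 := hfr _ hw
  have e4 : 1 / (q * (1 / (q * v))) = v := by field_simp
  rw [e4] at e3
  rw [e3] at e2
  have e5 : r / v ^ 2 * (r / (1 / (q * v)) ^ 2 * TH (AQ B) v) = (r * q) ^ 2 * TH (AQ B) v := by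
    field_simp
  rw [e5] at e2
  have e6 : (r * q) ^ 2 = 1 := mul_right_cancel₀ hne (by rw [one_mul]; exact e2.symm)
  refine ⟨r * q, ?_, by rw [hc]; push_cast; ring⟩
  have h : (r * q - 1) * (r * q + 1) = 0 := by linear_combination e6
  rcases mul_eq_zero.1 h with h | h
  · left; linarith
  · right; linarith

/-! ### the data of the twist by `k` -/

section twist

variable {B : ℤ} {k : ℕ}

lemma padic_mul_sq (hB : B ≠ 0) (hk : k ≠ 0) (q : ℕ) [hq : Fact q.Prime] :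
    padicValInt q (B * (k : ℤ) ^ 2) = padicValInt q B + 2 * padicValNat q k := by
  have hk' : (k : ℤ) ≠ 0 := by exact_mod_cast hk
  rw [padicValInt.mul hB (pow_ne_zero 2 hk')]
  congr 1
  unfold padicValInt
  rw [Int.natAbs_pow, Int.natAbs_natCast, padicValNat.pow]

lemma cop_two_sq (hB : B ≠ 0) (hk : k % 2 = 1) : cop (B * (k : ℤ) ^ 2) 2 = cop B 2 * (k : ℤ) ^ 2 := by
  have : Fact (Nat.Prime 2) := ⟨Nat.prime_two⟩
  have h1 : padicValInt 2 (B * (k : ℤ) ^ 2) = padicValInt 2 B := by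
    rw [padic_mul_sq hB (by omega) 2, padicValNat.eq_zero_of_not_dvd (by omega)]; rfl
  have h2 := cop_mul (B * (k : ℤ) ^ 2) 2
  have h3 := cop_mul B 2
  rw [h1] at h2
  have h4 : ((2 : ℕ) : ℤ) ^ padicValInt 2 B ≠ 0 := pow_ne_zero _ (by norm_num)
  apply mul_left_cancel₀ h4
  rw [h2, ← mul_assoc, h3]

lemma e2_sq (hB : B ≠ 0) (hk : k % 2 = 1) : e2 (B * (k : ℤ) ^ 2) = e2 B := by
  have : Fact (Nat.Prime 2) := ⟨Nat.prime_two⟩
  have h1 : padicValInt 2 (B * (k : ℤ) ^ 2) = padicValInt 2 B := by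
    rw [padic_mul_sq hB (by omega) 2, padicValNat.eq_zero_of_not_dvd (by omega)]; rfl
  unfold e2
  rw [h1, cop_two_sq hB hk]
  have h2 : cop B 2 * (k : ℤ) ^ 2 % 4 = cop B 2 % 4 := by
    have h3 : ((k : ℤ) ^ 2) % 4 = 1 := by
      obtain ⟨j, hj⟩ : ∃ j : ℤ, (k : ℤ) = 2 * j + 1 := ⟨k / 2, by omega⟩
      rw [hj]
      have : (2 * j + 1) ^ 2 = 4 * (j ^ 2 + j) + 1 := by ring
      omega
    rw [Int.mul_emod, h3, mul_one, Int.emod_emod_of_dvd _ (dvd_refl 4)]
  rw [h2]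

/-- the primes dividing `k` are good for `B` -/
lemma good_of_coprime (hB : B ≠ 0) (hk2 : k % 2 = 1) (hkR : k.Coprime (RQ B)) {q : ℕ}
    (hq : q.Prime) (hqk : q ∣ k) : q ≠ 2 ∧ 4 ∣ padicValInt q B := by
  have hq2 : q ≠ 2 := by rintro rfl; omega
  refine ⟨hq2, ?_⟩
  by_contra hv
  have h3 : q ∈ SQ B := by
    unfold SQ
    rw [Finset.mem_filter, Nat.mem_primeFactors]
    have h5 : padicValInt q B ≠ 0 := fun h => hv (by rw [h]; exact dvd_zero _)
    have h6 : q ∣ B.natAbs := by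
      by_contra h7
      exact h5 (padicValNat.eq_zero_of_not_dvd h7)
    exact ⟨⟨hq, h6, Int.natAbs_ne_zero.2 hB⟩, hq2, hv⟩
  have h4 : q ∣ RQ B := by rw [RQ_eq]; exact Finset.dvd_prod_of_mem _ h3
  exact hq.one_lt.ne' (Nat.eq_one_of_dvd_coprimes hkR hqk h4)

lemma SQ_disj (hB : B ≠ 0) (hk2 : k % 2 = 1) (hkR : k.Coprime (RQ B)) :
    Disjoint (SQ B) k.primeFactors := by
  rw [Finset.disjoint_left]
  intro q hq hqk
  rw [Nat.mem_primeFactors] at hqk
  exact (mem_SQ hq).2.2 (good_of_coprime hB hk2 hkR hqk.1 hqk.2.1).2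

lemma SQ_sq (hB : B ≠ 0) (hk : Squarefree k) (hk2 : k % 2 = 1) (hkR : k.Coprime (RQ B)) :
    SQ (B * (k : ℤ) ^ 2) = SQ B ∪ k.primeFactors := by
  have hk0 : k ≠ 0 := hk.ne_zero
  have hBk : B * (k : ℤ) ^ 2 ≠ 0 := mul_ne_zero hB (pow_ne_zero 2 (by exact_mod_cast hk0))
  ext q
  rw [Finset.mem_union]
  constructor
  · intro hq
    have h1 := mem_SQ hq
    have : Fact q.Prime := ⟨h1.1⟩
    by_cases hqk : q ∣ k
    · right
      rw [Nat.mem_primeFactors]
      exact ⟨h1.1, hqk, hk0⟩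
    · left
      have h3 : padicValInt q (B * (k : ℤ) ^ 2) = padicValInt q B := by
        rw [padic_mul_sq hB hk0 q, padicValNat.eq_zero_of_not_dvd hqk]; rfl
      rw [h3] at h1
      unfold SQ
      rw [Finset.mem_filter, Nat.mem_primeFactors]
      have h5 : padicValInt q B ≠ 0 := fun h => h1.2.2 (by rw [h]; exact dvd_zero _)
      have h6 : q ∣ B.natAbs := by
        by_contra h7
        exact h5 (padicValNat.eq_zero_of_not_dvd h7)
      exact ⟨⟨h1.1, h6, Int.natAbs_ne_zero.2 hB⟩, h1.2⟩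
  · intro hq
    rcases hq with hq | hq
    · have h1 := mem_SQ hq
      have : Fact q.Prime := ⟨h1.1⟩
      have hqk : ¬ q ∣ k := by
        intro h
        exact h1.2.2 (good_of_coprime hB hk2 hkR h1.1 h).2
      have h3 : padicValInt q (B * (k : ℤ) ^ 2) = padicValInt q B := by
        rw [padic_mul_sq hB hk0 q, padicValNat.eq_zero_of_not_dvd hqk]; rfl
      unfold SQ
      rw [Finset.mem_filter, Nat.mem_primeFactors, h3]
      refine ⟨⟨h1.1, ?_, Int.natAbs_ne_zero.2 hBk⟩, h1.2⟩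
      unfold SQ at hq
      rw [Finset.mem_filter, Nat.mem_primeFactors] at hq
      rw [Int.natAbs_mul]
      exact Dvd.dvd.mul_right hq.1.2.1 _
    · rw [Nat.mem_primeFactors] at hq
      have h1 := good_of_coprime hB hk2 hkR hq.1 hq.2.1
      have : Fact q.Prime := ⟨hq.1⟩
      have h5 : padicValNat q k = 1 := by
        have h6 := (Nat.squarefree_iff_factorization_le_one hk0).1 hk q
        rw [Nat.factorization_def _ hq.1] at h6
        have h7 : padicValNat q k ≠ 0 := by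
          have := one_le_padicValNat_of_dvd hk0 hq.2.1
          omega
        omega
      have h3 : padicValInt q (B * (k : ℤ) ^ 2) = padicValInt q B + 2 := by
        rw [padic_mul_sq hB hk0 q, h5]
      unfold SQ
      rw [Finset.mem_filter, Nat.mem_primeFactors, h3]
      refine ⟨⟨hq.1, ?_, Int.natAbs_ne_zero.2 hBk⟩, h1.1, by omega⟩
      rw [Int.natAbs_mul, Int.natAbs_pow, Int.natAbs_natCast]
      exact Dvd.dvd.mul_left (hq.2.1.trans (dvd_pow_self k two_ne_zero)) _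

lemma RQ_sq (hB : B ≠ 0) (hk : Squarefree k) (hk2 : k % 2 = 1) (hkR : k.Coprime (RQ B)) :
    RQ (B * (k : ℤ) ^ 2) = RQ B * k := by
  rw [RQ_eq, SQ_sq hB hk hk2 hkR, Finset.prod_union (SQ_disj hB hk2 hkR), ← RQ_eq,
    Nat.prod_primeFactors_of_squarefree hk]

lemma MQ_sq (hB : B ≠ 0) (hk : Squarefree k) (hk2 : k % 2 = 1) (hkR : k.Coprime (RQ B)) :
    MQ (B * (k : ℤ) ^ 2) = MQ B * k := by
  unfold MQ
  rw [RQ_sq hB hk hk2 hkR]; ring

/-- the square of the quartic symbol is the Legendre symbol of the norm -/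
lemma qs_sq {q : ℕ} [hq : Fact q.Prime] (hq2 : q ≠ 2) (α : GaussianInt) :
    qs q α ^ 2 = ((legendreSym q α.norm : ℤ) : GaussianInt) := by
  have h2 : (2 : AlgebraicClosure (ZMod q)) ≠ 0 := two_ne (q := q) hq2
  have h4 : Is4 ((legendreSym q α.norm : ℤ) : GaussianInt) := by
    by_cases hx : ((α.norm : ℤ) : ZMod q) = 0
    · rw [(legendreSym.eq_zero_iff q _).2 hx]; exact Or.inl (by simp)
    · rcases legendreSym.eq_one_or_neg_one q hx with h | h <;> rw [h]
      · exact Or.inr (Or.inl (by simp))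
      · exact Or.inr (Or.inr (Or.inr (Or.inl (by simp))))
  apply Is4.inj (fq q) h2 ((qs_is4 q α).pow 2) h4
  have h5 := legendreSym.eq_pow q α.norm
  have h6 : ((legendreSym q α.norm : ℤ) : AlgebraicClosure (ZMod q)) =
      (α.norm : AlgebraicClosure (ZMod q)) ^ (q / 2) := by
    have h7 := congrArg (algebraMap (ZMod q) (AlgebraicClosure (ZMod q))) h5
    rw [map_pow, map_intCast, map_intCast] at h7
    exact h7
  rw [map_pow, f_qs hq2 (fq q), map_intCast, h6, ← f_norm (fq q)]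
  rcases q_mod hq2 with h8 | h8
  · unfold PQ
    rw [if_pos h8, map_mul, map_pow, map_pow]
    have hm : q / 2 = 2 * ((q - 1) / 4) := by omega
    by_cases hz : (fq q) (star α) = 0
    · rw [hz, mul_zero, zero_pow (n := q / 2) (by have := hq.out.two_le; omega),
        zero_pow (n := 3 * ((q - 1) / 4)) (by have := hq.out.two_le; omega)]
      ring
    · have h9 := frob_one (fq q) h8 (star α)
      have h10 : (fq q) (star α) ^ (4 * ((q - 1) / 4)) = 1 := by
        have h11 : q = 4 * ((q - 1) / 4) + 1 := by omega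
        apply mul_right_cancel₀ hz
        rw [one_mul, ← pow_succ, ← h11, h9]
      rw [hm, mul_pow, mul_pow, ← pow_mul, ← pow_mul, mul_comm ((q - 1) / 4) 2,
        show 3 * ((q - 1) / 4) * 2 = 2 * ((q - 1) / 4) + 4 * ((q - 1) / 4) by ring, pow_add, h10,
        mul_one]
  · unfold PQ
    obtain ⟨m, hm⟩ : ∃ m, q = 4 * m + 3 := ⟨q / 4, by omega⟩
    rw [if_neg (by omega), map_pow, pow_m hm, ← frob_three (fq q) h8, ← pow_succ', ← pow_mul,
      ← pow_mul]
    congr 1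
    have h9 : q / 2 = 2 * m + 1 := by omega
    rw [h9, hm]
    ring

lemma jac_prod (a : ℤ) (s : Finset ℕ) (hs : ∀ q ∈ s, q ≠ 0) :
    J(a | ∏ q ∈ s, q) = ∏ q ∈ s, J(a | q) := by
  induction s using Finset.induction_on with
  | empty => simp
  | insert b s hb ih =>
    rw [Finset.prod_insert hb, Finset.prod_insert hb,
      jacobiSym.mul_right' _ (hs b (Finset.mem_insert_self b s)) (Finset.prod_ne_zero_iff.2
        (fun q hq => hs q (Finset.mem_insert_of_mem hq))),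
      ih (fun q hq => hs q (Finset.mem_insert_of_mem hq))]

lemma XB_sq (hB : B ≠ 0) (hk : Squarefree k) (hk2 : k % 2 = 1) (hkR : k.Coprime (RQ B))
    (α : GaussianInt) :
    XB (B * (k : ℤ) ^ 2) α = XB B α * ((J(α.norm | k) : ℤ) : GaussianInt) := by
  have hk0 : k ≠ 0 := hk.ne_zero
  unfold XB
  rw [e2_sq hB hk2, SQ_sq hB hk hk2 hkR, Finset.prod_union (SQ_disj hB hk2 hkR), mul_assoc]
  congr 2
  · apply Finset.prod_congr rfl
    intro q hq
    have h1 := mem_SQ hq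
    have : Fact q.Prime := ⟨h1.1⟩
    have hqk : ¬ q ∣ k := by
      intro h
      exact h1.2.2 (good_of_coprime hB hk2 hkR h1.1 h).2
    rw [padic_mul_sq hB hk0 q, padicValNat.eq_zero_of_not_dvd hqk]; rfl
  · have h1 : J(α.norm | k) = ∏ q ∈ k.primeFactors, J(α.norm | q) := by
      conv_lhs => rw [← Nat.prod_primeFactors_of_squarefree hk]
      exact jac_prod _ _ (fun q hq => (Nat.mem_primeFactors.1 hq).1.ne_zero)
    rw [h1]
    push_cast
    apply Finset.prod_congr rfl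
    intro q hq
    rw [Nat.mem_primeFactors] at hq
    have h3 := good_of_coprime hB hk2 hkR hq.1 hq.2.1
    have : Fact q.Prime := ⟨hq.1⟩
    have h5 : padicValNat q k = 1 := by
      have h6 := (Nat.squarefree_iff_factorization_le_one hk0).1 hk q
      rw [Nat.factorization_def _ hq.1] at h6
      have h7 : padicValNat q k ≠ 0 := by
        have := one_le_padicValNat_of_dvd hk0 hq.2.1
        omega
      omega
    obtain ⟨j, hj⟩ := h3.2
    rw [padic_mul_sq hB hk0 q, h5, hj, ← jacobiSym.legendreSym.to_jacobiSym, ← qs_sq h3.1 α,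
      pow_add, pow_mul]
    by_cases h0 : qs q α = 0
    · rw [h0]; simp
    · rw [(qs_is4 q α).pow_four h0, one_pow, one_mul, mul_one]

lemma norm_mul_pu {z : GaussianInt} (hz : z.norm % 2 = 1) : (z * pu z).norm = z.norm := by
  rw [Zsqrtd.norm_mul, (pu_spec hz).1, mul_one]

/-- twisting by `k` multiplies `Phi` by the quadratic character of the norm -/
lemma Phi_sq (hB : B ≠ 0) (hk : Squarefree k) (hk2 : k % 2 = 1) (hkR : k.Coprime (RQ B))
    (z : GaussianInt) :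
    Phi (B * (k : ℤ) ^ 2) z = Phi B z * ((J(z.norm | k) : ℤ) : GaussianInt) := by
  unfold Phi
  by_cases hz : z.norm % 2 = 1
  · rw [XB_sq hB hk hk2 hkR, norm_mul_pu hz, star_mul', star_intCast]
    ring
  · rw [pu_zero hz]; ring

lemma PhiC_sq (hB : B ≠ 0) (hk : Squarefree k) (hk2 : k % 2 = 1) (hkR : k.Coprime (RQ B))
    (z : GaussianInt) :
    PhiC (B * (k : ℤ) ^ 2) z = PhiC B z * ((J(z.norm | k) : ℤ) : ℂ) := by
  unfold PhiC
  rw [Phi_sq hB hk hk2 hkR, map_mul, map_intCast]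

lemma PhiC_natCast (hk2 : k % 2 = 1) (hkR : k.Coprime (RQ B)) :
    PhiC B ((k : ℤ) : GaussianInt) = ((J(-1 | k) : ℤ) : ℂ) := by
  have hodd : Odd k := Nat.odd_iff.2 hk2
  rw [jacobiSym.at_neg_one hodd]
  have h4 : k % 4 = 1 ∨ k % 4 = 3 := by omega
  unfold PhiC
  rcases h4 with h4 | h4
  · rw [Phi_int B (by omega) (by simpa using hkR), map_one, ZMod.χ₄_nat_one_mod_four h4]
    simp
  · have h1 : ((k : ℤ) : GaussianInt) = (-1) * ((-(k : ℤ) : ℤ) : GaussianInt) := by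
      push_cast; ring
    rw [h1, Phi_mul, Phi_int B (n := -(k : ℤ)) (by omega) (by simpa using hkR),
      Phi_unit B (by decide), ZMod.χ₄_nat_three_mod_four h4]
    simp

/-! ### the transform of the twist -/

/-- the transform with an arbitrary name for the modulus -/
noncomputable def hatM (B : ℤ) (M : ℕ) [NeZero M] (w : GaussianInt) : ℂ :=
  dft2 M (fun a b => PhiC B ⟨(a.val : ℤ), (b.val : ℤ)⟩) (w.re : ZMod M) ((-w.im : ℤ) : ZMod M)

lemma hat_eq_hatM (B : ℤ) (w : GaussianInt) : hat B w = hatM B (MQ B) w := by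
  rw [hat_eq]; rfl

lemma hatM_cast (B : ℤ) {M M' : ℕ} (h : M = M') [i : NeZero M] [i' : NeZero M']
    (w : GaussianInt) : hatM B M w = hatM B M' w := by
  subst h; rfl

lemma hat_twist (hB : B ≠ 0) (hk : Squarefree k) (hk2 : k % 2 = 1) (hkR : k.Coprime (RQ B))
    (w : GaussianInt) :
    hat (B * (k : ℤ) ^ 2) w =
      ((J(-1 | k) : ℤ) : ℂ) * ((k : ℂ) * ((J(w.norm | k) : ℤ) : ℂ)) * hat B w := by
  have hk0 : NeZero k := ⟨hk.ne_zero⟩
  have hM := MQ_sq hB hk hk2 hkR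
  have hMk : NeZero (MQ B * k) := ⟨Nat.mul_ne_zero (MQ_ne_zero B) hk.ne_zero⟩
  have hcop : (MQ B).Coprime k := by
    unfold MQ
    apply Nat.Coprime.mul_left
    · have h8 : (8 : ℕ) = 2 ^ 3 := by norm_num
      rw [h8]
      exact Nat.Coprime.pow_left 3 (Nat.coprime_two_left.2 (Nat.odd_iff.2 hk2))
    · exact hkR.symm
  rw [hat_eq_hatM, hatM_cast _ hM, hatM]
  have hc := dft2_crt (MQ B) k hcop
    (fun a b => PhiC (B * (k : ℤ) ^ 2) ⟨(a.val : ℤ), (b.val : ℤ)⟩)
    (fun a b => ((J(-1 | k) : ℤ) : ℂ) * fB B a b) (eta k) ?_ w.re (-w.im)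
  · rw [hc, dft2_eta k (Nat.odd_iff.2 hk2) hk]
    have h3 : dft2 (MQ B) (fun a b => ((J(-1 | k) : ℤ) : ℂ) * fB B a b)
        (w.re : ZMod (MQ B)) ((-w.im : ℤ) : ZMod (MQ B)) = ((J(-1 | k) : ℤ) : ℂ) * hat B w := by
      rw [hat_eq]
      unfold dft2 dft1
      rw [Finset.mul_sum]
      apply Finset.sum_congr rfl
      intro a _
      rw [← mul_assoc, Finset.mul_sum]
      congr 1
      apply Finset.sum_congr rfl
      intro b _
      ring
    rw [h3]
    have h5 : w.re ^ 2 + (-w.im) ^ 2 = w.norm := by rw [A1.norm_eq]; ring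
    rw [h5]
    ring
  · intro x y
    rw [PhiC_sq hB hk hk2 hkR]
    -- the first factor
    have h1 : PhiC B ⟨((crtMap (MQ B) k x).val : ℤ), ((crtMap (MQ B) k y).val : ℤ)⟩ =
        ((J(-1 | k) : ℤ) : ℂ) * fB B x.1 y.1 := by
      rw [← fB_int, ← PhiC_natCast hk2 hkR]
      have e1 : ∀ t : ZMod (MQ B) × ZMod k,
          (((crtMap (MQ B) k t).val : ℤ) : ZMod (MQ B)) = ((k * t.1.val : ℤ) : ZMod (MQ B)) := by
        intro t
        rw [Int.cast_natCast, ← ZMod.cast_eq_val (crtMap (MQ B) k t)]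
        have := crtMap_fst (MQ B) k t
        rw [ZMod.castHom_apply] at this
        rw [this]
        push_cast
        simp
      rw [e1, e1, fB_int]
      unfold fB PhiC
      rw [← map_mul, ← Phi_mul]
      congr 2
      apply Zsqrtd.ext <;> simp
    have h2 : ((J((⟨((crtMap (MQ B) k x).val : ℤ), ((crtMap (MQ B) k y).val : ℤ)⟩ :
        GaussianInt).norm | k) : ℤ) : ℂ) = eta k x.2 y.2 := by
      rw [← eta_smul (MQ B) hcop x.2 y.2, A1.norm_eq]
      symm
      apply eta_eq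
      · have := crtMap_snd (MQ B) k x
        rw [ZMod.castHom_apply, ZMod.cast_eq_val] at this
        rw [← this]; simp
      · have := crtMap_snd (MQ B) k y
        rw [ZMod.castHom_apply, ZMod.cast_eq_val] at this
        rw [← this]; simp
    rw [h1, h2]

end twist

/-- **Root numbers of the twists.** -/
theorem root_twist {B : ℤ} (hB : B ≠ 0) : ∃ (κ : ℝ) (N : ℕ), (κ = 1 ∨ κ = -1) ∧ 0 < N ∧
    ∀ k : ℕ, Squarefree k → k % 2 = 1 → k.Coprime (RQ B) →
      ∃ q : ℝ, FEq (AQ (B * (k : ℤ) ^ 2)) q (κ * ((J(-(N : ℤ) | k) : ℤ) : ℝ)) := by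
  obtain ⟨F, G, hFG, hR, hper, hprim⟩ := exists_FG B
  obtain ⟨hsupp, hval⟩ := hat_main B hFG hper hprim
  have hM0 : (MQ B : GaussianInt) ≠ 0 := by exact_mod_cast MQ_ne_zero B
  have hF0 : F ≠ 0 := by
    rintro rfl
    rw [zero_mul] at hFG
    exact hM0 hFG.symm
  have hG0 : G ≠ 0 := by
    rintro rfl
    rw [mul_zero] at hFG
    exact hM0 hFG.symm
  have hFn : 0 < F.norm := GaussianInt.norm_pos.2 hF0
  have hGn : 0 < G.norm := GaussianInt.norm_pos.2 hG0
  have hFR : (0 : ℝ) < (F.norm : ℝ) := by exact_mod_cast hFn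
  have hfe := TH_fe' B hFG hsupp hval
  obtain ⟨κ, hκ, hc⟩ := const_real B hFR hfe
  have hNG : ((G.norm.natAbs : ℕ) : ℤ) = G.norm := Int.natAbs_of_nonneg (GaussianInt.norm_nonneg G)
  refine ⟨κ, G.norm.natAbs, hκ, Int.natAbs_pos.2 hGn.ne', fun k hk hk2 hkR => ?_⟩
  rw [hNG]
  set B' : ℤ := B * (k : ℤ) ^ 2 with hB'
  have hk0 : k ≠ 0 := hk.ne_zero
  have hkR0 : (0 : ℝ) < (k : ℝ) := by exact_mod_cast Nat.pos_of_ne_zero hk0
  have hMk : MQ B' = MQ B * k := MQ_sq hB hk hk2 hkR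
  have hFG' : F * (k : GaussianInt) * G = (MQ B' : GaussianInt) := by
    rw [hMk]; push_cast; rw [← hFG]; ring
  have hsupp' : ∀ w, ¬ G ∣ w → hat B' w = 0 := by
    intro w hw
    rw [hat_twist hB hk hk2 hkR, hsupp w hw, mul_zero]
  have hval' : ∀ w, hat B' (G * w) = (starRingEnd ℂ) (PhiC B' w) * hat B' G := by
    intro w
    rw [hat_twist hB hk hk2 hkR, hat_twist hB hk hk2 hkR, hval, PhiC_sq hB hk hk2 hkR,
      Zsqrtd.norm_mul, jacobiSym.mul_left, map_mul, map_intCast]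
    push_cast
    ring
  have hfe' := TH_fe' B' hFG' hsupp' hval'
  have hFk : 0 < (((F * (k : GaussianInt)).norm : ℤ) : ℝ) := by
    rw [Zsqrtd.norm_mul, Zsqrtd.norm_natCast]
    push_cast
    positivity
  obtain ⟨κ', hκ', hc'⟩ := const_real B' hFk hfe'
  have hkk : (κ' : ℂ) = ((κ * ((J(-G.norm | k) : ℤ) : ℝ) : ℝ) : ℂ) := by
    rw [← hc']
    push_cast
    rw [← hc, Zsqrtd.norm_mul, Zsqrtd.norm_natCast, hMk, hat_twist hB hk hk2 hkR]
    have h1 : J(-G.norm | k) = J(-1 | k) * J(G.norm | k) := by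
      rw [← jacobiSym.mul_left]; congr 1; ring
    rw [h1]
    have hk' : (k : ℂ) ≠ 0 := by exact_mod_cast hk0
    have hM' : ((MQ B : ℕ) : ℂ) ≠ 0 := by exact_mod_cast MQ_ne_zero B
    push_cast
    field_simp
  have hkk' : κ' = κ * ((J(-G.norm | k) : ℤ) : ℝ) := by exact_mod_cast hkk
  refine ⟨(((F * (k : GaussianInt)).norm : ℤ) : ℝ), hFk, ?_, ?_⟩
  · rw [← hkk']; exact hκ'
  · intro u hu
    rw [← hkk']
    have h1 := hfe' u hu
    have hq' : (((((F * (k : GaussianInt)).norm : ℤ) : ℝ)) : ℂ) ≠ 0 := by exact_mod_cast hFk.ne'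
    have hu' : (u : ℂ) ≠ 0 := by exact_mod_cast hu.ne'
    have h2 : (-Complex.I / ((MQ B' : ℝ) ^ 3 : ℝ) *
      (hat B' G * (((G.re : ℤ) : ℂ) - Complex.I * ((G.im : ℤ) : ℂ)))) =
        (κ' : ℂ) / (((((F * (k : GaussianInt)).norm : ℤ) : ℝ)) : ℂ) := by
      rw [eq_div_iff hq', hc']
    rw [h2] at h1
    have h3 : ((TH (AQ B') u : ℝ) : ℂ) =
        ((κ' / ((((F * (k : GaussianInt)).norm : ℤ) : ℝ) * u ^ 2) *
          TH (AQ B') (1 / ((((F * (k : GaussianInt)).norm : ℤ) : ℝ) * u)) : ℝ) : ℂ) := by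
      rw [h1]
      push_cast
      field_simp
    exact_mod_cast h3

end QN
end P004
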