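import Vale.Agent.P004.H628.OddHalf

/-!
# P004, sums of a real character over squarefree numbers
-/

open Finset

namespace P004
namespace QN

open scoped NumberTheorySymbols ArithmeticFunction.Moebius

section char

variable (N P : ℕ)

/-- the character -/
noncomputable def fch (k : ℕ) : ℤ := if k.Coprime P then J(-(N : ℤ) | k) else 0

variable {N P}

lemma fch_abs (k : ℕ) : |fch N P k| ≤ 1 := by
  unfold fch
  split_ifs
  · rcases jacobiSym.trichotomy (-(N : ℤ)) k with h | h | h <;> rw [h] <;> simp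
  · simp

lemma fch_mul {a b : ℕ} (ha : a ≠ 0) (hb : b ≠ 0) : fch N P (a * b) = fch N P a * fch N P b := by
  unfold fch
  by_cases h1 : a.Coprime P
  · by_cases h2 : b.Coprime P
    · rw [if_pos (Nat.coprime_mul_iff_left.2 ⟨h1, h2⟩), if_pos h1, if_pos h2,
        jacobiSym.mul_right' _ ha hb]
    · rw [if_neg (fun h => h2 (Nat.coprime_mul_iff_left.1 h).2), if_neg h2, mul_zero]
  · rw [if_neg (fun h => h1 (Nat.coprime_mul_iff_left.1 h).1), if_neg h1, zero_mul]

lemma odd_of_coprime (hP : 2 ∣ P) {k : ℕ} (h : k.Coprime P) : Odd k := by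
  rw [← Nat.coprime_two_right]
  exact h.coprime_dvd_right hP

lemma fch_congr (hP : 2 ∣ P) {a b : ℕ} (h : a % (4 * N * P) = b % (4 * N * P)) :
    fch N P a = fch N P b := by
  have hcop : a.Coprime P ↔ b.Coprime P := by
    have h1 : a % P = b % P := by
      have e1 : a % (4 * N * P) % P = a % P := Nat.mod_mul_left_mod a (4 * N) P
      have e2 : b % (4 * N * P) % P = b % P := Nat.mod_mul_left_mod b (4 * N) P
      rw [← e1, ← e2, h]
    have h3 : ∀ x : ℕ, x.Coprime P ↔ (x % P).Coprime P := by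
      intro x
      unfold Nat.Coprime
      rw [Nat.gcd_comm x P, Nat.gcd_rec P x]
    rw [h3 a, h3 b, h1]
  unfold fch
  by_cases h1 : a.Coprime P
  · rw [if_pos h1, if_pos (hcop.1 h1), jacobiSym.mod_right _ (odd_of_coprime hP h1),
      jacobiSym.mod_right _ (odd_of_coprime hP (hcop.1 h1))]
    have h3 : a % (4 * (-(N : ℤ)).natAbs) = b % (4 * (-(N : ℤ)).natAbs) := by
      rw [Int.natAbs_neg, Int.natAbs_natCast]
      have e1 : a % (4 * N * P) % (4 * N) = a % (4 * N) := Nat.mod_mul_right_mod a (4 * N) P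
      have e2 : b % (4 * N * P) % (4 * N) = b % (4 * N) := Nat.mod_mul_right_mod b (4 * N) P
      rw [← e1, ← e2, h]
    rw [h3]
  · rw [if_neg h1, if_neg (fun h => h1 (hcop.2 h))]

lemma fch_neg_one (hN : N ≠ 0) (hP : 2 ∣ P) (hP0 : P ≠ 0) : fch N P (4 * N * P - 1) = -1 := by
  set Q := 4 * N * P with hQ
  have hNP : 1 ≤ N * P := Nat.one_le_iff_ne_zero.2 (Nat.mul_ne_zero hN hP0)
  have hQ4 : Q = 4 * (N * P) := by rw [hQ]; ring
  have hQ0 : 4 ≤ Q := by omega
  have hcop : (Q - 1).Coprime P := by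
    have h1 : (Q - 1).Coprime Q := by
      have h2 := Nat.coprime_self_add_right (m := Q - 1) (n := 1)
      rw [show Q - 1 + 1 = Q by omega] at h2
      exact h2.2 (Nat.coprime_one_right _)
    exact h1.coprime_dvd_right ⟨4 * N, by rw [hQ]; ring⟩
  unfold fch
  rw [if_pos hcop]
  have hodd := odd_of_coprime hP hcop
  have hodd' : Odd (4 * N - 1) := by rw [Nat.odd_iff]; omega
  have h3 : (4 * N - 1) % 4 = 3 := by omega
  have h4 : J(-(N : ℤ) | Q - 1) = J(-(N : ℤ) | 4 * N - 1) := by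
    rw [jacobiSym.mod_right _ hodd, jacobiSym.mod_right _ hodd']
    congr 1
    rw [Int.natAbs_neg, Int.natAbs_natCast]
    have hP1 : 1 ≤ P := Nat.one_le_iff_ne_zero.2 hP0
    obtain ⟨t, ht⟩ : ∃ t, P = t + 1 := ⟨P - 1, by omega⟩
    have e1 : Q - 1 = 4 * N * t + (4 * N - 1) := by
      rw [hQ, ht, mul_add, mul_one]; omega
    rw [e1, Nat.mul_add_mod]
  rw [h4, jacobiSym.neg _ hodd', ZMod.χ₄_nat_three_mod_four h3]
  -- `J(N | 4 N - 1) = 1`
  have h5 : J((N : ℤ) | 4 * N - 1) = 1 := by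
    have h7 : J(4 * (N : ℤ) | 4 * N - 1) = J((1 : ℤ) | 4 * N - 1) := by
      apply jacobiSym.mod_left'
      have : 4 * (N : ℤ) ≡ 1 [ZMOD ((4 * N - 1 : ℕ) : ℤ)] := by
        rw [Int.modEq_iff_dvd]
        exact ⟨-1, by push_cast [show 1 ≤ 4 * N by omega]; ring⟩
      exact this
    rw [jacobiSym.one_left, jacobiSym.mul_left, jacobiSym.at_four hodd', one_mul] at h7
    exact h7
  rw [h5]; rfl

lemma fch_zero (hP : 2 ∣ P) : fch N P 0 = 0 := by
  unfold fch
  rw [if_neg]
  intro h
  have := odd_of_coprime hP h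
  rw [Nat.odd_iff] at this
  omega

/-- the character is odd -/
lemma fch_reflect (hN : N ≠ 0) (hP : 2 ∣ P) (hP0 : P ≠ 0) {k : ℕ} (hk : 0 < k)
    (hk2 : k < 4 * N * P) : fch N P (4 * N * P - k) = -fch N P k := by
  set Q := 4 * N * P with hQ
  have h1 := fch_mul (N := N) (P := P) (a := Q - 1) (b := k) (by omega) hk.ne'
  rw [fch_neg_one hN hP hP0, neg_one_mul] at h1
  rw [← h1]
  apply fch_congr hP
  rw [← hQ]
  have e1 : (Q - 1) * k = Q * (k - 1) + (Q - k) := by
    obtain ⟨j, rfl⟩ : ∃ j, k = j + 1 := ⟨k - 1, by omega⟩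
    obtain ⟨r, hr⟩ : ∃ r, Q = j + 1 + r := ⟨Q - (j + 1), by omega⟩
    rw [hr]
    simp only [Nat.add_sub_cancel, Nat.add_sub_cancel_left]
    have : j + 1 + r - 1 = j + r := by omega
    rw [this]; ring
  rw [e1, Nat.mul_add_mod]

lemma fch_sum_period (hN : N ≠ 0) (hP : 2 ∣ P) (hP0 : P ≠ 0) :
    ∑ k ∈ range (4 * N * P), fch N P k = 0 := by
  set Q := 4 * N * P with hQ
  have hNP : 1 ≤ N * P := Nat.one_le_iff_ne_zero.2 (Nat.mul_ne_zero hN hP0)
  have hQ4 : Q = 4 * (N * P) := by rw [hQ]; ring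
  have e0 : ∑ k ∈ range Q, fch N P k = ∑ k ∈ Ico 1 Q, fch N P k := by
    rw [range_eq_Ico, sum_eq_sum_Ico_succ_bot (by omega), fch_zero hP, zero_add]
  have e1 : ∑ k ∈ Ico 1 Q, fch N P k = ∑ k ∈ Ico 1 Q, -fch N P k := by
    refine sum_bij' (fun k _ => Q - k) (fun k _ => Q - k) ?_ ?_ ?_ ?_ ?_
    · intro k hk; rw [mem_Ico] at hk ⊢; omega
    · intro k hk; rw [mem_Ico] at hk ⊢; omega
    · intro k hk; rw [mem_Ico] at hk; omega
    · intro k hk; rw [mem_Ico] at hk; omega
    · intro k hk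
      rw [mem_Ico] at hk
      rw [fch_reflect hN hP hP0 (by omega) (by omega), neg_neg]
  rw [sum_neg_distrib] at e1
  rw [e0]
  linarith

lemma fch_partial (hN : N ≠ 0) (hP : 2 ∣ P) (hP0 : P ≠ 0) (n : ℕ) :
    |∑ k ∈ range n, fch N P k| ≤ 4 * N * P := by
  set Q := 4 * N * P with hQ
  have hNP : 1 ≤ N * P := Nat.one_le_iff_ne_zero.2 (Nat.mul_ne_zero hN hP0)
  have hQ4 : Q = 4 * (N * P) := by rw [hQ]; ring
  have hper : ∀ t m : ℕ, ∑ k ∈ range (Q * t + m), fch N P k = ∑ k ∈ range m, fch N P k := by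
    intro t
    induction t with
    | zero => intro m; rw [mul_zero, zero_add]
    | succ t ih =>
      intro m
      have e1 : Q * (t + 1) + m = Q + (Q * t + m) := by ring
      rw [e1, sum_range_add, fch_sum_period hN hP hP0, zero_add, ← ih m]
      apply sum_congr rfl
      intro k _
      apply fch_congr hP
      rw [← hQ, Nat.add_mod_left]
  have h1 : n = Q * (n / Q) + n % Q := (Nat.div_add_mod n Q).symm
  rw [h1, hper]
  refine (abs_sum_le_sum_abs _ _).trans ?_
  calc ∑ k ∈ range (n % Q), |fch N P k| ≤ ∑ k ∈ range (n % Q), (1 : ℤ) :=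
        sum_le_sum fun k _ => fch_abs k
    _ = ((n % Q : ℕ) : ℤ) := by simp
    _ ≤ (Q : ℤ) := by
        have := Nat.mod_lt n (show 0 < Q by omega)
        exact_mod_cast this.le
    _ = _ := by rw [hQ]; push_cast; ring

/-- sums over squarefree numbers -/
theorem fch_squarefree (hN : N ≠ 0) (hP : 2 ∣ P) (hP0 : P ≠ 0) (Y : ℕ) :
    |∑ m ∈ Icc 1 Y, (if Squarefree m then fch N P m else 0)| ≤ 4 * N * P * (Nat.sqrt Y : ℤ) := by
  have h1 : ∀ m ∈ Icc 1 Y, (if Squarefree m then fch N P m else 0) =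
      ∑ d ∈ Icc 1 (Nat.sqrt Y), (μ d : ℤ) * (if d ^ 2 ∣ m then fch N P m else 0) := by
    intro m hm
    rw [mem_Icc] at hm
    have h2 := H628.sum_mu_sq hm.1 hm.2
    have h3 : (if Squarefree m then fch N P m else 0) =
        (if Squarefree m then 1 else 0) * fch N P m := by split_ifs <;> simp
    rw [h3, ← h2, sum_mul]
    apply sum_congr rfl
    intro d _
    split_ifs <;> simp
  rw [sum_congr rfl h1, sum_comm]
  refine (abs_sum_le_sum_abs _ _).trans ?_
  calc ∑ d ∈ Icc 1 (Nat.sqrt Y), |∑ m ∈ Icc 1 Y, (μ d : ℤ) * (if d ^ 2 ∣ m then fch N P m else 0)|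
      ≤ ∑ d ∈ Icc 1 (Nat.sqrt Y), (4 * N * P : ℤ) := by
        apply sum_le_sum
        intro d hd
        rw [mem_Icc] at hd
        have hd0 : 0 < d := by omega
        rw [← mul_sum, abs_mul]
        have e1 : ∑ m ∈ Icc 1 Y, (if d ^ 2 ∣ m then fch N P m else 0) =
            fch N P (d ^ 2) * ∑ l ∈ range (Y / d ^ 2 + 1), fch N P l := by
          rw [mul_sum, ← sum_filter]
          have e2 : ∑ l ∈ range (Y / d ^ 2 + 1), fch N P (d ^ 2) * fch N P l =
              ∑ l ∈ Icc 1 (Y / d ^ 2), fch N P (d ^ 2) * fch N P l := by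
            rw [range_eq_Ico, sum_eq_sum_Ico_succ_bot (Nat.succ_pos _), fch_zero hP, mul_zero,
              zero_add]
            rfl
          rw [e2]
          symm
          refine sum_bij (fun l _ => d ^ 2 * l) ?_ ?_ ?_ ?_
          · intro l hl
            rw [mem_Icc] at hl
            rw [mem_filter, mem_Icc]
            refine ⟨⟨Nat.one_le_iff_ne_zero.2 (Nat.mul_ne_zero (pow_ne_zero 2 hd0.ne')
              (by omega)), ?_⟩, Dvd.intro _ rfl⟩
            calc d ^ 2 * l ≤ d ^ 2 * (Y / d ^ 2) := Nat.mul_le_mul_left _ hl.2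
              _ ≤ Y := Nat.mul_div_le Y _
          · intro l _ l' _ h
            exact Nat.eq_of_mul_eq_mul_left (by positivity) h
          · intro m hm
            rw [mem_filter, mem_Icc] at hm
            obtain ⟨⟨h3, h4⟩, l, rfl⟩ := hm
            refine ⟨l, ?_, rfl⟩
            rw [mem_Icc]
            constructor
            · by_contra h5
              have : l = 0 := by omega
              rw [this, mul_zero] at h3
              omega
            · rw [Nat.le_div_iff_mul_le (by positivity), mul_comm]; exact h4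
          · intro l hl
            rw [mem_Icc] at hl
            rw [fch_mul (by positivity) (by omega)]
        rw [e1, abs_mul]
        have e3 : |(μ d : ℤ)| ≤ 1 := ArithmeticFunction.abs_moebius_le_one
        have e4 := fch_abs (N := N) (P := P) (d ^ 2)
        have e5 := fch_partial hN hP hP0 (Y / d ^ 2 + 1)
        have e6 : (0 : ℤ) ≤ 4 * N * P := by positivity
        calc |(μ d : ℤ)| * (|fch N P (d ^ 2)| * |∑ l ∈ range (Y / d ^ 2 + 1), fch N P l|)
            ≤ 1 * (1 * (4 * N * P)) := by gcongr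
          _ = _ := by ring
    _ = _ := by simp; ring

end char

end QN
end P004
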