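import Vale.Agent.P004.H628.QW2

/-!
# P004, equidistribution of a sign which is a twisted character on the squarefree integers
-/

open Finset

namespace P004
namespace QN

open scoped NumberTheorySymbols

/-- the squarefree integer `m` with `ℚ(√D) = ℚ(√m)`, for a fundamental discriminant `D` -/
def sfk (D : ℤ) : ℤ := if D % 4 = 0 then D / 4 else D

/-- the sign `κ` changes by the character `(-N_d / n)` when `d` is replaced by `d n`, for
`n ≡ 1 mod 4` of either sign prime to `P` -/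
def TwSign (κ : ℤ → ℤ) (P : ℕ) : Prop :=
  ∀ d : ℤ, Squarefree d → d ∣ P → ∃ (ε : ℤ) (N : ℕ), |ε| ≤ 1 ∧ N ≠ 0 ∧
    ∀ n : ℤ, Squarefree n → n % 4 = 1 → n.natAbs.Coprime P →
      κ (d * n) = ε * (n.sign * J((N : ℤ) | n.natAbs))

open scoped Classical in
/-- squarefree `n ≡ 1 mod 4` prime to `P` -/
noncomputable def Tn (P Z : ℕ) : Finset ℤ :=
  (Icc (-(Z : ℤ)) Z).filter (fun n => Squarefree n ∧ n % 4 = 1 ∧ n.natAbs.Coprime P)

open scoped Classical in
/-- squarefree divisors of `P` of either sign -/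
noncomputable def Dv (P : ℕ) : Finset ℤ :=
  (Icc (-(P : ℤ)) P).filter (fun d => Squarefree d ∧ d ∣ P)

lemma mem_Tn {P Z : ℕ} {n : ℤ} : n ∈ Tn P Z ↔ n.natAbs ≤ Z ∧ Squarefree n ∧ n % 4 = 1 ∧
    n.natAbs.Coprime P := by
  classical
  unfold Tn
  simp only [mem_filter, mem_Icc]
  constructor
  · rintro ⟨⟨h1, h2⟩, h3⟩
    exact ⟨by omega, h3⟩
  · rintro ⟨h1, h3⟩
    exact ⟨⟨by omega, by omega⟩, h3⟩

lemma mem_Dv {P : ℕ} (hP0 : P ≠ 0) {d : ℤ} : d ∈ Dv P ↔ Squarefree d ∧ d ∣ P := by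
  classical
  unfold Dv
  simp only [mem_filter, mem_Icc]
  constructor
  · rintro ⟨_, h3⟩
    exact h3
  · rintro ⟨h1, h3⟩
    have h4 : d.natAbs ≤ P := Nat.le_of_dvd (Nat.pos_of_ne_zero hP0) (Int.natAbs_dvd_natAbs.2 h3)
    exact ⟨⟨by omega, by omega⟩, h1, h3⟩

/-- the inner sum -/
lemma sum_Tn {N P : ℕ} (hP : 2 ∣ P) (Z : ℕ) :
    ∑ n ∈ Tn P Z, n.sign * J((N : ℤ) | n.natAbs) =
      ∑ m ∈ Icc 1 Z, (if Squarefree m then fch N P m else 0) := by
  classical
  have h1 : ∀ m ∈ Icc 1 Z, (if Squarefree m then fch N P m else 0) =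
      if Squarefree m ∧ m.Coprime P then J(-(N : ℤ) | m) else 0 := by
    intro m _
    unfold fch
    by_cases h1 : Squarefree m
    · by_cases h2 : m.Coprime P
      · rw [if_pos h1, if_pos h2, if_pos ⟨h1, h2⟩]
      · rw [if_pos h1, if_neg h2, if_neg (fun h => h2 h.2)]
    · rw [if_neg h1, if_neg (fun h => h1 h.1)]
  rw [sum_congr rfl h1, ← sum_filter]
  refine sum_bij' (fun n _ => n.natAbs)
    (fun m _ => if m % 4 = 1 then (m : ℤ) else -(m : ℤ)) ?_ ?_ ?_ ?_ ?_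
  · intro n hn
    rw [mem_Tn] at hn
    rw [mem_filter, mem_Icc]
    refine ⟨⟨?_, hn.1⟩, Int.squarefree_natAbs.2 hn.2.1, hn.2.2.2⟩
    have : n ≠ 0 := hn.2.1.ne_zero
    omega
  · intro m hm
    rw [mem_filter, mem_Icc] at hm
    have hodd := odd_of_coprime hP hm.2.2
    rw [Nat.odd_iff] at hodd
    rw [mem_Tn]
    split_ifs with h4
    · refine ⟨by simpa using hm.1.2, Int.squarefree_natCast.2 hm.2.1, by omega, ?_⟩
      rw [Int.natAbs_natCast]; exact hm.2.2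
    · refine ⟨by simpa using hm.1.2, ?_, by omega, ?_⟩
      · rw [← Int.squarefree_natAbs, Int.natAbs_neg, Int.natAbs_natCast]; exact hm.2.1
      · rw [Int.natAbs_neg, Int.natAbs_natCast]; exact hm.2.2
  · intro n hn
    rw [mem_Tn] at hn
    split_ifs with h4 <;> omega
  · intro m hm
    split_ifs <;> simp
  · intro n hn
    rw [mem_Tn] at hn
    have hodd := odd_of_coprime hP hn.2.2.2
    rw [jacobiSym.neg _ hodd]
    congr 1
    rcases le_total 0 n with h | h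
    · have h0 : n ≠ 0 := hn.2.1.ne_zero
      rw [Int.sign_eq_one_of_pos (by omega), ZMod.χ₄_nat_one_mod_four (by omega)]
    · have h0 : n ≠ 0 := hn.2.1.ne_zero
      rw [Int.sign_eq_neg_one_of_neg (by omega), ZMod.χ₄_nat_three_mod_four (by omega)]

open scoped Classical in
/-- decomposition `m = d n` -/
lemma sum_decomp (κ : ℤ → ℤ) {P : ℕ} (hP : 2 ∣ P) (hP0 : P ≠ 0) (R : ℤ → Prop)
    (hR : ∀ a b : ℤ, a % 4 = b % 4 → (R a ↔ R b)) (Y : ℕ) :
    ∑ m ∈ (Icc (-(Y : ℤ)) Y).filter (fun m => Squarefree m ∧ R m), κ m =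
      ∑ d ∈ (Dv P).filter R, ∑ n ∈ Tn P (Y / d.natAbs), κ (d * n) := by
  rw [sum_sigma']
  symm
  refine sum_bij (fun x _ => x.1 * x.2) ?_ ?_ ?_ ?_
  · rintro ⟨d, n⟩ hx
    rw [mem_sigma, mem_filter, mem_Dv hP0, mem_Tn] at hx
    obtain ⟨⟨⟨hd, hdP⟩, hRd⟩, hn, hsq, hn4, hc⟩ := hx
    simp only at hd hdP hRd hn hsq hn4 hc ⊢
    rw [mem_filter, mem_Icc]
    have h1 : (d * n).natAbs ≤ Y := by
      rw [Int.natAbs_mul]
      calc d.natAbs * n.natAbs ≤ d.natAbs * (Y / d.natAbs) := Nat.mul_le_mul_left _ hn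
        _ ≤ Y := Nat.mul_div_le _ _
    refine ⟨⟨by omega, by omega⟩, ?_, ?_⟩
    · rw [← Int.squarefree_natAbs, Int.natAbs_mul, Nat.squarefree_mul_iff]
      refine ⟨?_, Int.squarefree_natAbs.2 hd, Int.squarefree_natAbs.2 hsq⟩
      exact (hc.coprime_dvd_right (Int.natAbs_dvd_natAbs.2 hdP)).symm
    · rw [hR (d * n) d (by rw [Int.mul_emod, hn4, mul_one, Int.emod_emod_of_dvd _ (dvd_refl 4)])]
      exact hRd
  · rintro ⟨d, n⟩ hx ⟨d', n'⟩ hx' h
    rw [mem_sigma, mem_filter, mem_Dv hP0, mem_Tn] at hx hx'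
    obtain ⟨⟨⟨hd, hdP⟩, hRd⟩, hn, hsq, hn4, hc⟩ := hx
    obtain ⟨⟨⟨hd', hdP'⟩, hRd'⟩, hn', hsq', hn4', hc'⟩ := hx'
    simp only at hd hdP hRd hn hsq hn4 hc hd' hdP' hRd' hn' hsq' hn4' hc' h
    have key : ∀ (d n : ℤ), d ∣ P → n.natAbs.Coprime P → (d * n).natAbs.gcd P = d.natAbs := by
      intro d n hd hn
      rw [Int.natAbs_mul, Nat.Coprime.gcd_mul_right_cancel _ hn]
      exact Nat.gcd_eq_left (Int.natAbs_dvd_natAbs.2 hd)
    have h1 : d.natAbs = d'.natAbs := by rw [← key d n hdP hc, h, key d' n' hdP' hc']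
    have h0 : d ≠ 0 := hd.ne_zero
    rcases Int.natAbs_eq_natAbs_iff.1 h1 with h2 | h2
    · subst h2
      have h3 : n = n' := mul_left_cancel₀ h0 h
      subst h3
      rfl
    · exfalso
      have h3 : d' * (-n) = d' * n' := by rw [← h, h2]; ring
      have h4 : -n = n' := mul_left_cancel₀ hd'.ne_zero h3
      omega
  · intro m hm
    rw [mem_filter, mem_Icc] at hm
    obtain ⟨⟨hm1, hm2⟩, hsq, hRm⟩ := hm
    have hm0 : m ≠ 0 := hsq.ne_zero
    set g := m.natAbs.gcd P with hg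
    have hg0 : 0 < g := Nat.gcd_pos_of_pos_right _ (Nat.pos_of_ne_zero hP0)
    have hgm : (g : ℤ) ∣ m := Int.natCast_dvd.2 (Nat.gcd_dvd_left _ _)
    have hgP : (g : ℤ) ∣ (P : ℤ) := Int.natCast_dvd_natCast.2 (Nat.gcd_dvd_right _ _)
    obtain ⟨r, hr⟩ := hgm
    have hsqn : Squarefree (g * r.natAbs) := by
      have := Int.squarefree_natAbs.2 hsq
      rwa [hr, Int.natAbs_mul, Int.natAbs_natCast] at this
    rw [Nat.squarefree_mul_iff] at hsqn
    have hrc : r.natAbs.Coprime P := by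
      by_contra h
      obtain ⟨l, hl, hl1, hl2⟩ := Nat.Prime.not_coprime_iff_dvd.1 h
      have h3 : l ∣ g := by
        rw [hg]
        apply Nat.dvd_gcd _ hl2
        rw [hr, Int.natAbs_mul]
        exact Dvd.dvd.mul_left hl1 _
      exact hl.one_lt.ne' (Nat.eq_one_of_dvd_coprimes hsqn.1 h3 hl1)
    have hodd := odd_of_coprime hP hrc
    rw [Nat.odd_iff] at hodd
    have hmY : m.natAbs ≤ Y := by omega
    have hrY : r.natAbs ≤ Y / g := by
      rw [Nat.le_div_iff_mul_le hg0, mul_comm]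
      rw [hr, Int.natAbs_mul, Int.natAbs_natCast] at hmY
      exact hmY
    have hr4 : r % 4 = 1 ∨ r % 4 = 3 := by omega
    rcases hr4 with hr4 | hr4
    · refine ⟨⟨(g : ℤ), r⟩, ?_, hr.symm⟩
      rw [mem_sigma, mem_filter, mem_Dv hP0, mem_Tn]
      refine ⟨⟨⟨Int.squarefree_natCast.2 hsqn.2.1, hgP⟩, ?_⟩, ?_, Int.squarefree_natAbs.1 hsqn.2.2,
        hr4, hrc⟩
      · rw [hR (g : ℤ) m (by rw [hr, Int.mul_emod, hr4, mul_one,
          Int.emod_emod_of_dvd _ (dvd_refl 4)])]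
        exact hRm
      · simpa using hrY
    · refine ⟨⟨-(g : ℤ), -r⟩, ?_, by rw [hr]; ring⟩
      rw [mem_sigma, mem_filter, mem_Dv hP0, mem_Tn]
      refine ⟨⟨⟨?_, (neg_dvd).2 hgP⟩, ?_⟩, ?_, ?_, by simp only; omega, ?_⟩
      · rw [← Int.squarefree_natAbs, Int.natAbs_neg, Int.natAbs_natCast]; exact hsqn.2.1
      · have h5 : (-(g : ℤ)) % 4 = m % 4 := by
          have h6 : m = -(g : ℤ) * (-r) := by rw [hr]; ring
          have h7 : (-r) % 4 = 1 := by omega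
          rw [h6, Int.mul_emod (-(g : ℤ)) (-r), h7, mul_one, Int.emod_emod_of_dvd _ (dvd_refl 4)]
        rw [hR _ m h5]
        exact hRm
      · simpa using hrY
      · rw [← Int.squarefree_natAbs, Int.natAbs_neg]; exact hsqn.2.2
      · simpa using hrc
  · rintro ⟨d, n⟩ _
    rfl

open scoped Classical in
/-- the bound for the sum over the squarefree integers in classes modulo `4` -/
lemma sum_bound {κ : ℤ → ℤ} {P : ℕ} (hP : 2 ∣ P) (hP0 : P ≠ 0) (h : TwSign κ P) :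
    ∃ C : ℤ, 0 ≤ C ∧ ∀ (R : ℤ → Prop), (∀ a b : ℤ, a % 4 = b % 4 → (R a ↔ R b)) → ∀ Y : ℕ,
      |∑ m ∈ (Icc (-(Y : ℤ)) Y).filter (fun m => Squarefree m ∧ R m), κ m| ≤
        C * (Nat.sqrt Y : ℤ) := by
  choose! ε N hε hN hκ using h
  refine ⟨∑ d ∈ Dv P, 4 * (N d : ℤ) * P, sum_nonneg (fun d _ => by positivity),
    fun R hR Y => ?_⟩
  rw [sum_decomp κ hP hP0 R hR, sum_mul]
  refine (abs_sum_le_sum_abs _ _).trans ?_
  calc ∑ d ∈ (Dv P).filter R, |∑ n ∈ Tn P (Y / d.natAbs), κ (d * n)|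
      ≤ ∑ d ∈ (Dv P).filter R, 4 * (N d : ℤ) * P * (Nat.sqrt Y : ℤ) := by
        apply sum_le_sum
        intro d hd
        rw [mem_filter, mem_Dv hP0] at hd
        obtain ⟨⟨hd, hdP⟩, -⟩ := hd
        have e1 : ∑ n ∈ Tn P (Y / d.natAbs), κ (d * n) =
            ε d * ∑ m ∈ Icc 1 (Y / d.natAbs), (if Squarefree m then fch (N d) P m else 0) := by
          rw [← sum_Tn hP, mul_sum]
          apply sum_congr rfl
          intro n hn
          rw [mem_Tn] at hn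
          exact hκ d hd hdP n hn.2.1 hn.2.2.1 hn.2.2.2
        rw [e1, abs_mul]
        have e2 := fch_squarefree (hN d hd hdP) hP hP0 (Y / d.natAbs)
        have e3 : (Nat.sqrt (Y / d.natAbs) : ℤ) ≤ (Nat.sqrt Y : ℤ) := by
          exact_mod_cast Nat.sqrt_le_sqrt (Nat.div_le_self Y _)
        calc |ε d| * |∑ m ∈ Icc 1 (Y / d.natAbs), (if Squarefree m then fch (N d) P m else 0)|
            ≤ 1 * (4 * (N d : ℤ) * P * (Nat.sqrt (Y / d.natAbs) : ℤ)) :=
              mul_le_mul (hε d hd hdP) e2 (abs_nonneg _) (by norm_num)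
          _ ≤ 4 * (N d : ℤ) * P * (Nat.sqrt Y : ℤ) := by
              rw [one_mul]
              exact mul_le_mul_of_nonneg_left e3 (by positivity)
    _ ≤ ∑ d ∈ Dv P, 4 * (N d : ℤ) * P * (Nat.sqrt Y : ℤ) :=
        sum_le_sum_of_subset_of_nonneg (filter_subset _ _) (fun d _ _ => by positivity)

/-- **the sum over the fundamental discriminants** -/
theorem sum_Fam_sign {κ : ℤ → ℤ} {P : ℕ} (hP : 2 ∣ P) (hP0 : P ≠ 0) (h : TwSign κ P) :
    ∃ C : ℤ, ∀ X : ℕ, |∑ D ∈ Fam X, κ (sfk D)| ≤ C * (Nat.sqrt X : ℤ) + C := by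
  classical
  obtain ⟨C, hC0, hC⟩ := sum_bound hP hP0 h
  refine ⟨2 * C + |κ 1|, fun X => ?_⟩
  have e1 : ∑ D ∈ Fam X, κ (sfk D) =
      (∑ m ∈ (Icc (-(X : ℤ)) X).filter (fun m => Squarefree m ∧ m % 4 = 1), κ m -
        (if 1 ≤ X then κ 1 else 0)) +
      ∑ m ∈ (Icc (-((X / 4 : ℕ) : ℤ)) (X / 4 : ℕ)).filter
        (fun m => Squarefree m ∧ (m % 4 = 2 ∨ m % 4 = 3)), κ m := by
    have s1 : (Fam X).filter (fun D => D % 4 = 1) =
        ((Icc (-(X : ℤ)) X).filter (fun m => Squarefree m ∧ m % 4 = 1)).filter (fun m => m ≠ 1) := by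
      ext D
      unfold Fam IsFund
      simp only [mem_filter, mem_Icc]
      constructor
      · rintro ⟨⟨h1, h2, h3⟩, h4⟩
        rcases h3 with h3 | ⟨d, hd, -⟩
        · exact ⟨⟨h1, h3.2, h4⟩, h2⟩
        · omega
      · rintro ⟨⟨h1, h2, h3⟩, h4⟩
        exact ⟨⟨h1, h4, Or.inl ⟨h3, h2⟩⟩, h3⟩
    have s2 : ∑ D ∈ (Fam X).filter (fun D => ¬ D % 4 = 1), κ (sfk D) =
        ∑ m ∈ (Icc (-((X / 4 : ℕ) : ℤ)) (X / 4 : ℕ)).filter
        (fun m => Squarefree m ∧ (m % 4 = 2 ∨ m % 4 = 3)), κ m := by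
      refine sum_bij' (fun D _ => D / 4) (fun m _ => 4 * m) ?_ ?_ ?_ ?_ ?_
      · intro D hD
        unfold Fam IsFund at hD
        simp only [mem_filter, mem_Icc] at hD
        obtain ⟨⟨h1, h2, h3⟩, h4⟩ := hD
        rcases h3 with h3 | ⟨d, hd, h5, h6⟩
        · exact absurd h3.1 h4
        · rw [mem_filter, mem_Icc]
          have h7 : D / 4 = d := by omega
          rw [h7]
          exact ⟨⟨by omega, by omega⟩, h6, h5⟩
      · intro m hm
        rw [mem_filter, mem_Icc] at hm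
        unfold Fam IsFund
        simp only [mem_filter, mem_Icc]
        refine ⟨⟨⟨by omega, by omega⟩, by omega, Or.inr ⟨m, rfl, hm.2.2, hm.2.1⟩⟩, by omega⟩
      · intro D hD
        unfold Fam IsFund at hD
        simp only [mem_filter, mem_Icc] at hD
        obtain ⟨⟨h1, h2, h3⟩, h4⟩ := hD
        rcases h3 with h3 | ⟨d, hd, h5, h6⟩
        · exact absurd h3.1 h4
        · omega
      · intro m _
        omega
      · intro D hD
        unfold Fam IsFund at hD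
        simp only [mem_filter, mem_Icc] at hD
        obtain ⟨⟨h1, h2, h3⟩, h4⟩ := hD
        rcases h3 with h3 | ⟨d, hd, h5, h6⟩
        · exact absurd h3.1 h4
        · unfold sfk
          rw [if_pos (by omega)]
    rw [← sum_filter_add_sum_filter_not (Fam X) (fun D => D % 4 = 1), s2]
    congr 1
    have s3 : ∑ D ∈ (Fam X).filter (fun D => D % 4 = 1), κ (sfk D) =
        ∑ m ∈ (Fam X).filter (fun D => D % 4 = 1), κ m := by
      apply sum_congr rfl
      intro D hD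
      rw [mem_filter] at hD
      unfold sfk
      rw [if_neg (by omega)]
    rw [s3, s1, eq_sub_iff_add_eq]
    rw [← sum_filter_add_sum_filter_not
      ((Icc (-(X : ℤ)) X).filter (fun m => Squarefree m ∧ m % 4 = 1)) (fun m => m ≠ 1)]
    congr 1
    split_ifs with hX
    · have : (((Icc (-(X : ℤ)) X).filter (fun m => Squarefree m ∧ m % 4 = 1)).filter
          (fun m => ¬ m ≠ 1)) = {1} := by
        ext m
        simp only [mem_filter, mem_Icc, mem_singleton, not_not]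
        constructor
        · rintro ⟨-, h⟩; exact h
        · rintro rfl
          exact ⟨⟨⟨by omega, by exact_mod_cast hX⟩, squarefree_one, by norm_num⟩, rfl⟩
      rw [this, sum_singleton]
    · symm
      apply sum_eq_zero
      intro m hm
      simp only [mem_filter, mem_Icc, not_not] at hm
      omega
  have e2 : |∑ m ∈ (Icc (-(X : ℤ)) X).filter (fun m => Squarefree m ∧ m % 4 = 1), κ m| ≤
      C * (Nat.sqrt X : ℤ) := by
    have := hC (fun m => m % 4 = 1) (fun a b hab => by rw [hab]) X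
    convert this
  have e3 : |∑ m ∈ (Icc (-((X / 4 : ℕ) : ℤ)) (X / 4 : ℕ)).filter
      (fun m => Squarefree m ∧ (m % 4 = 2 ∨ m % 4 = 3)), κ m| ≤
      C * (Nat.sqrt (X / 4) : ℤ) := by
    have := hC (fun m => m % 4 = 2 ∨ m % 4 = 3) (fun a b hab => by rw [hab]) (X / 4)
    convert this
  have e4 : (Nat.sqrt (X / 4) : ℤ) ≤ (Nat.sqrt X : ℤ) := by
    exact_mod_cast Nat.sqrt_le_sqrt (Nat.div_le_self X 4)
  have e5 : |(if 1 ≤ X then κ 1 else 0 : ℤ)| ≤ |κ 1| := by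
    split_ifs
    · exact le_refl _
    · rw [abs_zero]; exact abs_nonneg _
  rw [e1]
  refine (abs_add_le _ _).trans ?_
  have e6 := abs_sub (∑ m ∈ (Icc (-(X : ℤ)) X).filter (fun m => Squarefree m ∧ m % 4 = 1), κ m)
    (if 1 ≤ X then κ 1 else 0 : ℤ)
  have e7 : 0 ≤ |κ 1| := abs_nonneg _
  have e8 : (0 : ℤ) ≤ (Nat.sqrt X : ℤ) := Int.natCast_nonneg _
  have e9 := mul_le_mul_of_nonneg_left e4 hC0
  have e10 := mul_nonneg e7 e8
  have e11 : (2 * C + |κ 1|) * (Nat.sqrt X : ℤ) + (2 * C + |κ 1|) =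
      C * (Nat.sqrt X : ℤ) + C * (Nat.sqrt X : ℤ) + |κ 1| * (Nat.sqrt X : ℤ) + 2 * C + |κ 1| := by
    ring
  rw [e11]
  linarith

end QN
end P004
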