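import Vale.Agent.P004.C
import Vale.Agent.P004.H760.Vanish

/-!
# P004: the sign of the functional equation and the parity of the analytic rank
-/

open Real MeasureTheory Set Filter
open scoped ENNReal Topology

namespace P004.H628

/-- the sign of the functional equation of the twist by the squarefree integer `m` -/
noncomputable def sg (m : ℕ) : ℝ := if m % 8 = 1 ∨ m % 8 = 2 ∨ m % 8 = 3 then 1 else -1

lemma sg_cases (m : ℕ) : sg m = 1 ∨ sg m = -1 := by
  unfold sg; split_ifs <;> simp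

lemma chi4_nat (n : ℕ) : ZMod.χ₄ (n : ZMod 4) = if n % 4 = 1 then 1 else if n % 4 = 3 then -1
    else 0 := by
  rw [ZMod.χ₄_nat_mod_four]
  have h : n % 4 < 4 := Nat.mod_lt _ (by norm_num)
  interval_cases n % 4 <;> rfl

lemma two_sym {m : ℕ} (hm : Odd m) : jacobiSym 2 m = if m % 8 = 1 ∨ m % 8 = 7 then 1 else -1 := by
  rw [jacobiSym.at_two hm, ZMod.χ₈_nat_eq_if_mod_eight]
  have h1 : m % 2 ≠ 0 := by rw [Nat.odd_iff] at hm; omega
  rw [if_neg h1]

/-- the functional equation with its sign -/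
theorem fe_sg (m : ℕ) (hm : Squarefree m) (u : ℝ) (hu : 0 < u) :
    theta m u = sg m / (Qm m * u ^ 2) * theta m (1 / (Qm m * u)) := by
  rcases Nat.even_or_odd m with hev | hodd
  · -- m = 2 n
    obtain ⟨n, hn⟩ := hev
    have hmn : m = 2 * n := by omega
    subst hmn
    have hn0 : n ≠ 0 := by
      rintro rfl
      simp at hm
    have hnodd : Odd n := by
      rcases Nat.even_or_odd n with h | h
      · exfalso
        obtain ⟨k, hk⟩ := h
        have h2 : 2 * 2 ∣ 2 * n := ⟨k, by omega⟩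
        have := hm 2 h2
        rw [Nat.isUnit_iff] at this
        omega
      · exact h
    have : NeZero n := ⟨hn0⟩
    have hsq : Squarefree n := hm.of_mul_right
    have hsg : sg (2 * n) = ((ZMod.χ₄ n : ℤ) : ℝ) := by
      have h1 : n % 2 = 1 := Nat.odd_iff.1 hnodd
      rw [chi4_nat]
      unfold sg
      rcases (by omega : n % 4 = 1 ∨ n % 4 = 3) with h | h
      · rw [if_pos (by omega), if_pos h]; norm_num
      · rw [if_neg (by omega), if_neg (by omega), if_pos h]; norm_num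
    have hQ : Qm (2 * n) = 16 * (n : ℝ) ^ 2 := by
      unfold Qm
      rw [if_neg (by rw [Nat.not_odd_iff_even]; exact even_two_mul n)]
      push_cast
      ring
    rw [hQ, hsg]
    have hu' : 0 < 1 / (16 * (n : ℝ) ^ 2 * u) := by positivity
    rw [theta_sym_even n hnodd hu, theta_sym_even n hnodd hu',
      lattice_poisson n e1 hnodd hsq e1 (by decide) dft_e1 hu]
    ring
  · -- m odd
    have hm0 : m ≠ 0 := by rintro rfl; simp at hm
    have : NeZero m := ⟨hm0⟩
    have hsg : sg m = ((ZMod.χ₄ m : ℤ) : ℝ) * (jacobiSym 2 m : ℝ) := by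
      have h1 : m % 2 = 1 := Nat.odd_iff.1 hodd
      rw [chi4_nat, two_sym hodd]
      unfold sg
      rcases (by omega : m % 8 = 1 ∨ m % 8 = 3 ∨ m % 8 = 5 ∨ m % 8 = 7) with h | h | h | h
      · rw [if_pos (by omega), if_pos (by omega), if_pos (by omega)]; norm_num
      · rw [if_pos (by omega), if_neg (by omega), if_pos (by omega), if_neg (by omega)]; norm_num
      · rw [if_neg (by omega), if_pos (by omega), if_neg (by omega)]; norm_num
      · rw [if_neg (by omega), if_neg (by omega), if_pos (by omega), if_pos (by omega)]; norm_num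
    have hQ : Qm m = 8 * (m : ℝ) ^ 2 := by
      unfold Qm
      rw [if_pos hodd]
    rw [hQ, hsg]
    have hm1 : (0 : ℝ) < m := by positivity
    have hu' : 0 < 1 / (8 * (m : ℝ) ^ 2 * u) := by positivity
    have hu'' : 0 < 1 / (16 * (m : ℝ) ^ 2 * u) := by positivity
    have h1 := lattice_poisson m e0 hodd hm (fun k => 1 - e1 k) (by decide)
      (by intro k; rw [dft_e0]; push_cast; ring) hu
    have h2 := rotate m hodd hu''
    have h3 : 2 * (1 / (16 * (m : ℝ) ^ 2 * u)) = 1 / (8 * (m : ℝ) ^ 2 * u) := by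
      field_simp
      norm_num
    rw [h3] at h2
    rw [theta_sym_odd m hodd hu, theta_sym_odd m hodd hu', h1]
    unfold Ls at h2
    rw [h2]
    field_simp
    ring

/-- an entire function with `F (2 - s) = κ F s` vanishes at `1` to an order of parity `κ` -/
theorem parity_of_fe {F : ℂ → ℂ} {κ : ℝ} {r : ℕ} (hF : Differentiable ℂ F)
    (hfe : ∀ s, F (2 - s) = κ * F s) (hr : analyticOrderAt F 1 = r) : κ = (-1) ^ r := by
  have hA : AnalyticAt ℂ F 1 := hF.analyticAt 1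
  obtain ⟨g, hg, hg1, hFg⟩ := (hA.analyticOrderAt_eq_natCast).1 hr
  -- `F (2 - s) = (1 - s)^r g (2 - s)`
  have h2 : Tendsto (fun s : ℂ => 2 - s) (𝓝 1) (𝓝 1) := by
    have : Tendsto (fun s : ℂ => 2 - s) (𝓝 1) (𝓝 (2 - 1)) := tendsto_const_nhds.sub tendsto_id
    norm_num at this
    exact this
  have hFg2 := h2.eventually hFg
  have hev : ∀ᶠ s in 𝓝[≠] (1 : ℂ), (-1 : ℂ) ^ r * g (2 - s) = κ * g s := by
    have h3 : ∀ᶠ s in 𝓝[≠] (1 : ℂ), s ∈ ({1}ᶜ : Set ℂ) := eventually_mem_nhdsWithin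
    filter_upwards [hFg.filter_mono nhdsWithin_le_nhds, hFg2.filter_mono nhdsWithin_le_nhds, h3]
      with s e1 e2 e3
    have hs : s - 1 ≠ 0 := sub_ne_zero.2 e3
    have e4 := hfe s
    rw [e1, e2] at e4
    simp only [smul_eq_mul] at e4
    have e5 : (2 - s - 1 : ℂ) ^ r = (-1) ^ r * (s - 1) ^ r := by
      rw [← mul_pow]; congr 1; ring
    rw [e5] at e4
    have hsr : (s - 1) ^ r ≠ 0 := pow_ne_zero _ hs
    have e6 : (s - 1) ^ r * ((-1 : ℂ) ^ r * g (2 - s)) = (s - 1) ^ r * (κ * g s) := by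
      calc (s - 1) ^ r * ((-1 : ℂ) ^ r * g (2 - s)) = (-1) ^ r * (s - 1) ^ r * g (2 - s) := by ring
        _ = κ * ((s - 1) ^ r * g s) := e4
        _ = _ := by ring
    exact mul_left_cancel₀ hsr e6
  have hc1 : Tendsto (fun s : ℂ => (-1 : ℂ) ^ r * g (2 - s)) (𝓝[≠] 1) (𝓝 ((-1) ^ r * g 1)) := by
    have h4 : Tendsto (fun s : ℂ => g (2 - s)) (𝓝 1) (𝓝 (g 1)) :=
      (hg.continuousAt.tendsto).comp h2
    exact (h4.const_mul _).mono_left nhdsWithin_le_nhds
  have hc2 : Tendsto (fun s : ℂ => (κ : ℂ) * g s) (𝓝[≠] 1) (𝓝 (κ * g 1)) :=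
    (hg.continuousAt.tendsto.const_mul _).mono_left nhdsWithin_le_nhds
  have hlim := tendsto_nhds_unique (hc1.congr' hev) hc2
  have h5 : ((-1 : ℂ) ^ r) = κ := mul_right_cancel₀ hg1 hlim
  have h6 : (((-1 : ℝ) ^ r : ℝ) : ℂ) = ((κ : ℝ) : ℂ) := by push_cast; exact h5
  exact (Complex.ofReal_injective h6).symm

/-- the parity of the order of vanishing of `Phi m` -/
theorem parity_Phi (hc : StCoef) {m : ℕ} (hm : 0 < m) {κ : ℝ} (hκ : κ = 1 ∨ κ = -1)
    (hfe : ∀ u : ℝ, 0 < u → theta m u = κ / (Qm m * u ^ 2) * theta m (1 / (Qm m * u)))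
    {r : ℕ} (hr : analyticOrderAt (K1.Phi m) 1 = r) : κ = (-1) ^ r := by
  have hκ0 : κ ≠ 0 := by rcases hκ with h | h <;> rw [h] <;> norm_num
  have hq : 0 < √(Qm m) := Real.sqrt_pos.2 (K1.Qm_pos hm)
  have hq' : 0 < (√(Qm m))⁻¹ := inv_pos.2 hq
  have hstr : IsStrongFEPair (K1.pair hc hm hκ0 hfe) := ⟨rfl, rfl⟩
  have hΛ : (K1.pair hc hm hκ0 hfe).Λ = mellin (K1.fth m) := hstr.Λ_eq
  have hΛ' : (K1.pair hc hm hκ0 hfe).symm.Λ = mellin (K1.fth m) := hstr.symm_Λ_eq
  have hd : Differentiable ℂ (mellin (K1.fth m)) := hΛ ▸ hstr.differentiable_Λ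
  have hF : ∀ s, mellin (K1.fth m) (2 - s) = κ * mellin (K1.fth m) s := by
    intro s
    have h1 := (K1.pair hc hm hκ0 hfe).functional_equation s
    rw [hΛ, hΛ'] at h1
    have h3 : (((K1.pair hc hm hκ0 hfe).k : ℝ) : ℂ) = 2 := by
      show ((2 : ℝ) : ℂ) = 2
      norm_num
    rw [h3] at h1
    exact h1
  refine parity_of_fe hd hF ?_
  have hf1 : Differentiable ℂ (fun s : ℂ => (((√(Qm m))⁻¹ : ℝ) : ℂ) ^ s) :=
    differentiable_id.const_cpow (Or.inl (by exact_mod_cast hq'.ne'))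
  have h2 : K1.Phi m = fun s => (((√(Qm m))⁻¹ : ℝ) : ℂ) ^ s * mellin (K1.fth m) s :=
    funext (K1.mellin_fth hm)
  have h4 := analyticOrderAt_mul (hf1.analyticAt 1) (hd.analyticAt 1)
  have h5 : analyticOrderAt (fun s : ℂ => (((√(Qm m))⁻¹ : ℝ) : ℂ) ^ s) 1 = 0 := by
    refine (hf1.analyticAt 1).analyticOrderAt_eq_zero.mpr ?_
    rw [Complex.cpow_one]
    exact_mod_cast hq'.ne'
  rw [h5, zero_add] at h4
  rw [← h4, ← hr, h2]
  rfl

/-- **Parity.** For a fundamental discriminant `D ≠ 1` and the corresponding squarefree `m`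
(`|D| = m` or `|D| = 4 m`), the sign of the functional equation is `(-1)^(aRank D)`. -/
def StParity : Prop :=
  ∀ D : ℤ, IsFund D → ∃ m : ℕ, 0 < m ∧ Squarefree m ∧ (D.natAbs = m ∨ D.natAbs = 4 * m) ∧
    sg m = (-1) ^ (aRank D)

theorem pfParity (hc : StCoef) (hd : StDiv) (hEu : StEuler) : StParity := by
  intro D hD
  obtain ⟨m, hm, hsq, hnat, hprod⟩ := hEu D hD
  have hκ := sg_cases m
  have hκfe := fe_sg m hsq
  refine ⟨m, hm, hsq, hnat, ?_⟩
  have hΦd : Differentiable ℂ (K1.Phi m) := (K1.Phi_props hc hm hκ hκfe).1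
  have hL : IsLFunction D (fun s => K1.Phi m s * L2.hf s) := by
    refine ⟨hΦd.mul L2.hf_diff, fun s hs => ?_⟩
    have h6 := hprod s hs
    have h7 : K1.Phi m s * L2.hf s = ∑' n : ℕ, ((ca n * chi m n : ℝ) : ℂ) / (n : ℂ) ^ s := by
      have h8 := (K1.Phi_series hc hd m hs).tsum_eq
      rw [tsum_mul_left] at h8
      rw [← h8]
      have := L2.hf_mul (s := s) (by linarith)
      calc 4 * Complex.Gamma s * (π : ℂ) ^ (-s) *
            (∑' n : ℕ, ((ca n * chi m n : ℝ) : ℂ) / (n : ℂ) ^ s) * L2.hf s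
          = (4 * Complex.Gamma s * (π : ℂ) ^ (-s) * L2.hf s) *
            (∑' n : ℕ, ((ca n * chi m n : ℝ) : ℂ) / (n : ℂ) ^ s) := by ring
        _ = _ := by rw [this, one_mul]
    simp only [h7]
    exact h6
  have hLT := L2.LTwist_eq hL
  have h3 : K1.Phi m 3 ≠ 0 := by
    intro h0
    have := K1.Phi_three hc hd m
    rw [h0, norm_zero] at this
    norm_num at this
  have hrank : analyticOrderAt (K1.Phi m) 1 = (aRank D : ℕ∞) := by
    have hne : analyticOrderAt (fun s => K1.Phi m s * L2.hf s) 1 ≠ ⊤ :=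
      L2.order_ne_top hL.entire (z := 3) (mul_ne_zero h3 (L2.hf_ne (by simp)))
    unfold aRank
    rw [hLT, Nat.cast_analyticOrderNatAt hne]
    have hm1 := analyticOrderAt_mul (hΦd.analyticAt 1) (L2.hf_diff.analyticAt 1)
    have hm2 : analyticOrderAt L2.hf 1 = 0 :=
      (L2.hf_diff.analyticAt 1).analyticOrderAt_eq_zero.mpr (L2.hf_ne (by simp))
    rw [hm2, add_zero] at hm1
    exact hm1.symm
  exact parity_Phi hc hm hκ hκfe hrank

end P004.H628
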