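import Vale.Agent.P004.H628.QW3
import Vale.Agent.P004G.H503.Fin2

/-!
# P004: one half of the twists has odd analytic rank, from the root numbers (general part)
-/

open Real Filter
open scoped Topology

namespace P004
namespace QN

open P004G (aRk OddHalf IsLT IsL LD FEq TH StLent StLparity isLT_iff fam_pos)
open P004G.ML

/-- **one half of the twists has odd analytic rank** if the root number of the twist by `m` is
`TwSign` -/
theorem oddHalf_of {a b : ℤ} {κ : ℤ → ℤ} {P : ℕ} (hP : 2 ∣ P) (hP0 : P ≠ 0) (h : TwSign κ P)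
    (hodd : ∀ D, IsFund D → (Odd (aRk a b D) → κ (sfk D) = -1) ∧
      (Even (aRk a b D) → κ (sfk D) = 1)) :
    OddHalf a b := by
  classical
  obtain ⟨c, hc, hcount⟩ := P004.pfCount
  obtain ⟨C, hC⟩ := sum_Fam_sign hP hP0 h
  set C' : ℝ := |(C : ℝ)| with hC'
  have hC0 : 0 ≤ C' := abs_nonneg _
  set fr : ℕ → ℝ := fun X : ℕ =>
    (((Fam X).filter (fun D => Odd (aRk a b D))).card : ℝ) / (Fam X).card with hfr
  have hkey : ∀ X : ℕ, 3 ≤ X → |fr X - 1 / 2| ≤ C' / c * (X : ℝ) ^ (-(1 / 2) : ℝ) := by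
    intro X hX
    have hX3 : (3 : ℝ) ≤ X := by exact_mod_cast hX
    have hcnt := hcount X hX
    set N : ℝ := ((Fam X).card : ℝ) with hN
    have hN0 : 0 < N := lt_of_lt_of_le (by positivity) hcnt
    have e1 : ((∑ D ∈ Fam X, κ (sfk D) : ℤ) : ℝ) = N - 2 * (((Fam X).filter
        (fun D => Odd (aRk a b D))).card : ℝ) := by
      have e2 : ∀ D ∈ Fam X, ((κ (sfk D) : ℤ) : ℝ) =
          1 - 2 * (if Odd (aRk a b D) then 1 else 0) := by
        intro D hD
        have hf : IsFund D := by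
          unfold Fam at hD
          exact (Finset.mem_filter.1 hD).2
        rcases Nat.even_or_odd (aRk a b D) with h | h
        · rw [(hodd D hf).2 h, if_neg (Nat.not_odd_iff_even.2 h)]; norm_num
        · rw [(hodd D hf).1 h, if_pos h]; norm_num
      push_cast
      rw [Finset.sum_congr rfl e2, Finset.sum_sub_distrib, ← Finset.mul_sum,
        Finset.sum_boole, Finset.sum_const, nsmul_eq_mul, mul_one]
    have e4 : |((∑ D ∈ Fam X, κ (sfk D) : ℤ) : ℝ)| ≤ C * (Nat.sqrt X : ℝ) + C := by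
      exact_mod_cast hC X
    have e5 : (Nat.sqrt X : ℝ) ≤ √(X : ℝ) := Real.nat_sqrt_le_real_sqrt
    have e6 : (1 : ℝ) ≤ √(X : ℝ) := by rw [Real.one_le_sqrt]; linarith
    have e7 : fr X - 1 / 2 = -((∑ D ∈ Fam X, κ (sfk D) : ℤ) : ℝ) / (2 * N) := by
      rw [hfr, e1]
      simp only
      rw [← hN]
      field_simp
      ring
    rw [e7, abs_div, abs_neg, abs_of_pos (by positivity : 0 < 2 * N), div_le_iff₀ (by positivity)]
    have e9 : √(X : ℝ) = X * (X : ℝ) ^ (-(1 / 2) : ℝ) := by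
      rw [Real.sqrt_eq_rpow]
      nth_rewrite 2 [← Real.rpow_one (X : ℝ)]
      rw [← Real.rpow_add (by linarith)]
      norm_num
    have e10 : 0 < (X : ℝ) ^ (-(1 / 2) : ℝ) := Real.rpow_pos_of_pos (by linarith) _
    have e11 : (0 : ℝ) ≤ (Nat.sqrt X : ℝ) := Nat.cast_nonneg _
    have e12 : (C : ℝ) ≤ C' := le_abs_self _
    calc |((∑ D ∈ Fam X, κ (sfk D) : ℤ) : ℝ)| ≤ C * (Nat.sqrt X : ℝ) + C := e4
      _ ≤ C' * (Nat.sqrt X : ℝ) + C' := by gcongr
      _ ≤ 2 * C' * √(X : ℝ) := by nlinarith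
      _ = 2 * C' / c * (X : ℝ) ^ (-(1 / 2) : ℝ) * (c * X) := by rw [e9]; field_simp
      _ ≤ 2 * C' / c * (X : ℝ) ^ (-(1 / 2) : ℝ) * N := by gcongr
      _ = C' / c * (X : ℝ) ^ (-(1 / 2) : ℝ) * (2 * N) := by ring
  have hlim : Tendsto (fun X : ℕ => C' / c * (X : ℝ) ^ (-(1 / 2) : ℝ)) atTop (𝓝 0) := by
    have h1 := (tendsto_rpow_neg_atTop (y := 1 / 2) (by norm_num)).comp
      (tendsto_natCast_atTop_atTop (R := ℝ))
    have h2 := h1.const_mul (C' / c)
    rw [mul_zero] at h2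
    exact h2
  have hT : Tendsto fr atTop (𝓝 (1 / 2)) := by
    rw [tendsto_iff_norm_sub_tendsto_zero]
    refine tendsto_of_tendsto_of_tendsto_of_le_of_le' tendsto_const_nhds hlim ?_ ?_
    · filter_upwards with X using norm_nonneg _
    · filter_upwards [eventually_ge_atTop 3] with X hX
      rw [Real.norm_eq_abs]
      exact hkey X hX
  unfold OddHalf
  convert hT

/-- the root number determines the parity of the analytic rank -/
theorem rank_parity (hEnt : StLent) (hPar : StLparity) {a b D : ℤ} {A : ℕ → ℤ}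
    (hA : ∀ n, A n = LA (a * D ^ 2) (b * D ^ 3) n) {q κ : ℝ} (hLD : LD A) (hFE : FEq A q κ) :
    κ = 1 ↔ Even (aRk a b D) := by
  have hA' : A = LA (a * D ^ 2) (b * D ^ 3) := funext hA
  subst hA'
  obtain ⟨L, hL, hU⟩ := hEnt _ _ _ hLD hFE
  have hLT : IsLT a b D L := (isLT_iff hLD).2 hL
  have hUT : ∀ L', IsLT a b D L' → L' = L := fun L' h' => hU L' ((isLT_iff hLD).1 h')
  have hrk : aRk a b D = analyticOrderNatAt L 1 := by
    unfold aRk
    have hex : ∃ L, IsLT a b D L := ⟨L, hLT⟩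
    rw [dif_pos hex, hUT _ hex.choose_spec]
  rw [hrk]
  exact hPar _ _ _ L hLD hFE hL

/-- uniqueness of the root number -/
theorem kappa_unique (hEnt : StLent) (hPar : StLparity) {A : ℕ → ℤ} {q κ q' κ' : ℝ} (hLD : LD A)
    (h : FEq A q κ) (h' : FEq A q' κ') : κ = κ' := by
  obtain ⟨L, hL, hU⟩ := hEnt _ _ _ hLD h
  have h1 := hPar _ _ _ L hLD h hL
  have h2 := hPar _ _ _ L hLD h' hL
  rcases h.2.1 with h3 | h3 <;> rcases h'.2.1 with h4 | h4
  · rw [h3, h4]
  · exfalso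
    have := h2.2 (h1.1 h3)
    rw [h4] at this
    norm_num at this
  · exfalso
    have := h1.2 (h2.1 h4)
    rw [h3] at this
    norm_num at this
  · rw [h3, h4]

end QN
end P004
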