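import Vale.Agent.P004.H628.QW4
import Vale.Agent.P004.H628.QW1

/-!
# P004: one half of the twists of `y² = x³ - A x` has odd analytic rank
-/

open Real Filter
open scoped Topology

namespace P004
namespace QN

open Finset
open P004G (aRk OddHalf IsLT IsL LD FEq TH StLent StLparity isLT_iff fam_pos cop RQ)
open P004G.ML
open scoped NumberTheorySymbols

section sixteen
variable {B : ℤ}

lemma padic_sixteen_two (hB : B ≠ 0) : padicValInt 2 (16 * B) = padicValInt 2 B + 4 := by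
  have h2 : Fact (Nat.Prime 2) := ⟨Nat.prime_two⟩
  rw [padicValInt.mul (by norm_num) hB, add_comm]
  congr 1
  have : (16 : ℤ) = ((2 ^ 4 : ℕ) : ℤ) := by norm_num
  rw [this, padicValInt.of_nat]
  exact padicValNat.prime_pow 4

lemma padic_sixteen_odd (hB : B ≠ 0) {q : ℕ} (hq : q.Prime) (hq2 : q ≠ 2) :
    padicValInt q (16 * B) = padicValInt q B := by
  have : Fact q.Prime := ⟨hq⟩
  rw [padicValInt.mul (by norm_num) hB]
  have h16 : (16 : ℤ) = ((16 : ℕ) : ℤ) := by norm_num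
  have h0 : padicValInt q 16 = 0 := by
    rw [h16, padicValInt.of_nat]
    apply padicValNat.eq_zero_of_not_dvd
    intro h
    have h3 : q ∣ 2 ^ 4 := by norm_num; exact h
    have := (Nat.prime_dvd_prime_iff_eq hq Nat.prime_two).1 (hq.dvd_of_dvd_pow h3)
    exact hq2 this
  rw [h0, zero_add]

lemma cop_two_sixteen (hB : B ≠ 0) : cop (16 * B) 2 = cop B 2 := by
  unfold cop
  rw [padic_sixteen_two hB]
  obtain ⟨c, hc⟩ : ∃ c, B = ((2 : ℕ) : ℤ) ^ padicValInt 2 B * c := ⟨_, (cop_mul B 2).symm⟩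
  set v := padicValInt 2 B
  rw [hc]
  have h2 : (((2 : ℕ) : ℤ) ^ v) ≠ 0 := by positivity
  have h4 : (((2 : ℕ) : ℤ) ^ (v + 4)) ≠ 0 := by positivity
  have e1 : 16 * (((2 : ℕ) : ℤ) ^ v * c) = ((2 : ℕ) : ℤ) ^ (v + 4) * c := by
    rw [pow_add]; push_cast; ring
  rw [e1, Int.mul_ediv_cancel_left _ h4, Int.mul_ediv_cancel_left _ h2]

lemma SQ_sixteen (hB : B ≠ 0) : SQ (16 * B) = SQ B := by
  unfold SQ
  ext q
  rw [mem_filter, mem_filter, Nat.mem_primeFactors, Nat.mem_primeFactors, Int.natAbs_mul]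
  constructor
  · rintro ⟨⟨h1, h2, -⟩, h3, h4⟩
    rw [padic_sixteen_odd hB h1 h3] at h4
    refine ⟨⟨h1, ?_, Int.natAbs_ne_zero.2 hB⟩, h3, h4⟩
    rcases (Nat.Prime.dvd_mul h1).1 h2 with h5 | h5
    · exfalso
      have h6 : q ∣ 2 ^ 4 := by simpa using h5
      exact h3 ((Nat.prime_dvd_prime_iff_eq h1 Nat.prime_two).1 (h1.dvd_of_dvd_pow h6))
    · exact h5
  · rintro ⟨⟨h1, h2, -⟩, h3, h4⟩
    rw [padic_sixteen_odd hB h1 h3]
    refine ⟨⟨h1, Dvd.dvd.mul_left h2 _, ?_⟩, h3, h4⟩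
    exact Nat.mul_ne_zero (by norm_num) (Int.natAbs_ne_zero.2 hB)

lemma XB_sixteen (hB : B ≠ 0) (α : GaussianInt) : XB (16 * B) α = XB B α := by
  unfold XB
  rw [SQ_sixteen hB]
  congr 1
  · unfold e2
    rw [padic_sixteen_two hB, cop_two_sixteen hB]
    have : padicValInt 2 B + 4 + (if cop B 2 % 4 = 1 then 0 else 2) =
      (padicValInt 2 B + (if cop B 2 % 4 = 1 then 0 else 2)) + 4 := by ring
    rw [this, pow_add, (T_is4 α).pow_four (T_ne_zero α), mul_one]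
  · apply prod_congr rfl
    intro q hq
    rw [padic_sixteen_odd hB (mem_SQ hq).1 (mem_SQ hq).2.1]

lemma AQ_sixteen (hB : B ≠ 0) : AQ (16 * B) = AQ B := by
  funext n
  unfold AQ
  apply sum_congr rfl
  intro z _
  unfold Phi
  rw [XB_sixteen hB]

end sixteen

open scoped Classical in
/-- the root number of `y² = x³ - A m² x` -/
noncomputable def rootQ (A m : ℤ) : ℤ := if ∃ q : ℝ, FEq (AQ (A * m ^ 2)) q 1 then 1 else -1

lemma rootQ_eq (hEnt : StLent) (hPar : StLparity) {A m : ℤ} (hA : A ≠ 0) (hm : m ≠ 0) {q κ : ℝ}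
    (h : FEq (AQ (A * m ^ 2)) q κ) : ((rootQ A m : ℤ) : ℝ) = κ := by
  have hLD : LD (AQ (A * m ^ 2)) := (coefQ (mul_ne_zero hA (pow_ne_zero 2 hm))).ld
  unfold rootQ
  rcases h.2.1 with h1 | h1
  · rw [if_pos ⟨q, by rw [← h1]; exact h⟩, h1]; norm_num
  · rw [if_neg, h1]
    · norm_num
    · rintro ⟨q', h'⟩
      have := kappa_unique hEnt hPar hLD h h'
      rw [h1] at this
      norm_num at this

lemma jac_sign {N : ℕ} {n : ℤ} (h4 : n % 4 = 1) :
    J(-(N : ℤ) | n.natAbs) = n.sign * J((N : ℤ) | n.natAbs) := by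
  have hodd : Odd n.natAbs := by rw [Nat.odd_iff]; omega
  rw [jacobiSym.neg _ hodd]
  congr 1
  rcases le_total 0 n with h | h
  · rw [Int.sign_eq_one_of_pos (by omega), ZMod.χ₄_nat_one_mod_four (by omega)]
  · rw [Int.sign_eq_neg_one_of_neg (by omega), ZMod.χ₄_nat_three_mod_four (by omega)]

/-- a number prime to `2 RQ A` is prime to `RQ (A d²)` for `d ∣ 2 RQ A` -/
lemma coprime_RQ_sq {A d : ℤ} (hA : A ≠ 0) (hd : d ≠ 0) (hdP : d ∣ ((2 * RQ A : ℕ) : ℤ)) {k : ℕ}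
    (hk : k.Coprime (2 * RQ A)) : k.Coprime (RQ (A * d ^ 2)) := by
  by_contra h
  obtain ⟨l, hl, hl1, hl2⟩ := Nat.Prime.not_coprime_iff_dvd.1 h
  have hlf : Fact l.Prime := ⟨hl⟩
  rw [RQ_eq] at hl2
  obtain ⟨q, hq, hlq⟩ := (hl.prime.dvd_finsetProd_iff _).1 hl2
  obtain ⟨hqp, hq2, hq4⟩ := mem_SQ hq
  have hlq' : l = q := (Nat.prime_dvd_prime_iff_eq hl hqp).1 hlq
  subst hlq'
  have hnl : ∀ x : ℕ, l ∣ x → x ∣ 2 * RQ A → False := by
    intro x h1 h2
    exact hl.one_lt.ne' (Nat.eq_one_of_dvd_coprimes hk hl1 (h1.trans h2))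
  have hld : ¬ (l : ℤ) ∣ d := by
    intro h1
    exact hnl d.natAbs (Int.natCast_dvd.1 h1) (Int.natAbs_dvd_natAbs.2 hdP)
  have hv : padicValInt l (A * d ^ 2) = padicValInt l A := by
    rw [padicValInt.mul hA (pow_ne_zero 2 hd), pow_two, padicValInt.mul hd hd,
      padicValInt.eq_zero_of_not_dvd hld, add_zero, add_zero]
  rw [hv] at hq4
  have hlA : l ∈ SQ A := by
    unfold SQ
    rw [mem_filter, Nat.mem_primeFactors]
    refine ⟨⟨hl, ?_, Int.natAbs_ne_zero.2 hA⟩, hq2, hq4⟩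
    by_contra h1
    apply hq4
    rw [padicValInt.eq_zero_of_not_dvd (fun h2 => h1 (Int.natCast_dvd.1 h2))]
    exact dvd_zero _
  have hlR : l ∣ RQ A := by
    rw [RQ_eq]
    exact dvd_prod_of_mem _ hlA
  exact hnl (RQ A) hlR (Dvd.intro_left _ rfl)

theorem twSignQ (hEnt : StLent) (hPar : StLparity) {A : ℤ} (hA : A ≠ 0) :
    TwSign (rootQ A) (2 * RQ A) := by
  intro d hd hdP
  have hd0 : d ≠ 0 := hd.ne_zero
  have hB : A * d ^ 2 ≠ 0 := mul_ne_zero hA (pow_ne_zero 2 hd0)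
  obtain ⟨κ, N, hκ, hN, htw⟩ := root_twist hB
  have hε : ∃ ε : ℤ, |ε| ≤ 1 ∧ (ε : ℝ) = κ := by
    rcases hκ with h | h
    · exact ⟨1, by norm_num, by rw [h]; norm_num⟩
    · exact ⟨-1, by norm_num, by rw [h]; norm_num⟩
  obtain ⟨ε, hε1, hε2⟩ := hε
  refine ⟨ε, N, hε1, hN.ne', fun n hn hn4 hnc => ?_⟩
  have hn0 : n ≠ 0 := hn.ne_zero
  obtain ⟨q, hq⟩ := htw n.natAbs (Int.squarefree_natAbs.2 hn) (by omega)
    (coprime_RQ_sq hA hd0 hdP hnc)
  have e1 : A * d ^ 2 * ((n.natAbs : ℕ) : ℤ) ^ 2 = A * (d * n) ^ 2 := by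
    rw [Int.natCast_natAbs, sq_abs]; ring
  rw [e1, jac_sign hn4] at hq
  have h3 := rootQ_eq hEnt hPar hA (mul_ne_zero hd0 hn0) hq
  rw [← hε2] at h3
  exact_mod_cast h3

/-- **one half of the twists of `y² = x³ - A x` has odd analytic rank** -/
theorem oddHalfQ (hMLQ : StMLQ) (hEnt : StLent) (hPar : StLparity) {A : ℤ} (hA : A ≠ 0) :
    OddHalf (-A) 0 := by
  refine oddHalf_of (κ := rootQ A) (P := 2 * RQ A) ⟨_, rfl⟩
    (Nat.mul_ne_zero (by norm_num) (RQ_ne_zero A)) (twSignQ hEnt hPar hA) ?_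
  intro D hD
  have hD0 : D ≠ 0 := by
    rintro rfl
    rcases hD with ⟨-, ⟨h, -⟩ | ⟨d, h1, h2, -⟩⟩
    · norm_num at h
    · omega
  have hs0 : sfk D ≠ 0 := by
    unfold sfk
    split_ifs with h4
    · omega
    · exact hD0
  have e1 : AQ (A * D ^ 2) = AQ (A * (sfk D) ^ 2) := by
    by_cases h4 : D % 4 = 0
    · have h5 : D = 4 * sfk D := by unfold sfk; rw [if_pos h4]; omega
      have h6 : A * D ^ 2 = 16 * (A * (sfk D) ^ 2) := by
        nth_rewrite 1 [h5]; ring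
      rw [h6, AQ_sixteen (mul_ne_zero hA (pow_ne_zero 2 hs0))]
    · have h5 : sfk D = D := by unfold sfk; rw [if_neg h4]
      rw [h5]
  have hB : A * D ^ 2 ≠ 0 := mul_ne_zero hA (pow_ne_zero 2 hD0)
  have hco := coefQ hB
  obtain ⟨q, κ, hfe, -⟩ := feq (A * D ^ 2)
  have hid : ∀ n, AQ (A * D ^ 2) n = LA (-A * D ^ 2) (0 * D ^ 3) n := by
    intro n
    rw [hMLQ _ hB _ hco n, neg_mul, zero_mul]
  have hpar := rank_parity hEnt hPar hid hco.ld hfe
  have hroot : ((rootQ A (sfk D) : ℤ) : ℝ) = κ := by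
    refine rootQ_eq hEnt hPar hA hs0 (q := q) ?_
    rw [← e1]; exact hfe
  constructor
  · intro hodd
    have h1 : κ ≠ 1 := fun h => (Nat.not_even_iff_odd.2 hodd) (hpar.1 h)
    have h2 : κ = -1 := hfe.2.1.resolve_left h1
    rw [h2] at hroot
    exact_mod_cast hroot
  · intro hev
    rw [hpar.2 hev] at hroot
    exact_mod_cast hroot

end QN
end P004
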